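import Mathlib

/-!
N3-P5 (helper545): interpolation inequalities on balls, with exact operator norms of
`iteratedFDeriv`.
-/

set_option maxSynthPendingDepth 3

open Set Filter Topology Metric

namespace Vale.Agent.P207.N3.H545

universe u v

/-- coefficients of the numerical differentiation formula. -/
theorem exists_diff_coeffs (n : ℕ) : ∃ c : Fin (n + 2) → ℝ, ∀ l : Fin (n + 2),
    ∑ i : Fin (n + 2), c i * (i : ℝ) ^ (l : ℕ) = if (l : ℕ) = 1 then 1 else 0 := by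
  classical
  set V : Matrix (Fin (n + 2)) (Fin (n + 2)) ℝ := Matrix.vandermonde (fun i => (i : ℝ)) with hV
  have hdet : V.det ≠ 0 := by
    rw [hV, Matrix.det_vandermonde_ne_zero_iff]
    intro i j h
    have h' : ((i : ℕ) : ℝ) = ((j : ℕ) : ℝ) := h
    exact Fin.ext (by exact_mod_cast h')
  have hunit : IsUnit V.det := isUnit_iff_ne_zero.mpr hdet
  set e : Fin (n + 2) → ℝ := fun l => if (l : ℕ) = 1 then 1 else 0 with he
  refine ⟨Matrix.vecMul e V⁻¹, fun l => ?_⟩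
  have h1 : Matrix.vecMul (Matrix.vecMul e V⁻¹) V = e := by
    rw [Matrix.vecMul_vecMul, Matrix.nonsing_inv_mul _ hunit, Matrix.vecMul_one]
  have h2 := congrFun h1 l
  simpa [Matrix.vecMul, dotProduct, hV, Matrix.vandermonde_apply] using h2

/-- one variable interpolation: `‖g'(0)‖ ≤ C (h⁻¹ sup‖g‖ + h^{n+1} sup‖g^{(n+2)}‖)`. -/
theorem exists_deriv_interp (n : ℕ) : ∃ C : ℝ, 0 ≤ C ∧
    ∀ (G : Type u) [NormedAddCommGroup G] [NormedSpace ℝ G] (g : ℝ → G) (h M₀ M₁ : ℝ), 0 < h →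
      (∀ t ∈ Icc 0 h, ContDiffAt ℝ (n + 2 : ℕ) g t) →
      (∀ t ∈ Icc 0 h, ‖g t‖ ≤ M₀) → (∀ t ∈ Icc 0 h, ‖iteratedDeriv (n + 2) g t‖ ≤ M₁) →
      ‖deriv g 0‖ ≤ C * (h⁻¹ * M₀ + h ^ (n + 1) * M₁) := by
  obtain ⟨c, hc⟩ := exists_diff_coeffs n
  refine ⟨(n + 1) * ∑ i, |c i|, by positivity, ?_⟩
  intro G _ _ g h M₀ M₁ hh hg hM₀ hM₁
  have h0 : (0 : ℝ) ∈ Icc 0 h := ⟨le_rfl, hh.le⟩
  have hM₀0 : 0 ≤ M₀ := (norm_nonneg _).trans (hM₀ 0 h0)
  have hM₁0 : 0 ≤ M₁ := (norm_nonneg _).trans (hM₁ 0 h0)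
  have hcd : ContDiffOn ℝ ((n + 1 : ℕ) + 1 : WithTop ℕ∞) g (Icc 0 h) := by
    intro t ht
    have := (hg t ht).contDiffWithinAt (s := Icc 0 h)
    exact_mod_cast this
  have hu : UniqueDiffOn ℝ (Icc (0 : ℝ) h) := uniqueDiffOn_Icc hh
  have hbd : ∀ y ∈ Icc 0 h, ‖iteratedDerivWithin ((n + 1) + 1) g (Icc 0 h) y‖ ≤ M₁ := by
    intro y hy
    rw [iteratedDerivWithin_eq_iteratedDeriv hu (by exact_mod_cast hg y hy) hy]
    exact hM₁ y hy
  -- nodes
  set x : Fin (n + 2) → ℝ := fun i => (i : ℝ) * (h / (n + 1)) with hx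
  have hn1 : (0 : ℝ) < (n : ℝ) + 1 := by positivity
  have hxm : ∀ i, x i ∈ Icc 0 h := by
    intro i
    have hi : (i : ℝ) ≤ (n : ℝ) + 1 := by
      have := i.2
      have h2 : (i : ℕ) ≤ n + 1 := by omega
      exact_mod_cast h2
    refine ⟨by positivity, ?_⟩
    show (i : ℝ) * (h / (n + 1)) ≤ h
    calc (i : ℝ) * (h / (n + 1)) ≤ ((n : ℝ) + 1) * (h / (n + 1)) := by gcongr
      _ = h := by field_simp
  have hR : ∀ i, ‖g (x i) - taylorWithinEval g (n + 1) (Icc 0 h) 0 (x i)‖ ≤ M₁ * h ^ (n + 2) := by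
    intro i
    have h1 := taylor_mean_remainder_bound hh.le hcd (hxm i) hbd
    refine h1.trans ?_
    rw [sub_zero]
    have hxi := hxm i
    have hfac : (1 : ℝ) ≤ ((n + 1).factorial : ℝ) := by exact_mod_cast Nat.one_le_iff_ne_zero.mpr (Nat.factorial_ne_zero _)
    calc M₁ * x i ^ (n + 1 + 1) / ((n + 1).factorial : ℝ) ≤ M₁ * x i ^ (n + 1 + 1) / 1 := by
          gcongr
      _ ≤ M₁ * h ^ (n + 2) := by
          rw [div_one]
          exact mul_le_mul_of_nonneg_left (pow_le_pow_left₀ hxi.1 hxi.2 _) hM₁0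
  -- the weighted sum of Taylor polynomials is `(h/(n+1)) g'(0)`
  have hd1 : iteratedDerivWithin 1 g (Icc 0 h) 0 = deriv g 0 := by
    rw [iteratedDerivWithin_eq_iteratedDeriv hu
      ((hg 0 h0).of_le (by exact_mod_cast (by omega : 1 ≤ n + 2))) h0, iteratedDeriv_one]
  have hsum : ∑ i, c i • taylorWithinEval g (n + 1) (Icc 0 h) 0 (x i) =
      (h / (n + 1)) • deriv g 0 := by
    have e1 : ∀ i, c i • taylorWithinEval g (n + 1) (Icc 0 h) 0 (x i) =
        ∑ k ∈ Finset.range (n + 2), (c i * (i : ℝ) ^ k) •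
          (((k.factorial : ℝ)⁻¹ * (h / (n + 1)) ^ k) • iteratedDerivWithin k g (Icc 0 h) 0) := by
      intro i
      rw [taylor_within_apply, Finset.smul_sum]
      refine Finset.sum_congr rfl fun k _ => ?_
      rw [smul_smul, smul_smul]
      congr 1
      simp only [hx, sub_zero]
      ring
    simp_rw [e1]
    rw [Finset.sum_comm]
    have e2 : ∀ k ∈ Finset.range (n + 2), ∑ i : Fin (n + 2), (c i * (i : ℝ) ^ k) •
          (((k.factorial : ℝ)⁻¹ * (h / (n + 1)) ^ k) • iteratedDerivWithin k g (Icc 0 h) 0) =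
        if k = 1 then (h / (n + 1)) • deriv g 0 else 0 := by
      intro k hk
      rw [← Finset.sum_smul]
      have := hc ⟨k, Finset.mem_range.mp hk⟩
      simp only at this
      rw [this]
      split_ifs with h1
      · subst h1
        simp [hd1]
      · simp
    rw [Finset.sum_congr rfl e2, Finset.sum_ite_eq' (Finset.range (n + 2)) 1]
    simp
  have hkey : (h / (n + 1)) • deriv g 0 =
      ∑ i, c i • g (x i) - ∑ i, c i • (g (x i) - taylorWithinEval g (n + 1) (Icc 0 h) 0 (x i)) := by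
    rw [← hsum, ← Finset.sum_sub_distrib]
    refine Finset.sum_congr rfl fun i _ => ?_
    rw [← smul_sub]; congr 1; abel
  have hb : ‖(h / (n + 1)) • deriv g 0‖ ≤ (∑ i, |c i|) * (M₀ + M₁ * h ^ (n + 2)) := by
    rw [hkey]
    refine (norm_sub_le _ _).trans ?_
    have a1 : ‖∑ i, c i • g (x i)‖ ≤ (∑ i, |c i|) * M₀ := by
      rw [Finset.sum_mul]
      refine (norm_sum_le _ _).trans (Finset.sum_le_sum fun i _ => ?_)
      rw [norm_smul, Real.norm_eq_abs]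
      exact mul_le_mul_of_nonneg_left (hM₀ _ (hxm i)) (abs_nonneg _)
    have a2 : ‖∑ i, c i • (g (x i) - taylorWithinEval g (n + 1) (Icc 0 h) 0 (x i))‖ ≤
        (∑ i, |c i|) * (M₁ * h ^ (n + 2)) := by
      rw [Finset.sum_mul]
      refine (norm_sum_le _ _).trans (Finset.sum_le_sum fun i _ => ?_)
      rw [norm_smul, Real.norm_eq_abs]
      exact mul_le_mul_of_nonneg_left (hR i) (abs_nonneg _)
    linarith
  rw [norm_smul, Real.norm_of_nonneg (by positivity)] at hb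
  have hpos : 0 < h / ((n : ℝ) + 1) := by positivity
  calc ‖deriv g 0‖ = (h / (n + 1))⁻¹ * (h / (n + 1) * ‖deriv g 0‖) := by
        field_simp
    _ ≤ (h / (n + 1))⁻¹ * ((∑ i, |c i|) * (M₀ + M₁ * h ^ (n + 2))) := by gcongr
    _ = (n + 1) * (∑ i, |c i|) * (h⁻¹ * M₀ + h ^ (n + 1) * M₁) := by
        field_simp
        ring

section Multi

variable {E : Type*} {F : Type*} [NormedAddCommGroup E] [NormedSpace ℝ E]
  [NormedAddCommGroup F] [NormedSpace ℝ F]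

/-- derivatives along a line. -/
theorem norm_iteratedDeriv_line_le {Z : E → F} {m : ℕ} {x u : E} {t : ℝ}
    (hZ : ContDiffAt ℝ m Z (x + t • u)) :
    ‖iteratedDeriv m (fun s : ℝ => Z (x + s • u)) t‖ ≤
      ‖iteratedFDeriv ℝ m Z (x + t • u)‖ * ‖u‖ ^ m := by
  obtain ⟨v, hv, hxv, hZv⟩ : ∃ v, IsOpen v ∧ (x + t • u) ∈ v ∧ ContDiffOn ℝ m Z v := by
    obtain ⟨v, hv, hxv, h⟩ :=
      (hZ.contDiffWithinAt (s := univ)).contDiffOn' le_rfl (by simp)
    exact ⟨v, hv, hxv, by simpa using h⟩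
  set Y : E → F := fun y => Z (x + y) with hY
  set s : Set E := (fun y => x + y) ⁻¹' v with hs
  have hso : IsOpen s := hv.preimage (by fun_prop)
  have hYs : ContDiffOn ℝ m Y s := hZv.comp (contDiff_const.add contDiff_id).contDiffOn
    (fun y hy => hy)
  set g : ℝ →L[ℝ] E := (ContinuousLinearMap.id ℝ ℝ).smulRight u with hg
  have hgt : ∀ r : ℝ, g r = r • u := fun r => by simp [hg]
  have hts : g t ∈ s := by rw [hgt]; exact hxv
  have hgo : IsOpen (g ⁻¹' s) := hso.preimage g.continuous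
  have h1 := g.iteratedFDerivWithin_comp_right hYs hso.uniqueDiffOn hgo.uniqueDiffOn hts
    (i := m) le_rfl
  have hfun : (fun s : ℝ => Z (x + s • u)) = Y ∘ g := by
    funext r; simp [hY, hgt]
  rw [← norm_iteratedFDeriv_eq_norm_iteratedDeriv, hfun,
    ← iteratedFDerivWithin_of_isOpen m hgo (show t ∈ g ⁻¹' s from hts), h1,
    iteratedFDerivWithin_of_isOpen m hso hts]
  have h2 : iteratedFDeriv ℝ m Y (g t) = iteratedFDeriv ℝ m Z (x + t • u) := by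
    rw [hY, iteratedFDeriv_comp_add_left, hgt]
  rw [h2]
  refine (ContinuousMultilinearMap.norm_compContinuousLinearMap_le _ _).trans ?_
  have hgn : ‖g‖ ≤ ‖u‖ := by
    refine ContinuousLinearMap.opNorm_le_bound _ (norm_nonneg _) fun r => ?_
    rw [hgt, norm_smul, mul_comm]
  refine mul_le_mul_of_nonneg_left ?_ (norm_nonneg _)
  rw [Finset.prod_const, Finset.card_univ, Fintype.card_fin]
  exact pow_le_pow_left₀ (norm_nonneg _) hgn m

/-- several variables, first derivative. -/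
theorem exists_fderiv_interp (n : ℕ) : ∃ C : ℝ, 0 ≤ C ∧
    ∀ (E : Type v) (F : Type u) [NormedAddCommGroup E] [NormedSpace ℝ E] [NormedAddCommGroup F]
      [NormedSpace ℝ F] (Z : E → F) (x : E) (h M₀ M₁ : ℝ), 0 < h →
      (∀ y ∈ closedBall x h, ContDiffAt ℝ (n + 2 : ℕ) Z y) →
      (∀ y ∈ closedBall x h, ‖Z y‖ ≤ M₀) →
      (∀ y ∈ closedBall x h, ‖iteratedFDeriv ℝ (n + 2) Z y‖ ≤ M₁) →
      ‖fderiv ℝ Z x‖ ≤ C * (h⁻¹ * M₀ + h ^ (n + 1) * M₁) := by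
  obtain ⟨C, hC, H⟩ := exists_deriv_interp.{u} n
  refine ⟨C, hC, ?_⟩
  intro E F _ _ _ _ Z x h M₀ M₁ hh hZ hM₀ hM₁
  have hx0 : x ∈ closedBall x h := mem_closedBall_self hh.le
  have hM₀0 : 0 ≤ M₀ := (norm_nonneg _).trans (hM₀ x hx0)
  have hM₁0 : 0 ≤ M₁ := (norm_nonneg _).trans (hM₁ x hx0)
  have hrhs : 0 ≤ C * (h⁻¹ * M₀ + h ^ (n + 1) * M₁) := by positivity
  have hunit : ∀ u : E, ‖u‖ = 1 → ‖fderiv ℝ Z x u‖ ≤ C * (h⁻¹ * M₀ + h ^ (n + 1) * M₁) := by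
    intro u hu
    have hmem : ∀ t ∈ Icc 0 h, x + t • u ∈ closedBall x h := by
      intro t ht
      rw [mem_closedBall, dist_eq_norm, add_sub_cancel_left, norm_smul, hu, mul_one,
        Real.norm_of_nonneg ht.1]
      exact ht.2
    have hd : deriv (fun t : ℝ => Z (x + t • u)) 0 = fderiv ℝ Z x u := by
      have h1 : HasFDerivAt Z (fderiv ℝ Z x) (x + (0 : ℝ) • u) := by
        rw [zero_smul, add_zero]
        exact ((hZ x hx0).differentiableAt (by exact_mod_cast (by omega : n + 2 ≠ 0))).hasFDerivAt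
      have h2 : HasDerivAt (fun t : ℝ => x + t • u) u 0 := by
        simpa using ((hasDerivAt_id (0 : ℝ)).smul_const u).const_add x
      exact (h1.comp_hasDerivAt (0 : ℝ) h2).deriv
    rw [← hd]
    refine H F (fun t : ℝ => Z (x + t • u)) h M₀ M₁ hh ?_ ?_ ?_
    · intro t ht
      have h2 : ContDiffAt ℝ (n + 2 : ℕ) (fun t : ℝ => x + t • u) t := by fun_prop
      exact (hZ _ (hmem t ht)).comp t h2
    · exact fun t ht => hM₀ _ (hmem t ht)
    · intro t ht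
      refine (norm_iteratedDeriv_line_le (hZ _ (hmem t ht))).trans ?_
      rw [hu, one_pow, mul_one]
      exact hM₁ _ (hmem t ht)
  refine ContinuousLinearMap.opNorm_le_bound _ hrhs fun w => ?_
  rcases eq_or_ne w 0 with rfl | hw
  · simp
  · have hwn : ‖w‖ ≠ 0 := norm_ne_zero_iff.mpr hw
    have := hunit (‖w‖⁻¹ • w) (by rw [norm_smul, norm_inv, norm_norm, inv_mul_cancel₀ hwn])
    rw [map_smul, norm_smul, norm_inv, norm_norm] at this
    calc ‖fderiv ℝ Z x w‖ = (‖w‖⁻¹ * ‖fderiv ℝ Z x w‖) * ‖w‖ := by field_simp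
      _ ≤ _ := mul_le_mul_of_nonneg_right this (norm_nonneg _)

/-- INTERPOLATION, scale invariant form. -/
theorem exists_interp_scale (j : ℕ) : ∀ k : ℕ, j < k → ∃ C : ℝ, 0 ≤ C ∧
    ∀ (E F : Type u) [NormedAddCommGroup E] [NormedSpace ℝ E] [NormedAddCommGroup F]
      [NormedSpace ℝ F] (Z : E → F) (x : E) (h M₀ M₁ : ℝ), 0 < h →
      (∀ y ∈ closedBall x h, ContDiffAt ℝ k Z y) →
      (∀ y ∈ closedBall x h, ‖Z y‖ ≤ M₀) →
      (∀ y ∈ closedBall x h, ‖iteratedFDeriv ℝ k Z y‖ ≤ M₁) →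
      ‖iteratedFDeriv ℝ j Z x‖ ≤ C * ((h⁻¹) ^ j * M₀ + h ^ (k - j) * M₁) := by
  induction j with
  | zero =>
    intro k hk
    refine ⟨1, zero_le_one, ?_⟩
    intro E F _ _ _ _ Z x h M₀ M₁ hh _ hM₀ hM₁
    have hx0 : x ∈ closedBall x h := mem_closedBall_self hh.le
    have hM₁0 : 0 ≤ M₁ := (norm_nonneg _).trans (hM₁ x hx0)
    rw [norm_iteratedFDeriv_zero, pow_zero, one_mul, one_mul, Nat.sub_zero]
    have := hM₀ x hx0
    have h2 : 0 ≤ h ^ k * M₁ := by positivity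
    linarith
  | succ j ih =>
    intro k hk
    obtain ⟨n, rfl⟩ : ∃ n, k = n + 2 := ⟨k - 2, by omega⟩
    obtain ⟨C₁, hC₁, H₁⟩ := exists_fderiv_interp.{u, u} n
    obtain ⟨C₂, hC₂, H₂⟩ := ih (n + 1) (by omega)
    refine ⟨C₂ * (2 ^ (j + 1) * C₁ + 2 ^ j * C₁ + 1), by positivity, ?_⟩
    intro E F _ _ _ _ Z x h M₀ M₁ hh hZ hM₀ hM₁
    have hx0 : x ∈ closedBall x h := mem_closedBall_self hh.le
    have hM₀0 : 0 ≤ M₀ := (norm_nonneg _).trans (hM₀ x hx0)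
    have hM₁0 : 0 ≤ M₁ := (norm_nonneg _).trans (hM₁ x hx0)
    have hh2 : 0 < h / 2 := by positivity
    have hsub : ∀ y ∈ closedBall x (h / 2), closedBall y (h / 2) ⊆ closedBall x h := by
      intro y hy z hz
      rw [mem_closedBall] at hy hz ⊢
      linarith [dist_triangle z y x]
    have hsub2 : closedBall x (h / 2) ⊆ closedBall x h := closedBall_subset_closedBall (by linarith)
    set M₀' : ℝ := C₁ * ((h / 2)⁻¹ * M₀ + (h / 2) ^ (n + 1) * M₁) with hM₀'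
    have hb : ∀ y ∈ closedBall x (h / 2), ‖fderiv ℝ Z y‖ ≤ M₀' := by
      intro y hy
      exact H₁ E F Z y (h / 2) M₀ M₁ hh2 (fun z hz => hZ z (hsub y hy hz))
        (fun z hz => hM₀ z (hsub y hy hz)) (fun z hz => hM₁ z (hsub y hy hz))
    have h2 := H₂ E (E →L[ℝ] F) (fderiv ℝ Z) x (h / 2) M₀' M₁ hh2
      (fun y hy => (hZ y (hsub2 hy)).fderiv_right (m := ((n + 1 : ℕ) : WithTop ℕ∞))
        (by exact_mod_cast le_rfl)) hb
      (fun y hy => by rw [norm_iteratedFDeriv_fderiv]; exact hM₁ y (hsub2 hy))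
    rw [norm_iteratedFDeriv_fderiv] at h2
    refine h2.trans ?_
    rw [mul_assoc]
    refine mul_le_mul_of_nonneg_left ?_ hC₂
    have hkj : n + 2 - (j + 1) = n + 1 - j := by omega
    rw [hkj]
    have e1 : (h / 2)⁻¹ = 2 * h⁻¹ := by rw [inv_div, div_eq_mul_inv]
    have e2 : (h / 2) ^ (n + 1) ≤ h ^ (n + 1) := pow_le_pow_left₀ hh2.le (by linarith) _
    have e3 : (h / 2) ^ (n + 1 - j) ≤ h ^ (n + 1 - j) := pow_le_pow_left₀ hh2.le (by linarith) _
    have hinv : 0 < h⁻¹ := inv_pos.mpr hh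
    have e4 : (h⁻¹) ^ j * h ^ (n + 1) = h ^ (n + 1 - j) := by
      have : h ^ (n + 1) = h ^ j * h ^ (n + 1 - j) := by rw [← pow_add]; congr 1; omega
      rw [this, ← mul_assoc, ← mul_pow, inv_mul_cancel₀ hh.ne', one_pow, one_mul]
    calc ((h / 2)⁻¹) ^ j * M₀' + (h / 2) ^ (n + 1 - j) * M₁
        ≤ (2 * h⁻¹) ^ j * (C₁ * ((2 * h⁻¹) * M₀ + h ^ (n + 1) * M₁)) + h ^ (n + 1 - j) * M₁ := by
          rw [hM₀', e1]; gcongr
      _ = 2 ^ (j + 1) * C₁ * ((h⁻¹) ^ (j + 1) * M₀) + 2 ^ j * C₁ * (((h⁻¹) ^ j * h ^ (n + 1)) * M₁)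
            + h ^ (n + 1 - j) * M₁ := by ring
      _ = 2 ^ (j + 1) * C₁ * ((h⁻¹) ^ (j + 1) * M₀) +
            (2 ^ j * C₁ + 1) * (h ^ (n + 1 - j) * M₁) := by rw [e4]; ring
      _ ≤ (2 ^ (j + 1) * C₁ + 2 ^ j * C₁ + 1) * ((h⁻¹) ^ (j + 1) * M₀ + h ^ (n + 1 - j) * M₁) := by
          have p1 : 0 ≤ (h⁻¹) ^ (j + 1) * M₀ := by positivity
          have p2 : 0 ≤ h ^ (n + 1 - j) * M₁ := by positivity
          have p3 : 0 ≤ 2 ^ (j + 1) * C₁ := by positivity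
          have p4 : 0 ≤ 2 ^ j * C₁ := by positivity
          nlinarith [mul_nonneg p3 p2, mul_nonneg p4 p1]

/-- INTERPOLATION on balls, `ε`-form: `sup_{B_r}‖D^j Z‖ ≤ ε sup_{B_R}‖D^k Z‖ + C sup_{B_R}‖Z‖`. -/
theorem exists_interp_ball {j k : ℕ} (hjk : j < k) {r R ε : ℝ} (hrR : r < R) (hε : 0 < ε) :
    ∃ C : ℝ, 0 ≤ C ∧
    ∀ (E F : Type u) [NormedAddCommGroup E] [NormedSpace ℝ E] [NormedAddCommGroup F]
      [NormedSpace ℝ F] (Z : E → F) (x₀ : E) (M₀ M₁ : ℝ),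
      ContDiffOn ℝ k Z (ball x₀ R) →
      (∀ y ∈ ball x₀ R, ‖Z y‖ ≤ M₀) →
      (∀ y ∈ ball x₀ R, ‖iteratedFDeriv ℝ k Z y‖ ≤ M₁) →
      ∀ x ∈ ball x₀ r, ‖iteratedFDeriv ℝ j Z x‖ ≤ ε * M₁ + C * M₀ := by
  obtain ⟨C₀, hC₀, H⟩ := exists_interp_scale.{u} j k hjk
  set h : ℝ := min 1 (min ((R - r) / 2) (ε / (C₀ + 1))) with hh
  have hRr : 0 < (R - r) / 2 := by linarith
  have hhpos : 0 < h := lt_min zero_lt_one (lt_min hRr (by positivity))
  have hh1 : h ≤ 1 := min_le_left _ _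
  have hh2 : h ≤ (R - r) / 2 := (min_le_right _ _).trans (min_le_left _ _)
  have hh3 : h ≤ ε / (C₀ + 1) := (min_le_right _ _).trans (min_le_right _ _)
  refine ⟨C₀ * (h⁻¹) ^ j, by positivity, ?_⟩
  intro E F _ _ _ _ Z x₀ M₀ M₁ hZ hM₀ hM₁ x hx
  have hsub : closedBall x h ⊆ ball x₀ R := by
    intro y hy
    rw [mem_closedBall] at hy
    rw [mem_ball] at hx ⊢
    linarith [dist_triangle y x x₀]
  have hx' : x ∈ ball x₀ R := ball_subset_ball hrR.le hx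
  have hM₁0 : 0 ≤ M₁ := (norm_nonneg _).trans (hM₁ x hx')
  have key := H E F Z x h M₀ M₁ hhpos
    (fun y hy => (hZ y (hsub hy)).contDiffAt (isOpen_ball.mem_nhds (hsub hy)))
    (fun y hy => hM₀ y (hsub hy)) (fun y hy => hM₁ y (hsub hy))
  refine key.trans ?_
  have e1 : C₀ * h ^ (k - j) ≤ ε := by
    have hle : h ^ (k - j) ≤ h := by
      calc h ^ (k - j) ≤ h ^ 1 := pow_le_pow_of_le_one hhpos.le hh1 (by omega)
        _ = h := pow_one h
    calc C₀ * h ^ (k - j) ≤ C₀ * (ε / (C₀ + 1)) := by gcongr; exact hle.trans hh3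
      _ = (C₀ / (C₀ + 1)) * ε := by ring
      _ ≤ 1 * ε := by
          refine mul_le_mul_of_nonneg_right ?_ hε.le
          rw [div_le_one (by positivity)]; linarith
      _ = ε := one_mul ε
  calc C₀ * ((h⁻¹) ^ j * M₀ + h ^ (k - j) * M₁)
      = (C₀ * h ^ (k - j)) * M₁ + C₀ * (h⁻¹) ^ j * M₀ := by ring
    _ ≤ ε * M₁ + C₀ * (h⁻¹) ^ j * M₀ := by gcongr

end Multi

end Vale.Agent.P207.N3.H545
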