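import Vale.Agent.P207.N3.H545.Chain
import Vale.Agent.P207.N3.H545.Interp

/-!
N3-P5 (helper545): LEMMA R (rescaling regularity), 1.1 of #10320.
-/

set_option maxSynthPendingDepth 3

open Set Filter Topology Metric

namespace Vale.Agent.P207.N3.H545

universe u

/-- `f` is `C^k` on the open ball of radius `r` with all derivatives of order `≤ k`
bounded by `C`. -/
def CkB {E F : Type*} [NormedAddCommGroup E] [NormedSpace ℝ E] [NormedAddCommGroup F]
    [NormedSpace ℝ F] (k : ℕ) (r C : ℝ) (f : E → F) : Prop :=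
  ContDiffOn ℝ k f (ball 0 r) ∧ ∀ i ≤ k, ∀ u ∈ ball (0 : E) r, ‖iteratedFDeriv ℝ i f u‖ ≤ C

section CkB

variable {E F : Type*} [NormedAddCommGroup E] [NormedSpace ℝ E] [NormedAddCommGroup F]
  [NormedSpace ℝ F]

theorem CkB.contDiffAt {k : ℕ} {r C : ℝ} {f : E → F} (h : CkB k r C f) {u : E}
    (hu : u ∈ ball (0 : E) r) : ContDiffAt ℝ k f u :=
  (h.1 u hu).contDiffAt (isOpen_ball.mem_nhds hu)

theorem CkB.mono {k l : ℕ} {r r' C C' : ℝ} {f : E → F} (h : CkB k r C f) (hl : l ≤ k)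
    (hr : r' ≤ r) (hC : C ≤ C') : CkB l r' C' f :=
  ⟨(h.1.mono (ball_subset_ball hr)).of_le (by exact_mod_cast hl),
    fun i hi u hu => (h.2 i (hi.trans hl) u (ball_subset_ball hr hu)).trans hC⟩

theorem CkB.norm_le {k : ℕ} {r C : ℝ} {f : E → F} (h : CkB k r C f) {u : E}
    (hu : u ∈ ball (0 : E) r) : ‖f u‖ ≤ C := by
  have := h.2 0 (Nat.zero_le _) u hu
  rwa [norm_iteratedFDeriv_zero] at this

end CkB

/-- `A · (Z ∘ τ) + Err` is `C^k` when everything is. -/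
theorem contDiffAt_step {E F : Type u} [NormedAddCommGroup E] [NormedSpace ℝ E]
    [NormedAddCommGroup F] [NormedSpace ℝ F] {k : ℕ} {A : E → (F →L[ℝ] F)} {τ : E → E}
    {Z : E → F} {x : E} (hA : ContDiffAt ℝ k A x) (hτ : ContDiffAt ℝ k τ x)
    (hZ : ContDiffAt ℝ k Z (τ x)) : ContDiffAt ℝ k (fun y => A y (Z (τ y))) x :=
  hA.clm_apply (hZ.comp x hτ)

/-- LEMMA R: uniform `C^k` bounds for a rescaling recursion
`Z_s = A_s · (Z_{s+1} ∘ τ_s) + Err_s` (`s < T`); the constant does not depend on `T`,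
`Z`, `A`, `τ`, `Err`, `M`, `a`, `θ`. -/
theorem exists_lemma_R (k : ℕ) (E : Type u) [NormedAddCommGroup E] [NormedSpace ℝ E]
    {r R : ℝ} (hrR : r < R) (c Λ : ℝ) : ∃ C : ℝ, 1 ≤ C ∧
    ∀ (F : Type u) [NormedAddCommGroup F] [NormedSpace ℝ F] (T : ℕ) (M a θ : ℝ)
      (Z Err : ℕ → E → F) (A : ℕ → E → (F →L[ℝ] F)) (τ : ℕ → E → E),
      0 ≤ M → 0 ≤ a → 0 ≤ θ → a * θ ^ k * Real.exp Λ ≤ 1 / 4 →
      (∀ s ≤ T, ContDiffOn ℝ k (Z s) (ball 0 R)) →
      (∀ s < T, ContDiffOn ℝ k (τ s) (ball 0 R)) →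
      (∀ s < T, MapsTo (τ s) (ball 0 R) (ball 0 r)) →
      (∀ s < T, ∀ u ∈ ball (0 : E) R, ‖A s u‖ ≤ a ∧ ‖fderiv ℝ (τ s) u‖ ≤ θ) →
      (∀ s < T, CkB k R c (A s)) →
      (∀ s < T, ∀ i, 1 ≤ i → i ≤ k → ∀ u ∈ ball (0 : E) R, ‖iteratedFDeriv ℝ i (τ s) u‖ ≤ c) →
      (∀ s < T, ∀ u ∈ ball (0 : E) R, Z s u = A s u (Z (s + 1) (τ s u)) + Err s u) →
      (∀ s ≤ T, ∀ u ∈ ball (0 : E) R, ‖Z s u‖ ≤ M * Real.exp (Λ * s)) →
      (∀ s < T, CkB k R (M * Real.exp (Λ * s)) (Err s)) →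
      CkB k R (M * Real.exp (Λ * T)) (Z T) →
      ∀ s ≤ T, CkB k R (C * (M * Real.exp (Λ * s))) (Z s) := by
  classical
  set c' : ℝ := max c 1 with hc'
  have hc'1 : 1 ≤ c' := le_max_right _ _
  have hcc' : c ≤ c' := le_max_left _ _
  have hc'0 : 0 ≤ c' := zero_le_one.trans hc'1
  have hexpΛ : 0 < Real.exp Λ := Real.exp_pos _
  choose K hK0 hK using fun i : ℕ => exists_top_order E E i c' hc'0
  set ε : ℝ := 1 / (4 * (K k * k + 1) * Real.exp Λ) with hεdef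
  have hKk : 0 ≤ K k * k := mul_nonneg (hK0 k) (Nat.cast_nonneg _)
  have hε : 0 < ε := by positivity
  have hεK : K k * k * ε * Real.exp Λ ≤ 1 / 4 := by
    have h1 : K k * k * ε * Real.exp Λ = (K k * k) / (K k * k + 1) * (1 / 4) := by
      rw [hεdef]; field_simp
    rw [h1]
    have h2 : (K k * k) / (K k * k + 1) ≤ 1 := by
      rw [div_le_one (by positivity)]; linarith
    linarith
  have hint : ∀ j : ℕ, ∃ Cj : ℝ, 0 ≤ Cj ∧ (j < k → ∀ (E F : Type u) [NormedAddCommGroup E]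
      [NormedSpace ℝ E] [NormedAddCommGroup F]
      [NormedSpace ℝ F] (Z : E → F) (x₀ : E) (M₀ M₁ : ℝ),
      ContDiffOn ℝ k Z (ball x₀ R) →
      (∀ y ∈ ball x₀ R, ‖Z y‖ ≤ M₀) →
      (∀ y ∈ ball x₀ R, ‖iteratedFDeriv ℝ k Z y‖ ≤ M₁) →
      ∀ x ∈ ball x₀ r, ‖iteratedFDeriv ℝ j Z x‖ ≤ ε * M₁ + Cj * M₀) := by
    intro j
    by_cases hj : j < k
    · obtain ⟨C, hC, H⟩ := exists_interp_ball.{u} hj hrR hε
      exact ⟨C, hC, fun _ => H⟩
    · exact ⟨0, le_rfl, fun h => absurd h hj⟩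
  choose Ci hCi0 hCi using hint
  set Ct : ℝ := ∑ j ∈ Finset.range k, Ci j with hCt
  have hCt0 : 0 ≤ Ct := Finset.sum_nonneg fun j _ => hCi0 j
  have hCiCt : ∀ j < k, Ci j ≤ Ct := fun j hj =>
    Finset.single_le_sum (fun i _ => hCi0 i) (Finset.mem_range.mpr hj)
  set C₁ : ℝ := 2 * (K k * Ct * Real.exp Λ + 1) with hC₁
  have hKC : 0 ≤ K k * Ct * Real.exp Λ := by
    have := hK0 k
    positivity
  have hC₁1 : 1 ≤ C₁ := by rw [hC₁]; linarith
  have hC₁0 : 0 ≤ C₁ := zero_le_one.trans hC₁1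
  set C₃ : ℝ := C₁ + ε * C₁ + Ct with hC₃
  have hC₃0 : 0 ≤ C₃ := by positivity
  set D : ℕ → ℝ := fun i => (c' * c' ^ i + K i * i) * C₃ * Real.exp Λ with hD
  have hD0 : ∀ i, 0 ≤ D i := fun i => by
    have := hK0 i
    simp only [hD]
    positivity
  set C : ℝ := 1 + ∑ i ∈ Finset.range (k + 1), D i with hC
  have hDC : ∀ i ≤ k, D i + 1 ≤ C := fun i hi => by
    have := Finset.single_le_sum (f := D) (fun i _ => hD0 i)
      (Finset.mem_range.mpr (Nat.lt_succ_of_le hi))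
    rw [hC]; linarith
  have hC1 : 1 ≤ C := by
    have := hDC 0 (Nat.zero_le _)
    linarith [hD0 0]
  refine ⟨C, hC1, ?_⟩
  intro F _ _ T M a θ Z Err A τ hM ha hθ hath hZ hτ hmap haθ hA hτc hrec hZ0 hErr hZT
  have hpt : ∀ s, 0 ≤ M * Real.exp (Λ * s) := fun s => mul_nonneg hM (Real.exp_pos _).le
  have hexp : ∀ s : ℕ, M * Real.exp (Λ * ((s + 1 : ℕ) : ℝ)) =
      M * Real.exp (Λ * s) * Real.exp Λ := by
    intro s
    rw [mul_assoc, ← Real.exp_add]
    congr 2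
    push_cast
    ring
  -- the basic one step estimate of order `i`
  have hstep : ∀ s < T, ∀ i ≤ k, ∀ x ∈ ball (0 : E) R, ‖iteratedFDeriv ℝ i (Z s) x‖ ≤
      ‖A s x‖ * ‖fderiv ℝ (τ s) x‖ ^ i * ‖iteratedFDeriv ℝ i (Z (s + 1)) (τ s x)‖ +
        K i * ∑ j ∈ Finset.range i, ‖iteratedFDeriv ℝ j (Z (s + 1)) (τ s x)‖ +
        M * Real.exp (Λ * s) := by
    intro s hs i hi x hx
    have hnhds : ball (0 : E) R ∈ 𝓝 x := isOpen_ball.mem_nhds hx
    have hτx : τ s x ∈ ball (0 : E) R := ball_subset_ball hrR.le (hmap s hs hx)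
    have hik : (i : WithTop ℕ∞) ≤ k := by exact_mod_cast hi
    have c1 : ContDiffAt ℝ i (A s) x := ((hA s hs).contDiffAt hx).of_le hik
    have c2 : ContDiffAt ℝ i (τ s) x := ((hτ s hs x hx).contDiffAt hnhds).of_le hik
    have c3 : ContDiffAt ℝ i (Z (s + 1)) (τ s x) :=
      ((hZ (s + 1) hs _ hτx).contDiffAt (isOpen_ball.mem_nhds hτx)).of_le hik
    have c4 : ContDiffAt ℝ i (Err s) x := ((hErr s hs).contDiffAt hx).of_le hik
    have hev : Z s =ᶠ[𝓝 x] fun y => A s y (Z (s + 1) (τ s y)) + Err s y := by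
      filter_upwards [hnhds] with y hy using hrec s hs y hy
    rw [(Filter.EventuallyEq.iteratedFDeriv (𝕜 := ℝ) hev i).eq_of_nhds,
      fun_iteratedFDeriv_add_apply (contDiffAt_step c1 c2 c3) c4]
    refine (norm_add_le _ _).trans (add_le_add ?_ ((hErr s hs).2 i hi x hx))
    exact hK i F F (A s) (Z (s + 1)) (τ s) x c1 c2 c3
      (fun j hj => ((hA s hs).2 j (hj.trans hi) x hx).trans hcc')
      (fun j h1 hj => (hτc s hs j h1 (hj.trans hi) x hx).trans hcc')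
  -- top order
  have htop : ∀ m ≤ T, ∀ s, s + m = T → ∀ x ∈ ball (0 : E) R,
      ‖iteratedFDeriv ℝ k (Z s) x‖ ≤ C₁ * (M * Real.exp (Λ * s)) := by
    intro m
    induction m with
    | zero =>
      intro _ s hs x hx
      have hsT : s = T := by omega
      subst hsT
      refine (hZT.2 k le_rfl x hx).trans ?_
      exact le_mul_of_one_le_left (hpt _) hC₁1
    | succ m ihm =>
      intro hm s hs x hx
      have hsT : s < T := by omega
      have hN := ihm (by omega) (s + 1) (by omega)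
      have hτr : τ s x ∈ ball (0 : E) r := hmap s hsT hx
      have hτR : τ s x ∈ ball (0 : E) R := ball_subset_ball hrR.le hτr
      have hlow : ∀ j < k, ‖iteratedFDeriv ℝ j (Z (s + 1)) (τ s x)‖ ≤
          ε * (C₁ * (M * Real.exp (Λ * ((s + 1 : ℕ) : ℝ)))) +
            Ci j * (M * Real.exp (Λ * ((s + 1 : ℕ) : ℝ))) := by
        intro j hj
        exact hCi j hj E F (Z (s + 1)) 0 _ _ (hZ (s + 1) hsT)
          (fun y hy => hZ0 (s + 1) hsT y hy) hN (τ s x) hτr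
      refine (hstep s hsT k le_rfl x hx).trans ?_
      have hsum : ∑ j ∈ Finset.range k, ‖iteratedFDeriv ℝ j (Z (s + 1)) (τ s x)‖ ≤
          (k * ε * C₁ + Ct) * (M * Real.exp (Λ * ((s + 1 : ℕ) : ℝ))) := by
        calc _ ≤ ∑ j ∈ Finset.range k, (ε * (C₁ * (M * Real.exp (Λ * ((s + 1 : ℕ) : ℝ)))) +
            Ci j * (M * Real.exp (Λ * ((s + 1 : ℕ) : ℝ)))) :=
              Finset.sum_le_sum fun j hj => hlow j (Finset.mem_range.mp hj)
          _ = _ := by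
              rw [Finset.sum_add_distrib, Finset.sum_const, Finset.card_range,
                nsmul_eq_mul, ← Finset.sum_mul, ← hCt]
              ring
      have hAx := (haθ s hsT x hx).1
      have hτx := (haθ s hsT x hx).2
      have h1 : ‖A s x‖ * ‖fderiv ℝ (τ s) x‖ ^ k * ‖iteratedFDeriv ℝ k (Z (s + 1)) (τ s x)‖ ≤
          a * θ ^ k * (C₁ * (M * Real.exp (Λ * ((s + 1 : ℕ) : ℝ)))) := by
        refine mul_le_mul ?_ (hN _ hτR) (norm_nonneg _) (by positivity)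
        exact mul_le_mul hAx (pow_le_pow_left₀ (norm_nonneg _) hτx k) (by positivity) ha
      have h2 : K k * ∑ j ∈ Finset.range k, ‖iteratedFDeriv ℝ j (Z (s + 1)) (τ s x)‖ ≤
          K k * ((k * ε * C₁ + Ct) * (M * Real.exp (Λ * ((s + 1 : ℕ) : ℝ)))) :=
        mul_le_mul_of_nonneg_left hsum (hK0 k)
      have hms := hpt s
      set m₀ : ℝ := M * Real.exp (Λ * s) with hm₀
      rw [hexp s] at h1 h2
      calc _ ≤ a * θ ^ k * (C₁ * (m₀ * Real.exp Λ)) +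
            K k * ((k * ε * C₁ + Ct) * (m₀ * Real.exp Λ)) + m₀ := by
            refine add_le_add (add_le_add h1 h2) le_rfl
        _ = (a * θ ^ k * Real.exp Λ) * (C₁ * m₀) + (K k * k * ε * Real.exp Λ) * (C₁ * m₀) +
              (K k * Ct * Real.exp Λ + 1) * m₀ := by ring
        _ ≤ (1 / 4) * (C₁ * m₀) + (1 / 4) * (C₁ * m₀) + (K k * Ct * Real.exp Λ + 1) * m₀ := by
            have : 0 ≤ C₁ * m₀ := mul_nonneg hC₁0 hms
            gcongr
        _ = C₁ * m₀ := by rw [hC₁]; ring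
  have htop' : ∀ s ≤ T, ∀ x ∈ ball (0 : E) R,
      ‖iteratedFDeriv ℝ k (Z s) x‖ ≤ C₁ * (M * Real.exp (Λ * s)) :=
    fun s hs => htop (T - s) (by omega) s (by omega)
  intro s hs
  refine ⟨hZ s hs, fun i hi x hx => ?_⟩
  rcases Nat.lt_or_ge s T with hsT | hsT
  · have hτr : τ s x ∈ ball (0 : E) r := hmap s hsT hx
    have hτR : τ s x ∈ ball (0 : E) R := ball_subset_ball hrR.le hτr
    have hall : ∀ j ≤ k, ‖iteratedFDeriv ℝ j (Z (s + 1)) (τ s x)‖ ≤
        C₃ * (M * Real.exp (Λ * ((s + 1 : ℕ) : ℝ))) := by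
      intro j hj
      have hp := hpt ((s + 1 : ℕ) : ℝ)
      rcases Nat.lt_or_ge j k with hjk | hjk
      · have h1 := hCi j hjk E F (Z (s + 1)) 0 _ _ (hZ (s + 1) hsT)
          (fun y hy => hZ0 (s + 1) hsT y hy) (htop' (s + 1) hsT) (τ s x) hτr
        refine h1.trans ?_
        have h2 := mul_le_mul_of_nonneg_right (hCiCt j hjk) hp
        have h3 : 0 ≤ C₁ * (M * Real.exp (Λ * ((s + 1 : ℕ) : ℝ))) := mul_nonneg hC₁0 hp
        rw [hC₃]; linarith
      · have hjk' : j = k := le_antisymm hj hjk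
        subst hjk'
        refine (htop' (s + 1) hsT (τ s x) hτR).trans ?_
        refine mul_le_mul_of_nonneg_right ?_ hp
        have : 0 ≤ ε * C₁ := by positivity
        rw [hC₃]; linarith
    refine (hstep s hsT i hi x hx).trans ?_
    have hp := hpt ((s + 1 : ℕ) : ℝ)
    have hAx : ‖A s x‖ ≤ c' := ((hA s hsT).norm_le hx).trans hcc'
    have hτx : ‖fderiv ℝ (τ s) x‖ ^ i ≤ c' ^ i := by
      rcases Nat.eq_zero_or_pos i with h0 | h0
      · subst h0; simp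
      · have := (hτc s hsT 1 le_rfl (by omega) x hx).trans hcc'
        rw [norm_iteratedFDeriv_one] at this
        exact pow_le_pow_left₀ (norm_nonneg _) this i
    have h1 : ‖A s x‖ * ‖fderiv ℝ (τ s) x‖ ^ i * ‖iteratedFDeriv ℝ i (Z (s + 1)) (τ s x)‖ ≤
        c' * c' ^ i * (C₃ * (M * Real.exp (Λ * ((s + 1 : ℕ) : ℝ)))) := by
      refine mul_le_mul ?_ (hall i hi) (norm_nonneg _) (by positivity)
      exact mul_le_mul hAx hτx (by positivity) hc'0
    have h2 : K i * ∑ j ∈ Finset.range i, ‖iteratedFDeriv ℝ j (Z (s + 1)) (τ s x)‖ ≤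
        K i * (i * (C₃ * (M * Real.exp (Λ * ((s + 1 : ℕ) : ℝ))))) := by
      refine mul_le_mul_of_nonneg_left ?_ (hK0 i)
      calc _ ≤ ∑ j ∈ Finset.range i, C₃ * (M * Real.exp (Λ * ((s + 1 : ℕ) : ℝ))) :=
            Finset.sum_le_sum fun j hj => hall j
              ((Finset.mem_range.mp hj).le.trans hi)
        _ = _ := by rw [Finset.sum_const, Finset.card_range, nsmul_eq_mul]
    have hms := hpt s
    rw [hexp s] at h1 h2
    set m₀ : ℝ := M * Real.exp (Λ * s) with hm₀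
    calc _ ≤ c' * c' ^ i * (C₃ * (m₀ * Real.exp Λ)) + K i * (i * (C₃ * (m₀ * Real.exp Λ))) + m₀ :=
          add_le_add (add_le_add h1 h2) le_rfl
      _ = (D i + 1) * m₀ := by simp only [hD]; ring
      _ ≤ C * m₀ := mul_le_mul_of_nonneg_right (hDC i hi) hms
  · have hsT' : s = T := le_antisymm hs hsT
    subst hsT'
    exact (hZT.2 i hi x hx).trans (le_mul_of_one_le_left (hpt _) hC1)

end Vale.Agent.P207.N3.H545
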