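import Vale.Agent.P207.N3.H143.Side
import Vale.Agent.P207.N3.H143.LinkR
import Vale.Agent.P207.N3.H143.HalfL
import Vale.Agent.P207.N3.H684.JetConv
import Vale.Agent.P207.N3.H578.SideF

/-!
# P207, N3, Case 2: the end step

If the second jets of the leaves of one side are smooth functions of the label near `0`, then the
tensor `N` is smooth at one point of a leaf, and `Rough` fails.
-/

open Set Filter Topology Metric InnerProductSpace Sum
open scoped ContDiff RealInnerProductSpace Gradient

noncomputable section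

namespace Vale.Agent.P207.N3.H545

open H143 (Side grad_zero hess_zero)
open H254 (len)
open H578 (Feed)

set_option linter.unusedSectionVars false

section rough

variable {Γ X B : Type} [Group Γ] [MetricSpace X] [ProperSpace X] [MulAction Γ X]
  [IsIsometricSMul Γ X] [TopologicalSpace B] [CompactSpace B] [T2Space B] [MulAction Γ B]
  [ContinuousConstSMul Γ B]

/-- **(E1)** Smooth second jets of one side contradict `Rough`. -/
theorem hess_not_rough {L : Leaf Γ X B} {T : Tens L} {g : Γ} {neg pos : B} {x y : B → E2}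
    {H H' : Half} (S : Side T g neg pos x y H H') (hy0 : y neg = 0) (hx0 : x pos = 0) {f : X}
    (hf : L.em f = neg) (hf' : L.ep f = pos) (hxc : ContinuousAt (fun u => x (L.e f u)) 0)
    (h2 : ContDiffAt ℝ ∞ (fun z => fderiv ℝ (∇ (H'.S z)) 0) 0) (k₀ : ℕ) : ¬ Rough T k₀ := by
  have h3 : (0 : E2) ∈ ball (0 : E2) 3 := mem_ball_self (by norm_num)
  have hec : ContinuousAt (fun u => L.e f u) 0 := by
    have h4 : ContinuousOn (fun u : E2 => L.e f u) (closedBall 0 3) :=
      L.e_cont.comp (continuous_const.prodMk continuous_id).continuousOn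
        fun u hu => ⟨mem_univ _, hu⟩
    exact h4.continuousAt (closedBall_mem_nhds 0 (by norm_num))
  have he0 : L.e f 0 = pos := by rw [L.e_zero, hf']
  have hz : Tendsto (fun u : E2 => (neg, L.e f u)) (𝓝 0) (𝓝 (neg, pos)) := by
    have h4 := hec.tendsto
    rw [he0] at h4
    exact tendsto_const_nhds.prodMk_nhds h4
  have hQ0 : Tendsto (fun u : E2 => S.Q neg (L.e f u)) (𝓝 0) (𝓝 0) := by
    have h4 := S.cont.tendsto.comp hz
    simp only [S.zero] at h4
    exact h4
  have hx : Tendsto (fun u : E2 => x (L.e f u)) (𝓝 0) (𝓝 0) := by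
    have h4 := hxc.tendsto
    rwa [he0, hx0] at h4
  have hsm := (hz.eventually S.smooth).self_of_nhds f hf 0 h3 rfl
  refine H143.link_not_rough (x := f) h3 S.c_ne (Q := fun u => S.Q neg (L.e f u)) (K := S.K f)
    (H := fun z => fderiv ℝ (∇ (H'.S z)) 0) hsm.1 hsm.2.1 hsm.2.2 ?_ ?_ k₀
  · have h4 : S.Q neg (L.e f 0) = 0 := by rw [he0, S.zero]
    rw [h4]
    exact h2
  · filter_upwards [hz.eventually S.pt, hz.eventually S.link,
      hQ0.eventually (isOpen_ball.mem_nhds (mem_ball_self H.r_pos)),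
      hx.eventually (isOpen_ball.mem_nhds (mem_ball_self H'.r_pos)),
      isOpen_ball.mem_nhds h3] with u hpt hlink hq hxr hu3
    have g1 : ∇ (H.S (y neg)) (S.Q neg (L.e f u)) = 0 := by rw [hy0]; exact grad_zero H hq
    have g2 : fderiv ℝ (∇ (H.S (y neg))) (S.Q neg (L.e f u)) = 0 := by
      rw [hy0]; exact hess_zero H hq
    have g3 : S.Q neg (L.e f u) = x (L.e f u) := by
      rw [g1, H'.S_grad _ hxr] at hpt
      exact hpt
    have g4 := hlink f hf u hu3 rfl
    rw [g1, g2, ContinuousLinearMap.comp_zero, sub_zero] at g4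
    rw [g3, ← g4]
    ext v i
    simp

end rough

/-! ### The algebra of functions which are smooth at `0` -/

/-- the functions which are smooth at `0` -/
def Rg : Subalgebra ℝ (E2 → ℝ) where
  carrier := {f | ContDiffAt ℝ ∞ f 0}
  mul_mem' := fun {a b} (ha : ContDiffAt ℝ ∞ a 0) (hb : ContDiffAt ℝ ∞ b 0) => ha.mul hb
  add_mem' := fun {a b} (ha : ContDiffAt ℝ ∞ a 0) (hb : ContDiffAt ℝ ∞ b 0) => ha.add hb
  algebraMap_mem' := fun r => by
    show ContDiffAt ℝ ∞ (fun _ : E2 => r) 0
    exact contDiffAt_const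

theorem mem_Rg {f : E2 → ℝ} : f ∈ Rg ↔ ContDiffAt ℝ ∞ f 0 := Iff.rfl

theorem Rg_congr {f g : E2 → ℝ} (h : f =ᶠ[𝓝 0] g) : f ∈ Rg ↔ g ∈ Rg :=
  ⟨fun hf => (mem_Rg.1 hf).congr_of_eventuallyEq h.symm,
    fun hg => (mem_Rg.1 hg).congr_of_eventuallyEq h⟩

/-- a family of endomorphisms of the plane is smooth if its entries are -/
theorem contDiffAt_of_entries {M : E2 → E2 →L[ℝ] E2}
    (h : ∀ i j, ContDiffAt ℝ ∞ (fun z => M z (bas i) j) 0) : ContDiffAt ℝ ∞ M 0 := by
  have e : M = fun z => ∑ i, ∑ j, (M z (bas i) j) •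
      ((ContinuousLinearMap.toSpanSingleton ℝ (bas j)) ∘L
        (EuclideanSpace.proj (𝕜 := ℝ) i : E2 →L[ℝ] ℝ)) := by
    funext z
    ext v k
    have hv : v = v 0 • bas 0 + v 1 • bas 1 := by
      ext i
      fin_cases i <;> simp [bas]
    conv_lhs => rw [hv, map_add, map_smul, map_smul]
    fin_cases k <;> simp [bas, Fin.sum_univ_two] <;> ring
  rw [e]
  refine ContDiffAt.sum fun i _ => ContDiffAt.sum fun j _ => ?_
  exact (h i j).smul contDiffAt_const

/-- the Hessian of the leaves from their second jets -/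
theorem hess_of_jets (H : Half) (h : ∀ a, len a = 2 → H578.rj H (inl a) ∈ Rg) :
    ContDiffAt ℝ ∞ (fun z => fderiv ℝ (∇ (H.S z)) 0) 0 := by
  have h20 := h (2, 0) rfl
  have h11 := h (1, 1) rfl
  have h02 := h (0, 2) rfl
  have hb : ∀ᶠ z in 𝓝 (0 : E2), z ∈ ball (0 : E2) H.r :=
    isOpen_ball.mem_nhds (mem_ball_self H.r_pos)
  refine contDiffAt_of_entries fun i j => ?_
  fin_cases i <;> fin_cases j
  · refine (Rg_congr ?_).1 h20
    filter_upwards [hb] with z hz using (H684.TH_entries H hz).1
  · refine (Rg_congr ?_).1 h11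
    filter_upwards [hb] with z hz using (H684.TH_entries H hz).2.1
  · refine (Rg_congr ?_).1 h11
    filter_upwards [hb] with z hz using (H684.TH_entries H hz).2.2.1
  · refine (Rg_congr ?_).1 h02
    filter_upwards [hb] with z hz using (H684.TH_entries H hz).2.2.2

section feed

variable {H : Half} {κ ℓ : ℝ} {K : ℕ} (F : Feed H κ ℓ K)

/-- **(E2)** the raw jet `T_a` is smooth if the corrected ones of length at most `|a|` are -/
theorem raw_of_hat {a : ℕ × ℕ} (h1 : 1 ≤ len a) (h2 : len a ≤ K)
    (hv : ∀ b, 1 ≤ len b → len b ≤ len a → F.side.v (inl b) ∈ Rg) :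
    H578.rj H (inl a) ∈ Rg := by
  classical
  obtain ⟨j, hj⟩ := F.exists_lab (b := inl a) h1 h2
  have hball : ∀ᶠ y in 𝓝 (0 : E2), y ∈ ball (0 : E2) F.rad :=
    isOpen_ball.mem_nhds (mem_ball_self F.rad_pos)
  have hcomp : ∀ k b, F.lab k = inl b → 1 ≤ len b → len b ≤ len a →
      ContDiffAt ℝ ∞ (fun y => F.v0 y k) 0 := by
    intro k b hk hb1 hb2
    refine (Rg_congr ?_).1 (hv b hb1 hb2)
    filter_upwards [hball] with y hy
    have := F.vv_lab k hy
    rw [hk] at this
    exact this
  have hR : ContDiffAt ℝ ∞ (fun y => F.nf.R j (F.v0 y)) 0 := by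
    by_cases ha : 2 ≤ len a
    · have e : (fun y => F.nf.R j (F.v0 y))
          = fun y => F.nf.R j (fun k => if k ∈ F.S.D j then F.v0 y k else 0) := by
        funext y
        refine F.nf.R_dep j fun k hk => ?_
        simp only
        rw [if_pos hk]
      rw [e]
      refine ((F.nf.R_flat j).1.contDiffAt).comp (0 : E2) (contDiffAt_pi.2 fun k => ?_)
      by_cases hk : k ∈ F.S.D j
      · simp only [if_pos hk]
        obtain ⟨b, hb1, hb2⟩ := F.D_inl j a hj ha k hk
        exact hcomp k b hb1 ((F.lab_inl b).1 ⟨k, hb1⟩).1 hb2.le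
      · simp only [if_neg hk]
        exact contDiffAt_const
    · have hb : j ∈ F.S.base := by
        have ha1 : len a = 1 := by omega
        have : a = H254.e 0 ∨ a = H254.e 1 := by
          unfold len at ha1
          rw [H254.e_zero, H254.e_one]
          rcases Nat.lt_or_ge a.1 1 with h4 | h4
          · right
            exact Prod.ext (by simp; omega) (by simp; omega)
          · left
            exact Prod.ext (by simp; omega) (by simp; omega)
        rcases this with rfl | rfl
        · exact F.base 0 j hj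
        · exact F.base 1 j hj
      have e : (fun y => F.nf.R j (F.v0 y)) = fun _ => (0 : ℝ) := by
        funext y
        rw [F.nf.R_base j hb]
        rfl
      rw [e]
      exact contDiffAt_const
  have h3 : ContDiffAt ℝ ∞ (fun y => F.v0 y j - F.nf.R j (F.v0 y)) 0 :=
    (hcomp j a hj h1 le_rfl).sub hR
  have h4 : H578.rj H (inl a) = fun y => F.v0 y j - F.nf.R j (F.v0 y) := by
    funext y
    rw [← F.raw_eq]
    show _ = H578.rj H (F.lab j) y
    rw [hj]
  rw [mem_Rg, h4]
  exact h3

/-- the Hessian of the leaves from the corrected jets -/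
theorem hess_of_feed (hK : 2 ≤ K)
    (hv : ∀ b, 1 ≤ len b → len b ≤ 2 → F.side.v (inl b) ∈ Rg) :
    ContDiffAt ℝ ∞ (fun z => fderiv ℝ (∇ (H.S z)) 0) 0 :=
  hess_of_jets H fun a ha => raw_of_hat F (by omega) (by omega)
    fun b hb1 hb2 => hv b hb1 (by omega)

/-- the corrected jets of length one are smooth -/
theorem base_mem (hK : 1 ≤ K) {b : ℕ × ℕ} (hb : len b = 1) : F.side.v (inl b) ∈ Rg := by
  have hball : ∀ᶠ y in 𝓝 (0 : E2), y ∈ ball (0 : E2) F.rad :=
    isOpen_ball.mem_nhds (mem_ball_self F.rad_pos)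
  have key : ∀ i : Fin 2, F.side.v (inl (H254.e i)) ∈ Rg := by
    intro i
    obtain ⟨j, hj⟩ := F.exists_base hK i
    have h5 : ContDiffAt ℝ ∞ (fun y : E2 => y i) 0 :=
      (EuclideanSpace.proj (𝕜 := ℝ) i : E2 →L[ℝ] ℝ).contDiff.contDiffAt
    refine (Rg_congr ?_).1 h5
    filter_upwards [hball] with y hy
    have h6 := F.vv_lab j hy
    rw [hj] at h6
    show _ = F.vv (inl (H254.e i)) y
    rw [h6]
    exact (F.v0_base (ball_subset_ball (F.rad_le.trans H.ρ_le) hy) hj).symm
  have : b = H254.e 0 ∨ b = H254.e 1 := by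
    unfold len at hb
    rw [H254.e_zero, H254.e_one]
    rcases Nat.lt_or_ge b.1 1 with h4 | h4
    · right
      exact Prod.ext (by simp; omega) (by simp; omega)
    · left
      exact Prod.ext (by simp; omega) (by simp; omega)
  rcases this with rfl | rfl
  · exact key 0
  · exact key 1

end feed

end Vale.Agent.P207.N3.H545
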