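import Vale.Agent.P207.N3.H143.Loop2
import Vale.Agent.P207.N3.H578.Two
import Vale.Agent.P207.N3.H545.EndC

/-!
# P207, N3, Case 2: the end

All corrected `T`-jets of weight `< 2 κ` are smooth near `0` on both sides of the orbit ⟹ the
second jets of one side are smooth near `0` ⟹ `Rough` fails.
-/

open Set Filter Topology Metric InnerProductSpace Sum
open scoped ContDiff RealInnerProductSpace Gradient

noncomputable section

namespace Vale.Agent.P207.N3.H545

open H143 (Side)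
open H254 (len)
open H578 (Feed)

set_option linter.unusedSectionVars false

section feed

variable {H : Half} {κ ℓ : ℝ} {K : ℕ} (F : Feed H κ ℓ K)

open Classical in
/-- the point, cut off outside of the ball -/
def cut (y : E2) : E2 := if y ∈ ball (0 : E2) F.rad then y else 0

theorem side_base (hK : 1 ≤ K) (i : Fin 2) (y : E2) :
    F.side.v (inl (H254.e i)) y = cut F y i := by
  obtain ⟨j, hj⟩ := F.exists_base hK i
  have key : ∀ z ∈ ball (0 : E2) F.rad, F.vv (inl (H254.e i)) z = z i := by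
    intro z hz
    have h6 := F.vv_lab j hz
    rw [hj] at h6
    rw [h6]
    exact F.v0_base (ball_subset_ball (F.rad_le.trans H.ρ_le) hz) hj
  show F.vv (inl (H254.e i)) y = _
  unfold cut
  split_ifs with hy
  · exact key y hy
  · rw [F.vv_out _ hy, key 0 (mem_ball_self F.rad_pos)]

theorem ball_subset_cut : ball (0 : E2) F.rad ⊆ range (cut F) := by
  intro y hy
  refine ⟨y, ?_⟩
  unfold cut
  rw [if_pos hy]

end feed

/-- **(iii) over `PF`**: the second jets of one side are smooth near `0`. -/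
theorem hess_dichotomy {D : PF} {κ ℓ : ℝ} {K : ℕ} (hℓ : 0 < ℓ) (hκ : ℓ < κ)
    (hW : 4 * κ < ((K : ℝ) - 1) * ℓ) (FY : Feed D.Y κ ℓ K) (FX : Feed D.X κ ℓ K)
    (hY : ∀ c : ℕ × ℕ, κ * c.1 + ℓ * c.2 < 2 * κ → ContDiffAt ℝ ∞ (FY.side.v (inl c)) 0)
    (hX : ∀ c : ℕ × ℕ, κ * c.1 + ℓ * c.2 < 2 * κ → ContDiffAt ℝ ∞ (FX.side.v (inl c)) 0) :
    ContDiffAt ℝ ∞ (fun z => fderiv ℝ (∇ (D.Y.S z)) 0) 0 ∨
      ContDiffAt ℝ ∞ (fun z => fderiv ℝ (∇ (D.X.S z)) 0) 0 := by
  have hK5 : (5 : ℝ) < K := by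
    by_contra h
    push Not at h
    nlinarith
  have hK : 2 ≤ K := by
    have : (2 : ℝ) < K := by linarith
    exact_mod_cast this.le
  have hδ : 0 < min FY.rad FX.rad := lt_min FY.rad_pos FX.rad_pos
  have h1 := H143.loop_two FY.side FX.side hℓ hκ (H578.twoId FY FX hK hℓ hκ.le)
    (H578.twoId (D := D.symm) FX FY hK hℓ hκ.le) hW hK (by nlinarith) (U := Rg) (V := Rg)
    (fun a _ ha => hY a ha) (fun a _ ha => hX a ha) (fun i y => side_base FY (by omega) i y)
    (fun i x => side_base FX (by omega) i x) hδ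
    ((ball_subset_ball (min_le_left _ _)).trans (ball_subset_cut FY))
    ((ball_subset_ball (min_le_right _ _)).trans (ball_subset_cut FX))
  have h2 : ∀ {H : Half} (F : Feed H κ ℓ K),
      (∀ c : ℕ × ℕ, κ * c.1 + ℓ * c.2 < 2 * κ → ContDiffAt ℝ ∞ (F.side.v (inl c)) 0) →
      F.side.v (inl (2, 0)) ∈ Rg → ContDiffAt ℝ ∞ (fun z => fderiv ℝ (∇ (H.S z)) 0) 0 := by
    intro H F hF h20
    refine hess_of_feed F hK fun b hb1 hb2 => ?_
    by_cases hb : b.1 = 2
    · have h3 : b = (2, 0) := by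
        unfold len at hb2
        exact Prod.ext hb (by omega)
      rw [h3]
      exact h20
    · refine hF b ?_
      have h4 : b.1 ≤ 1 := by unfold len at hb2; omega
      have h5 : b.2 ≤ 2 - b.1 := by unfold len at hb2; omega
      have h6 : (b.1 : ℝ) = 0 ∨ (b.1 : ℝ) = 1 := by
        rcases Nat.le_one_iff_eq_zero_or_eq_one.1 h4 with h | h
        · left; exact_mod_cast h
        · right; exact_mod_cast h
      rcases Nat.le_one_iff_eq_zero_or_eq_one.1 h4 with h | h
      · rw [h] at h5 ⊢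
        have h7 : (b.2 : ℝ) ≤ 2 := by exact_mod_cast h5
        push_cast
        nlinarith
      · rw [h] at h5 ⊢
        have h7 : (b.2 : ℝ) ≤ 1 := by exact_mod_cast h5
        push_cast
        nlinarith
  rcases h1 with h | h
  · exact Or.inl (h2 FY hY h)
  · exact Or.inr (h2 FX hX h)

variable {Γ X B : Type} [Group Γ] [MetricSpace X] [ProperSpace X] [MulAction Γ X]
  [IsIsometricSMul Γ X] [TopologicalSpace B] [CompactSpace B] [T2Space B] [MulAction Γ B]
  [ContinuousConstSMul Γ B]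

theorem cont_e {L : Leaf Γ X B} {x : B → E2} {f : X} (hxc : ContinuousAt x (L.ep f)) :
    ContinuousAt (fun u => x (L.e f u)) 0 := by
  have hec : ContinuousAt (fun u => L.e f u) 0 := by
    have h4 : ContinuousOn (fun u : E2 => L.e f u) (closedBall 0 3) :=
      L.e_cont.comp (continuous_const.prodMk continuous_id).continuousOn
        fun u hu => ⟨mem_univ _, hu⟩
    exact h4.continuousAt (closedBall_mem_nhds 0 (by norm_num))
  refine ContinuousAt.comp (g := x) ?_ hec
  rw [L.e_zero]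
  exact hxc

/-- **Case 2, the end step.** -/
theorem case2_end {L : Leaf Γ X B} {T : Tens L} {D : PF} {g g' : Γ} {neg pos : B}
    {x y : B → E2} (S₁ : Side T g neg pos x y D.Y D.X) (S₂ : Side T g' pos neg y x D.X D.Y)
    (hx0 : x pos = 0) (hy0 : y neg = 0) (hxc : ContinuousAt x pos) (hyc : ContinuousAt y neg)
    {f : X} (hf : L.em f = neg) (hf' : L.ep f = pos) {κ ℓ : ℝ} {K : ℕ} (hℓ : 0 < ℓ) (hκ : ℓ < κ)
    (hW : 4 * κ < ((K : ℝ) - 1) * ℓ) (FY : Feed D.Y κ ℓ K) (FX : Feed D.X κ ℓ K)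
    (hY : ∀ c : ℕ × ℕ, κ * c.1 + ℓ * c.2 < 2 * κ → ContDiffAt ℝ ∞ (FY.side.v (inl c)) 0)
    (hX : ∀ c : ℕ × ℕ, κ * c.1 + ℓ * c.2 < 2 * κ → ContDiffAt ℝ ∞ (FX.side.v (inl c)) 0)
    (k₀ : ℕ) : ¬ Rough T k₀ := by
  have hff : L.em (L.flip f) = pos := by rw [← L.ep_flip, hf']
  have hff' : L.ep (L.flip f) = neg := by rw [L.ep_flip, L.flip_flip, hf]
  rcases hess_dichotomy hℓ hκ hW FY FX hY hX with h | h
  · exact hess_not_rough S₂ hx0 hy0 hff hff' (cont_e (by rw [hff']; exact hyc)) h k₀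
  · exact hess_not_rough S₁ hy0 hx0 hf hf' (cont_e (by rw [hf']; exact hxc)) h k₀

end Vale.Agent.P207.N3.H545
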