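import Vale.Agent.P207.N3.H545.Chain

/-!
N3-P5 (helper545): bounds for all derivatives of the inverse of an invertible matrix field, for
compositions and products (`C^k` calculus with explicit dependence of the constants).
-/

set_option maxSynthPendingDepth 3

open Set Filter Topology Metric

namespace Vale.Agent.P207.N3.H545

universe u

section Comp

/-- `C^k` bound of a composition. -/
theorem norm_iteratedFDeriv_comp_at_le {E F G : Type*} [NormedAddCommGroup E] [NormedSpace ℝ E]
    [NormedAddCommGroup F] [NormedSpace ℝ F] [NormedAddCommGroup G] [NormedSpace ℝ G]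
    {g : F → G} {f : E → F} {x : E} {n : ℕ} {C D : ℝ} (hg : ContDiffAt ℝ n g (f x))
    (hf : ContDiffAt ℝ n f x) (hC : ∀ i ≤ n, ‖iteratedFDeriv ℝ i g (f x)‖ ≤ C)
    (hD : ∀ i, 1 ≤ i → i ≤ n → ‖iteratedFDeriv ℝ i f x‖ ≤ D ^ i) :
    ‖iteratedFDeriv ℝ n (g ∘ f) x‖ ≤ n.factorial * C * D ^ n := by
  obtain ⟨v, hv, hxv, hgv⟩ := exists_open_contDiffOn hg
  obtain ⟨u, hu, hxu, hfu⟩ := exists_open_contDiffOn hf
  -- shrink the domain
  set w : Set E := u ∩ f ⁻¹' v with hw
  have hwo : IsOpen w := hfu.continuousOn.isOpen_inter_preimage hu hv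
  have hxw : x ∈ w := ⟨hxu, hxv⟩
  have key := norm_iteratedFDerivWithin_comp_le hgv (hfu.mono (inter_subset_left (t := f ⁻¹' v)))
    le_rfl hv.uniqueDiffOn hwo.uniqueDiffOn (fun y hy => hy.2) hxw (C := C) (D := D)
    (by
      intro i hi
      rw [iteratedFDerivWithin_of_isOpen i hv hxv]; exact hC i hi)
    (by
      intro i h1 hi
      rw [iteratedFDerivWithin_of_isOpen i hwo hxw]; exact hD i h1 hi)
  rwa [iteratedFDerivWithin_of_isOpen n hwo hxw] at key

end Comp

section Inv

variable {R : Type u} [NormedRing R] [NormedAlgebra ℝ R] [CompleteSpace R]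

theorem norm_mulLeftRight_le_one :
    ‖(ContinuousLinearMap.mulLeftRight ℝ R : R →L[ℝ] R →L[ℝ] R →L[ℝ] R)‖ ≤ 1 :=
  ContinuousLinearMap.opNorm_mulLeftRight_le ℝ R

/-- all derivatives of order `≤ k` of `x ↦ (g x)⁻¹` are bounded in terms of `k`, a bound of
`‖(g x)⁻¹‖` and bounds of the derivatives of `g`. -/
theorem exists_inverse_bound (k : ℕ) : ∀ b c : ℝ, 0 ≤ b → 0 ≤ c → ∃ K : ℝ, 0 ≤ K ∧
    ∀ (R : Type u) [NormedRing R] [NormedAlgebra ℝ R] [CompleteSpace R]
      (E : Type u) [NormedAddCommGroup E] [NormedSpace ℝ E] (g : E → R) (x : E),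
      ContDiffAt ℝ k g x → IsUnit (g x) → ‖Ring.inverse (g x)‖ ≤ b →
      (∀ i, 1 ≤ i → i ≤ k → ‖iteratedFDeriv ℝ i g x‖ ≤ c) →
      ∀ i ≤ k, ‖iteratedFDeriv ℝ i (fun y => Ring.inverse (g y)) x‖ ≤ K := by
  induction k with
  | zero =>
    intro b c hb _
    refine ⟨b, hb, ?_⟩
    intro R _ _ _ E _ _ g x _ _ hinv _ i hi
    have hi0 : i = 0 := by omega
    subst hi0
    rw [norm_iteratedFDeriv_zero]; exact hinv
  | succ k ih =>
    intro b c hb hc
    obtain ⟨K, hK0, hK⟩ := ih b c hb hc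
    refine ⟨max K (2 ^ k * (2 ^ k * (K * K) * c)), le_max_of_le_left hK0, ?_⟩
    intro R _ _ _ E _ _ g x hg hu hinv hgc i hi
    have hgk : ContDiffAt ℝ k g x := hg.of_le (by exact_mod_cast Nat.le_succ k)
    have hlow := hK R E g x hgk hu hinv (fun j h1 h2 => hgc j h1 (by omega))
    rcases Nat.lt_or_ge i (k + 1) with h | h
    · exact (hlow i (by omega)).trans (le_max_left _ _)
    have hik : i = k + 1 := by omega
    subst hik
    refine le_trans ?_ (le_max_right _ _)
    -- the derivative of `g⁻¹`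
    set h : E → R := fun y => Ring.inverse (g y) with hh
    have hhk : ContDiffAt ℝ k h x := by
      obtain ⟨v, hv⟩ := hu
      have h1 : ContDiffAt ℝ k Ring.inverse (g x) := by rw [← hv]; exact contDiffAt_ringInverse ℝ v
      exact h1.comp x hgk
    have hdg : ContDiffAt ℝ k (fderiv ℝ g) x :=
      hg.fderiv_right (m := k) (by push_cast; exact le_rfl)
    have hev : ∀ᶠ y in 𝓝 x, fderiv ℝ h y =
        (ContinuousLinearMap.compL ℝ E R R
          (-(ContinuousLinearMap.mulLeftRight ℝ R (h y) (h y)))) (fderiv ℝ g y) := by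
      have e1 : ∀ᶠ y in 𝓝 x, IsUnit (g y) :=
        hg.continuousAt.eventually (Units.isOpen.mem_nhds hu)
      have e2 : ∀ᶠ y in 𝓝 x, ContDiffAt ℝ ((k + 1 : ℕ) : WithTop ℕ∞) g y :=
        hg.eventually (by simp)
      filter_upwards [e1, e2] with y h1 h2
      obtain ⟨v, hv⟩ := h1
      have d2 : HasFDerivAt g (fderiv ℝ g y) y :=
        (h2.differentiableAt (by exact_mod_cast Nat.succ_ne_zero k)).hasFDerivAt
      have d1 : HasFDerivAt Ring.inverse
          (-ContinuousLinearMap.mulLeftRight ℝ R ((v⁻¹ : Rˣ) : R) ((v⁻¹ : Rˣ) : R)) (g y) := by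
        rw [← hv]; exact hasFDerivAt_ringInverse v
      have d3 : HasFDerivAt h _ y := d1.comp y d2
      rw [d3.fderiv]
      have hvy : h y = ((v⁻¹ : Rˣ) : R) := by
        rw [hh]; simp only; rw [← hv, Ring.inverse_unit]
      rw [hvy]
      rfl
    -- inner bilinear map
    set Φ : E → (R →L[ℝ] R) := fun y => ContinuousLinearMap.mulLeftRight ℝ R (h y) (h y) with hΦ
    have hΦk : ContDiffAt ℝ k Φ x := by
      have h1 : ContDiffAt ℝ k (fun y => ContinuousLinearMap.mulLeftRight ℝ R (h y)) x :=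
        ((ContinuousLinearMap.mulLeftRight ℝ R).contDiff.contDiffAt).comp x hhk
      exact h1.clm_apply hhk
    have hΦb : ∀ j ≤ k, ‖iteratedFDeriv ℝ j Φ x‖ ≤ 2 ^ k * (K * K) := by
      intro j hj
      have := norm_iteratedFDeriv_bilin_le (n := j) (ContinuousLinearMap.mulLeftRight ℝ R)
        (hhk.of_le (by exact_mod_cast hj)) (hhk.of_le (by exact_mod_cast hj)) (a := K) (b := K)
        (fun l hl => hlow l (by omega)) (fun l hl => hlow l (by omega))
      refine this.trans ?_
      calc ‖ContinuousLinearMap.mulLeftRight ℝ R‖ * (2 ^ j * (K * K))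
          ≤ 1 * (2 ^ k * (K * K)) := by
            refine mul_le_mul (ContinuousLinearMap.opNorm_mulLeftRight_le ℝ R) ?_ (by positivity)
              zero_le_one
            exact mul_le_mul_of_nonneg_right (pow_le_pow_right₀ (by norm_num) hj) (by positivity)
        _ = _ := one_mul _
    have hfin := norm_iteratedFDeriv_bilin_le (n := k) (ContinuousLinearMap.compL ℝ E R R)
      (f := fun y => -Φ y) (g := fderiv ℝ g) (x := x) hΦk.neg hdg
      (a := 2 ^ k * (K * K)) (b := c)
      (by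
        intro j hj
        have : ‖iteratedFDeriv ℝ j (fun y => -Φ y) x‖ = ‖iteratedFDeriv ℝ j Φ x‖ := by
          have h2 : (fun y => -Φ y) = -Φ := rfl
          rw [h2, iteratedFDeriv_neg_apply, norm_neg]
        rw [this]; exact hΦb j hj)
      (by
        intro j hj
        rw [norm_iteratedFDeriv_fderiv]; exact hgc (j + 1) (by omega) (by omega))
    rw [← norm_iteratedFDeriv_fderiv, (Filter.EventuallyEq.iteratedFDeriv (𝕜 := ℝ) hev k).eq_of_nhds]
    refine hfin.trans ?_
    calc ‖ContinuousLinearMap.compL ℝ E R R‖ * (2 ^ k * (2 ^ k * (K * K) * c))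
        ≤ 1 * (2 ^ k * (2 ^ k * (K * K) * c)) :=
          mul_le_mul_of_nonneg_right (ContinuousLinearMap.norm_compL_le ℝ E R R) (by positivity)
      _ = _ := one_mul _

end Inv

end Vale.Agent.P207.N3.H545
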