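import Vale.Agent.P207.N3.H545.Step
import Vale.Agent.P207.N3.H545.Inv

/-!
N3-P5 (helper545): the derivative of the transition maps is invertible, uniform `C^k` bounds
of the inverse derivative of the unit steps; the matrices of vectors and symmetric tensors.
-/

set_option maxSynthPendingDepth 3

open Set Filter Topology Metric
open scoped ContDiff

noncomputable section

namespace Vale.Agent.P207.N3.H545

open Vale.Agent.P207.N3

variable {Γ X B : Type} [Group Γ] [MetricSpace X] [ProperSpace X] [MulAction Γ X]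
  [IsIsometricSMul Γ X] [TopologicalSpace B] [CompactSpace B] [T2Space B] [MulAction Γ B]
  [ContinuousConstSMul Γ B]

variable (L : Leaf Γ X B)

theorem e_contOn (x : X) : ContinuousOn (L.e x) (closedBall (0 : E2) 3) := by
  have h1 : ContinuousOn (fun u : E2 => ((x, u) : X × E2)) (closedBall (0 : E2) 3) := by
    fun_prop
  exact L.e_cont.comp h1 (fun u hu => ⟨mem_univ _, hu⟩)

theorem isOpen_image (x : X) : IsOpen (L.e x '' ball (0 : E2) 3) := by
  have h := L.e_open.preimage (Continuous.prodMk_right x : Continuous fun b : B => (x, b))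
  exact h

theorem isOpen_dm (x y : X) : IsOpen (L.dm x y) := by
  have h1 : ContinuousOn (L.e x) (ball (0 : E2) 3) := (e_contOn L x).mono ball_subset_closedBall
  have := h1.isOpen_inter_preimage isOpen_ball (isOpen_image L y)
  exact this

theorem tau_mem_dm {x y : X} {u : E2} (hu : u ∈ L.dm x y) : L.τ x y u ∈ L.dm y x := by
  have h1 : L.τ x y u ∈ ball (0 : E2) 3 := tau_mem_ball L le_rfl hu.2
  refine ⟨h1, ?_⟩
  have h2 : L.e x u ∈ L.e y '' closedBall (0 : E2) 3 := by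
    obtain ⟨v, hv, he⟩ := hu.2
    exact ⟨v, ball_subset_closedBall hv, he⟩
  show L.e y (L.τ x y u) ∈ L.e x '' ball 0 3
  rw [(e_tau L h2).2]
  exact ⟨u, hu.1, rfl⟩

theorem e_tau_dm {x y : X} {u : E2} (hu : u ∈ L.dm x y) : L.e y (L.τ x y u) = L.e x u := by
  have h2 : L.e x u ∈ L.e y '' closedBall (0 : E2) 3 := by
    obtain ⟨v, hv, he⟩ := hu.2
    exact ⟨v, ball_subset_closedBall hv, he⟩
  exact (e_tau L h2).2

theorem tau_tau {x y : X} {u : E2} (hu : u ∈ L.dm x y) : L.τ y x (L.τ x y u) = u :=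
  tau_eq_of L (ball_subset_closedBall hu.1) (e_tau_dm L hu).symm

theorem tau_contDiffAt {x y : X} (h : L.em x = L.em y) {u : E2} (hu : u ∈ L.dm x y) :
    ContDiffAt ℝ ∞ (L.τ x y) u :=
  (L.tau_smooth x y h u hu).contDiffAt ((isOpen_dm L x y).mem_nhds hu)

theorem fderiv_tau_comp {x y : X} (h : L.em x = L.em y) {u : E2} (hu : u ∈ L.dm x y) :
    (fderiv ℝ (L.τ y x) (L.τ x y u)) * (fderiv ℝ (L.τ x y) u) = 1 := by
  have h1 : HasFDerivAt (L.τ x y) (fderiv ℝ (L.τ x y) u) u :=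
    ((tau_contDiffAt L h hu).differentiableAt (by simp)).hasFDerivAt
  have h2 : HasFDerivAt (L.τ y x) (fderiv ℝ (L.τ y x) (L.τ x y u)) (L.τ x y u) :=
    ((tau_contDiffAt L h.symm (tau_mem_dm L hu)).differentiableAt (by simp)).hasFDerivAt
  have h3 := h2.comp u h1
  have h4 : (L.τ y x ∘ L.τ x y) =ᶠ[𝓝 u] id := by
    filter_upwards [(isOpen_dm L x y).mem_nhds hu] with v hv
    exact tau_tau L hv
  have h5 : HasFDerivAt (L.τ y x ∘ L.τ x y) (ContinuousLinearMap.id ℝ E2) u :=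
    (hasFDerivAt_id u).congr_of_eventuallyEq h4
  exact h3.unique h5

theorem fderiv_tau_comp' {x y : X} (h : L.em x = L.em y) {u : E2} (hu : u ∈ L.dm x y) :
    (fderiv ℝ (L.τ x y) u) * (fderiv ℝ (L.τ y x) (L.τ x y u)) = 1 := by
  have := fderiv_tau_comp L h.symm (tau_mem_dm L hu)
  rwa [tau_tau L hu] at this

theorem isUnit_fderiv_tau {x y : X} (h : L.em x = L.em y) {u : E2} (hu : u ∈ L.dm x y) :
    IsUnit (fderiv ℝ (L.τ x y) u) :=
  ⟨⟨fderiv ℝ (L.τ x y) u, fderiv ℝ (L.τ y x) (L.τ x y u), fderiv_tau_comp' L h hu,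
    fderiv_tau_comp L h hu⟩, rfl⟩

theorem inverse_fderiv_tau {x y : X} (h : L.em x = L.em y) {u : E2} (hu : u ∈ L.dm x y) :
    Ring.inverse (fderiv ℝ (L.τ x y) u) = fderiv ℝ (L.τ y x) (L.τ x y u) := by
  have := Ring.inverse_unit (⟨fderiv ℝ (L.τ x y) u, fderiv ℝ (L.τ y x) (L.τ x y u),
    fderiv_tau_comp' L h hu, fderiv_tau_comp L h hu⟩ : (E2 →L[ℝ] E2)ˣ)
  exact this

/-- equivariance of the transition maps -/
theorem tau_smul (g : Γ) {x y : X} {u : E2} (hu : u ∈ closedBall (0 : E2) 3)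
    (h : L.e x u ∈ L.e y '' closedBall (0 : E2) 3) : L.τ (g • x) (g • y) u = L.τ x y u := by
  obtain ⟨h1, h2⟩ := e_tau L h
  refine tau_eq_of L h1 ?_
  rw [L.e_smul g y _ h1, L.e_smul g x _ hu, h2]

theorem tau_smul_step (g : Γ) {t : ℝ} (ht : L.t1 ≤ t) (y : X) {u : E2}
    (hu : u ∈ closedBall (0 : E2) 3) :
    L.τ (L.φ t (g • y)) (g • y) u = L.τ (L.φ t y) y u := by
  rw [L.φ_smul]
  refine tau_smul L g hu ?_
  obtain ⟨v, hv, he⟩ := L.engulf y t ht ⟨u, hu, rfl⟩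
  exact ⟨v, ball_subset_closedBall (ball_subset_ball (by norm_num) hv), he⟩

theorem fderiv_tau_smul_step (g : Γ) {t : ℝ} (ht : L.t1 ≤ t) (y : X) {u : E2}
    (hu : u ∈ ball (0 : E2) 3) :
    fderiv ℝ (L.τ (L.φ t (g • y)) (g • y)) u = fderiv ℝ (L.τ (L.φ t y) y) u := by
  refine Filter.EventuallyEq.fderiv_eq ?_
  filter_upwards [isOpen_ball.mem_nhds hu] with v hv
  exact tau_smul_step L g ht y (ball_subset_closedBall hv)

theorem continuousOn_fderiv_tau :
    ContinuousOn (fun p : (X × X) × E2 => fderiv ℝ (L.τ p.1.1 p.1.2) p.2)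
      {p | L.em p.1.1 = L.em p.1.2 ∧ p.2 ∈ L.dm p.1.1 p.1.2} := by
  have h1 := L.tau_cont 1
  have h2 : ContinuousOn (fun p : (X × X) × E2 => (continuousMultilinearCurryFin1 ℝ E2 E2)
      (iteratedFDeriv ℝ 1 (tau L.e p.1.1 p.1.2) p.2))
      {p | L.em p.1.1 = L.em p.1.2 ∧ p.2 ∈ dom L.e p.1.1 p.1.2} :=
    (continuousMultilinearCurryFin1 ℝ E2 E2).continuous.comp_continuousOn h1
  refine h2.congr fun p _ => ?_
  ext v
  simp [Leaf.τ]

theorem exists_norm_inverse_step_le (T : ℝ) : ∃ b : ℝ, 0 ≤ b ∧ ∀ y, ∀ t ∈ Icc L.t1 T,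
    ∀ u ∈ closedBall (0 : E2) 2, ‖Ring.inverse (fderiv ℝ (L.τ (L.φ t y) y) u)‖ ≤ b := by
  obtain ⟨K, hK, hKΓ⟩ := L.cocompact
  have h23 : closedBall (0 : E2) 2 ⊆ ball 0 3 := closedBall_subset_ball (by norm_num)
  have hcomp : IsCompact (K ×ˢ (Icc L.t1 T ×ˢ closedBall (0 : E2) 2)) :=
    hK.prod (isCompact_Icc.prod (isCompact_closedBall _ _))
  have hc1 : ContinuousOn (fun p : X × (ℝ × E2) => fderiv ℝ (L.τ (L.φ p.2.1 p.1) p.1) p.2.2)
      (K ×ˢ (Icc L.t1 T ×ˢ closedBall (0 : E2) 2)) := by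
    have hmap : Continuous fun p : X × (ℝ × E2) => (((L.φ p.2.1 p.1, p.1), p.2.2) : (X × X) × E2) := by
      have h1 : Continuous fun p : X × (ℝ × E2) => L.φ p.2.1 p.1 :=
        L.φ_cont.comp (by fun_prop : Continuous fun p : X × (ℝ × E2) => ((p.2.1, p.1) : ℝ × X))
      exact (h1.prodMk continuous_fst).prodMk (by fun_prop)
    refine (continuousOn_fderiv_tau L).comp hmap.continuousOn ?_
    rintro ⟨y, t, u⟩ ⟨_, ht, hu⟩
    refine ⟨L.em_φ t y, ?_⟩
    show u ∈ L.dm (L.φ t y) y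
    rw [dm_step L ht.1 y]
    exact h23 hu
  have hc2 : ContinuousOn (fun p : X × (ℝ × E2) =>
      Ring.inverse (fderiv ℝ (L.τ (L.φ p.2.1 p.1) p.1) p.2.2))
      (K ×ˢ (Icc L.t1 T ×ˢ closedBall (0 : E2) 2)) := by
    rintro ⟨y, t, u⟩ hp
    have hu : IsUnit (fderiv ℝ (L.τ (L.φ t y) y) u) := by
      refine isUnit_fderiv_tau L (L.em_φ t y) ?_
      rw [dm_step L hp.2.1.1 y]
      exact h23 hp.2.2
    obtain ⟨v, hv⟩ := hu
    have h1 : ContinuousAt Ring.inverse (fderiv ℝ (L.τ (L.φ t y) y) u) := by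
      rw [← hv]; exact NormedRing.inverse_continuousAt v
    exact ContinuousAt.comp_continuousWithinAt (g := Ring.inverse)
      (f := fun p : X × (ℝ × E2) => fderiv ℝ (L.τ (L.φ p.2.1 p.1) p.1) p.2.2) h1
      (hc1 (y, t, u) hp)
  obtain ⟨b, hb⟩ := hcomp.exists_bound_of_continuousOn hc2
  refine ⟨max b 0, le_max_right _ _, ?_⟩
  intro y t ht u hu
  obtain ⟨g, hg⟩ := hKΓ y
  have := hb (g • y, t, u) ⟨hg, ht, hu⟩
  simp only at this
  rw [fderiv_tau_smul_step L g ht.1 y (h23 hu)] at this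
  exact this.trans (le_max_left _ _)

/-- uniform `C^k` bounds of the inverse derivative of the steps -/
theorem exists_inv_step_CkB (k : ℕ) (T : ℝ) : ∃ c : ℝ, 0 ≤ c ∧ ∀ y, ∀ t ∈ Icc L.t1 T,
    CkB k 2 c (fun u => Ring.inverse (fderiv ℝ (L.τ (L.φ t y) y) u)) := by
  obtain ⟨b, hb0, hb⟩ := exists_norm_inverse_step_le L T
  have hcs : 0 ≤ cs L (k + 1) :=
    Finset.sum_nonneg fun j _ => zero_le_one.trans (one_le_cc L j)
  obtain ⟨K, hK0, hK⟩ := exists_inverse_bound.{0} k b (cs L (k + 1)) hb0 hcs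
  refine ⟨K, hK0, fun y t ht => ?_⟩
  have h23 : ball (0 : E2) 2 ⊆ ball 0 3 := ball_subset_ball (by norm_num)
  have hunit : ∀ u ∈ ball (0 : E2) 2, IsUnit (fderiv ℝ (L.τ (L.φ t y) y) u) := by
    intro u hu
    refine isUnit_fderiv_tau L (L.em_φ t y) ?_
    rw [dm_step L ht.1 y]; exact h23 hu
  have hsm : ∀ u ∈ ball (0 : E2) 2, ContDiffAt ℝ k (fderiv ℝ (L.τ (L.φ t y) y)) u := by
    intro u hu
    have h1 : ContDiffAt ℝ ∞ (L.τ (L.φ t y) y) u :=
      ((tau_step_smooth L ht.1 y) u (h23 hu)).contDiffAt (isOpen_ball.mem_nhds (h23 hu))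
    exact h1.fderiv_right (m := k) (by exact_mod_cast le_top)
  refine ⟨?_, ?_⟩
  · intro u hu
    obtain ⟨v, hv⟩ := hunit u hu
    have h1 : ContDiffAt ℝ k Ring.inverse (fderiv ℝ (L.τ (L.φ t y) y) u) := by
      rw [← hv]; exact contDiffAt_ringInverse ℝ v
    exact (h1.comp u (hsm u hu)).contDiffWithinAt
  · intro i hi u hu
    refine hK (E2 →L[ℝ] E2) E2 (fderiv ℝ (L.τ (L.φ t y) y)) u (hsm u hu) (hunit u hu)
      (hb y t ht u (ball_subset_closedBall hu)) ?_ i hi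
    intro j h1 hj
    rw [norm_iteratedFDeriv_fderiv]
    exact (norm_iteratedFDeriv_tau_step_le L (by omega) ht.1 y (h23 hu)).trans
      (cc_le_cs L (by omega))

end Vale.Agent.P207.N3.H545
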