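import Vale.Agent.P207.N3.H545.Fun
import Vale.Agent.P207.N3.H828.CK

/-!
N3-P5 (helper545): symmetric tensors on leaves, `W = N ∇f`, LEMMA R for both.
-/

set_option maxSynthPendingDepth 3

open Set Filter Topology Metric
open scoped ContDiff

noncomputable section

namespace Vale.Agent.P207.N3.H545

open Vale.Agent.P207.N3

/-- real linear Riesz isometry -/
def riesz : (E2 →L[ℝ] ℝ) ≃ₗᵢ[ℝ] E2 where
  toFun := (InnerProductSpace.toDual ℝ E2).symm
  map_add' := fun x y => map_add _ x y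
  map_smul' := fun c x => by rw [map_smulₛₗ]; simp
  invFun := InnerProductSpace.toDual ℝ E2
  left_inv := fun x => (InnerProductSpace.toDual ℝ E2).apply_symm_apply x
  right_inv := fun x => (InnerProductSpace.toDual ℝ E2).symm_apply_apply x
  norm_map' := fun x => (InnerProductSpace.toDual ℝ E2).symm.norm_map x

theorem gradient_eq_riesz (F : E2 → ℝ) : gradient F = riesz ∘ fderiv ℝ F := rfl

theorem inner_gradient (F : E2 → ℝ) (u v : E2) : inner ℝ (gradient F u) v = fderiv ℝ F u v := by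
  have := toDual_gradient (𝕜 := ℝ) (f := F) (x := u)
  rw [← this]
  rfl

theorem norm_iteratedFDeriv_gradient (F : E2 → ℝ) (i : ℕ) (u : E2) :
    ‖iteratedFDeriv ℝ i (gradient F) u‖ = ‖iteratedFDeriv ℝ (i + 1) F u‖ := by
  rw [gradient_eq_riesz, LinearIsometryEquiv.norm_iteratedFDeriv_comp_left,
    norm_iteratedFDeriv_fderiv]

theorem contDiffAt_gradient {F : E2 → ℝ} {k : ℕ} {u : E2} (h : ContDiffAt ℝ (k + 1 : ℕ) F u) :
    ContDiffAt ℝ k (gradient F) u := by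
  have h1 : ContDiffAt ℝ k (fderiv ℝ F) u :=
    h.fderiv_right (m := k) (by push_cast; exact le_rfl)
  rw [gradient_eq_riesz]
  exact (riesz.contDiff.contDiffAt).comp u h1

theorem CkB_gradient {F : E2 → ℝ} {k : ℕ} {r C : ℝ} (h : CkB (k + 1) r C F) :
    CkB k r C (gradient F) := by
  refine ⟨fun u hu => (contDiffAt_gradient (h.contDiffAt hu)).contDiffWithinAt,
    fun i hi u hu => ?_⟩
  rw [norm_iteratedFDeriv_gradient]
  exact h.2 (i + 1) (by omega) u hu

/-- the gradient of a composition -/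
theorem gradient_comp {F : E2 → ℝ} {τ : E2 → E2} {u : E2} (hF : DifferentiableAt ℝ F (τ u))
    (hτ : DifferentiableAt ℝ τ u) :
    gradient (fun v => F (τ v)) u =
      ContinuousLinearMap.adjoint (fderiv ℝ τ u) (gradient F (τ u)) := by
  refine ext_inner_right ℝ fun v => ?_
  rw [inner_gradient, ContinuousLinearMap.adjoint_inner_left, inner_gradient]
  have h := (hF.hasFDerivAt.comp u hτ.hasFDerivAt).fderiv
  have h2 : fderiv ℝ (fun v => F (τ v)) u = (fderiv ℝ F (τ u)).comp (fderiv ℝ τ u) := h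
  rw [h2]; rfl

theorem gradient_congr {F G : E2 → ℝ} {u : E2} (h : F =ᶠ[𝓝 u] G) : gradient F u = gradient G u := by
  rw [gradient_eq_riesz, gradient_eq_riesz, Function.comp_apply, Function.comp_apply, h.fderiv_eq]

theorem gradient_sub_const (F : E2 → ℝ) (c : ℝ) : gradient (fun v => F v - c) = gradient F := by
  funext u
  rw [gradient_eq_riesz, gradient_eq_riesz, Function.comp_apply, Function.comp_apply,
    fderiv_sub_const]

/-! ### the action on symmetric tensors -/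

/-- `V ↦ S V Sᵀ` -/
def conjT (S : E2 →L[ℝ] E2) : (E2 →L[ℝ] E2) →L[ℝ] (E2 →L[ℝ] E2) :=
  ContinuousLinearMap.mulLeftRight ℝ (E2 →L[ℝ] E2) S (star S)

theorem conjT_apply (S V : E2 →L[ℝ] E2) : conjT S V = S * V * star S := rfl

theorem norm_conjT_le (S : E2 →L[ℝ] E2) : ‖conjT S‖ ≤ ‖S‖ * ‖S‖ := by
  refine ContinuousLinearMap.opNorm_le_bound _ (by positivity) fun V => ?_
  rw [conjT_apply]
  calc ‖S * V * star S‖ ≤ ‖S * V‖ * ‖star S‖ := norm_mul_le _ _
    _ ≤ (‖S‖ * ‖V‖) * ‖star S‖ := by gcongr; exact norm_mul_le _ _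
    _ = ‖S‖ * ‖S‖ * ‖V‖ := by rw [norm_star]; ring

theorem norm_starL'_le : ‖((starL' ℝ : (E2 →L[ℝ] E2) ≃L[ℝ] (E2 →L[ℝ] E2)) :
    (E2 →L[ℝ] E2) →L[ℝ] (E2 →L[ℝ] E2))‖ ≤ 1 := by
  refine ContinuousLinearMap.opNorm_le_bound _ zero_le_one fun V => ?_
  have : ((starL' ℝ : (E2 →L[ℝ] E2) ≃L[ℝ] (E2 →L[ℝ] E2)) :
    (E2 →L[ℝ] E2) →L[ℝ] (E2 →L[ℝ] E2)) V = star V := rfl
  rw [this, norm_star, one_mul]

theorem CkB_star {E : Type} [NormedAddCommGroup E] [NormedSpace ℝ E] {S : E → (E2 →L[ℝ] E2)}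
    {k : ℕ} {r C : ℝ} (h : CkB k r C S) : CkB k r C (fun u => star (S u)) := by
  have hfun : (fun u => star (S u)) = ((starL' ℝ : (E2 →L[ℝ] E2) ≃L[ℝ] (E2 →L[ℝ] E2)) :
    (E2 →L[ℝ] E2) →L[ℝ] (E2 →L[ℝ] E2)) ∘ S := rfl
  rw [hfun]
  refine ⟨(ContinuousLinearMap.contDiff _).comp_contDiffOn h.1, fun i hi u hu => ?_⟩
  have h1 := ContinuousLinearMap.norm_iteratedFDeriv_comp_left
    ((starL' ℝ : (E2 →L[ℝ] E2) ≃L[ℝ] (E2 →L[ℝ] E2)) : (E2 →L[ℝ] E2) →L[ℝ] (E2 →L[ℝ] E2))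
    (h.contDiffAt hu) (n := i) (by exact_mod_cast hi)
  refine h1.trans ?_
  calc _ ≤ 1 * ‖iteratedFDeriv ℝ i S u‖ :=
        mul_le_mul_of_nonneg_right norm_starL'_le (norm_nonneg _)
    _ ≤ C := by rw [one_mul]; exact h.2 i hi u hu

section BilCkB

variable {D E F G : Type*}
  [NormedAddCommGroup D] [NormedSpace ℝ D] [NormedAddCommGroup E] [NormedSpace ℝ E]
  [NormedAddCommGroup F] [NormedSpace ℝ F] [NormedAddCommGroup G] [NormedSpace ℝ G]

theorem CkB_bilin (B : E →L[ℝ] F →L[ℝ] G) {f : D → E} {g : D → F} {k : ℕ} {r a b : ℝ}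
    (hf : CkB k r a f) (hg : CkB k r b g) (ha : 0 ≤ a) (hb : 0 ≤ b) :
    CkB k r (‖B‖ * (2 ^ k * (a * b))) (fun u => B (f u) (g u)) := by
  refine ⟨fun u hu => ?_, fun i hi u hu => ?_⟩
  · have h1 : ContDiffAt ℝ k (fun y => B (f y) (g y)) u :=
      (B.isBoundedBilinearMap.contDiff.contDiffAt).comp u
        ((hf.contDiffAt hu).prodMk (hg.contDiffAt hu))
    exact h1.contDiffWithinAt
  · have hik : (i : WithTop ℕ∞) ≤ k := by exact_mod_cast hi
    have h1 := norm_iteratedFDeriv_bilin_le (n := i) B ((hf.contDiffAt hu).of_le hik)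
      ((hg.contDiffAt hu).of_le hik) (a := a) (b := b)
      (fun j hj => hf.2 j (hj.trans hi) u hu) (fun j hj => hg.2 j (hj.trans hi) u hu)
    refine h1.trans (mul_le_mul_of_nonneg_left ?_ (norm_nonneg _))
    exact mul_le_mul_of_nonneg_right (pow_le_pow_right₀ (by norm_num) hi) (mul_nonneg ha hb)

theorem CkB_add {f g : D → E} {k : ℕ} {r a b : ℝ} (hf : CkB k r a f) (hg : CkB k r b g) :
    CkB k r (a + b) (fun u => f u + g u) := by
  refine ⟨hf.1.add hg.1, fun i hi u hu => ?_⟩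
  have hik : (i : WithTop ℕ∞) ≤ k := by exact_mod_cast hi
  rw [fun_iteratedFDeriv_add_apply ((hf.contDiffAt hu).of_le hik) ((hg.contDiffAt hu).of_le hik)]
  exact (norm_add_le _ _).trans (add_le_add (hf.2 i hi u hu) (hg.2 i hi u hu))

theorem CkB_neg {f : D → E} {k : ℕ} {r a : ℝ} (hf : CkB k r a f) : CkB k r a (fun u => -f u) := by
  refine ⟨hf.1.neg, fun i hi u hu => ?_⟩
  have h2 : (fun u => -f u) = -f := rfl
  rw [h2, iteratedFDeriv_neg_apply, norm_neg]
  exact hf.2 i hi u hu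

theorem CkB_sub {f g : D → E} {k : ℕ} {r a b : ℝ} (hf : CkB k r a f) (hg : CkB k r b g) :
    CkB k r (a + b) (fun u => f u - g u) := by
  have := CkB_add hf (CkB_neg hg)
  simpa only [sub_eq_add_neg] using this

theorem CkB_congr {f g : D → E} {k : ℕ} {r a : ℝ} (hf : CkB k r a f)
    (h : ∀ u ∈ ball (0 : D) r, g u = f u) : CkB k r a g := by
  refine ⟨hf.1.congr h, fun i hi u hu => ?_⟩
  have hev : g =ᶠ[𝓝 u] f := by
    filter_upwards [isOpen_ball.mem_nhds hu] with v hv using h v hv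
  rw [(Filter.EventuallyEq.iteratedFDeriv (𝕜 := ℝ) hev i).eq_of_nhds]
  exact hf.2 i hi u hu

/-- composition with a map into the ball, all derivatives bounded -/
theorem exists_CkB_comp (k : ℕ) (c : ℝ) : ∃ K : ℝ, 0 ≤ K ∧
    ∀ (D E F : Type) [NormedAddCommGroup D] [NormedSpace ℝ D] [NormedAddCommGroup E]
      [NormedSpace ℝ E] [NormedAddCommGroup F] [NormedSpace ℝ F]
      (g : E → F) (τ : D → E) (r r' a : ℝ), CkB k r' a g → MapsTo τ (ball 0 r) (ball 0 r') →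
      ContDiffOn ℝ k τ (ball 0 r) →
      (∀ i, 1 ≤ i → i ≤ k → ∀ u ∈ ball (0 : D) r, ‖iteratedFDeriv ℝ i τ u‖ ≤ c) →
      CkB k r (K * a) (fun u => g (τ u)) := by
  set D₀ : ℝ := max c 1 with hD₀
  have h1D : 1 ≤ D₀ := le_max_right _ _
  refine ⟨k.factorial * D₀ ^ k, by positivity, ?_⟩
  intro D E F _ _ _ _ _ _ g τ r r' a hg hmap hτ hc
  refine ⟨hg.1.comp hτ hmap, fun i hi u hu => ?_⟩
  have hik : (i : WithTop ℕ∞) ≤ k := by exact_mod_cast hi
  have ha : 0 ≤ a := (norm_nonneg _).trans (hg.2 0 (Nat.zero_le _) _ (hmap hu))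
  have h1 := norm_iteratedFDeriv_comp_at_le (n := i) (g := g) (f := τ) (x := u) (C := a) (D := D₀)
    ((hg.contDiffAt (hmap hu)).of_le hik)
    (((hτ u hu).contDiffAt (isOpen_ball.mem_nhds hu)).of_le hik)
    (fun j hj => hg.2 j (hj.trans hi) _ (hmap hu))
    (fun j h1 hj => (hc j h1 (hj.trans hi) u hu).trans ((le_max_left _ _).trans
      (le_self_pow₀ h1D (by omega))))
  refine h1.trans ?_
  have e1 : (i.factorial : ℝ) ≤ k.factorial := by exact_mod_cast Nat.factorial_le hi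
  have e2 : D₀ ^ i ≤ D₀ ^ k := pow_le_pow_right₀ h1D hi
  calc (i.factorial : ℝ) * a * D₀ ^ i ≤ (k.factorial : ℝ) * a * D₀ ^ k := by gcongr
    _ = _ := by ring

end BilCkB

end Vale.Agent.P207.N3.H545
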