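import Vale.Agent.P207.N3.H545.TensR

/-!
N3-P5 (helper545): user theorem, real times: a function `f` near a disc `e z` with
`W = N ∇f` smooth there, rescaled along the discs `e (φ_t z)`.
-/

set_option maxSynthPendingDepth 3

open Set Filter Topology Metric
open scoped ContDiff

noncomputable section

namespace Vale.Agent.P207.N3.H545

open Vale.Agent.P207.N3

variable {Γ X B : Type} [Group Γ] [MetricSpace X] [ProperSpace X] [MulAction Γ X]
  [IsIsometricSMul Γ X] [TopologicalSpace B] [CompactSpace B] [T2Space B] [MulAction Γ B]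
  [ContinuousConstSMul Γ B]

theorem iteratedFDeriv_sub_const_pos {E F : Type*} [NormedAddCommGroup E] [NormedSpace ℝ E]
    [NormedAddCommGroup F] [NormedSpace ℝ F] (f : E → F) (c : F) {i : ℕ} (hi : 1 ≤ i) (u : E) :
    ‖iteratedFDeriv ℝ i (fun v => f v - c) u‖ = ‖iteratedFDeriv ℝ i f u‖ := by
  obtain ⟨j, rfl⟩ : ∃ j, i = j + 1 := ⟨i - 1, by omega⟩
  rw [← norm_iteratedFDeriv_fderiv, ← norm_iteratedFDeriv_fderiv]
  have : fderiv ℝ (fun v => f v - c) = fderiv ℝ f := by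
    funext v; exact fderiv_sub_const c
  rw [this]

theorem CkB_sub_const {E F : Type*} [NormedAddCommGroup E] [NormedSpace ℝ E]
    [NormedAddCommGroup F] [NormedSpace ℝ F] {f : E → F} {k : ℕ} {r C : ℝ} {c : F}
    (h : CkB k r C f) (h0 : ∀ u ∈ ball (0 : E) r, ‖f u - c‖ ≤ C) :
    CkB k r C (fun v => f v - c) := by
  refine ⟨h.1.sub contDiffOn_const, fun i hi u hu => ?_⟩
  rcases Nat.eq_zero_or_pos i with h1 | h1
  · subst h1; rw [norm_iteratedFDeriv_zero]; exact h0 u hu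
  · rw [iteratedFDeriv_sub_const_pos f c h1]; exact h.2 i hi u hu

/-- `C^k` on `ball 0 3` implies `C^k`-bounded on `ball 0 2` (finite dimension). -/
theorem exists_CkB_of_contDiffOn {E F : Type*} [NormedAddCommGroup E] [NormedSpace ℝ E]
    [FiniteDimensional ℝ E] [NormedAddCommGroup F] [NormedSpace ℝ F] {f : E → F} {k : ℕ}
    {r R : ℝ} (hrR : r < R) (h : ContDiffOn ℝ k f (ball 0 R)) : ∃ C, 0 ≤ C ∧ CkB k r C f := by
  have hpE : ProperSpace E := FiniteDimensional.proper ℝ E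
  have hsub : closedBall (0 : E) r ⊆ ball 0 R := closedBall_subset_ball hrR
  have hb : ∀ i : ℕ, ∃ C, i ≤ k → ∀ u ∈ closedBall (0 : E) r, ‖iteratedFDeriv ℝ i f u‖ ≤ C := by
    intro i
    by_cases hi : i ≤ k
    · have hc : ContinuousOn (iteratedFDeriv ℝ i f) (closedBall (0 : E) r) := by
        intro u hu
        have h1 : ContDiffAt ℝ k f u := (h u (hsub hu)).contDiffAt (isOpen_ball.mem_nhds (hsub hu))
        have h2 : ContDiffAt ℝ 0 (iteratedFDeriv ℝ i f) u :=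
          h1.iteratedFDeriv_right (m := 0) (by rw [zero_add]; exact_mod_cast hi)
        exact h2.continuousAt.continuousWithinAt
      obtain ⟨C, hC⟩ := (isCompact_closedBall (0 : E) r).exists_bound_of_continuousOn hc
      exact ⟨C, fun _ => hC⟩
    · exact ⟨0, fun h => absurd h hi⟩
  choose C hC using hb
  refine ⟨∑ i ∈ Finset.range (k + 1), |C i|, Finset.sum_nonneg fun _ _ => abs_nonneg _,
    h.mono (ball_subset_ball hrR.le), fun i hi u hu => ?_⟩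
  refine (hC i hi u (ball_subset_closedBall hu)).trans ((le_abs_self _).trans ?_)
  exact Finset.single_le_sum (f := fun i => |C i|) (fun _ _ => abs_nonneg _)
    (Finset.mem_range.mpr (Nat.lt_succ_of_le hi))

/-- one step of length `t ∈ [t1, S]`: bounds of `f` and of `W = N ∇f`. -/
theorem exists_first_step {L : Leaf Γ X B} (T : Tens L) (k : ℕ) (S : ℝ) : ∃ K : ℝ, 1 ≤ K ∧
    ∀ (f : B → ℝ) (z : X) (C₀ t : ℝ), 0 ≤ C₀ → t ∈ Icc L.t1 S →
      CkB (k + 1) 1 C₀ (fun u => f (L.e z u)) → CkB k 1 C₀ (Wf T f z) →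
      CkB (k + 1) 2 (K * C₀) (fun u => f (L.e (L.φ t z) u)) ∧
        CkB k 2 (K * C₀) (Wf T f (L.φ t z)) := by
  obtain ⟨cS, hcS, hS⟩ := Sx_CkB L k S
  obtain ⟨cR, hcR, hR⟩ := R_CkB T k S
  obtain ⟨K₁, hK₁, hc₁⟩ := exists_CkB_comp (k + 1) (cs L (k + 1))
  obtain ⟨K₀, hK₀, hc₀⟩ := exists_CkB_comp k (cs L k)
  set I₁ : ℝ := ‖ContinuousLinearMap.id ℝ (E2 →L[ℝ] E2)‖ with hI₁
  have hI₁0 : 0 ≤ I₁ := norm_nonneg _
  set E₁ : ℝ := I₁ * (2 ^ k * (cS * K₀)) + I₁ * (2 ^ k * (cS * (I₁ * (2 ^ k * (cR * K₀))))) with hE₁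
  have hE₁0 : 0 ≤ E₁ := by positivity
  refine ⟨1 + K₁ + E₁, by linarith, ?_⟩
  intro f z C₀ t hC₀ ht hf hW
  have h23 : ball (0 : E2) 2 ⊆ ball 0 3 := ball_subset_ball (by norm_num)
  have hmap : MapsTo (L.τ (L.φ t z) z) (ball 0 2) (ball 0 1) := fun u hu =>
    tau_step_mem L ht.1 z (ball_subset_closedBall (h23 hu))
  have hτs : ∀ j : ℕ, ContDiffOn ℝ j (L.τ (L.φ t z) z) (ball 0 2) := fun j =>
    ((tau_step_smooth L ht.1 z).mono h23).of_le (by exact_mod_cast le_top)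
  have hτb : ∀ j : ℕ, ∀ i, 1 ≤ i → i ≤ j → ∀ u ∈ ball (0 : E2) 2,
      ‖iteratedFDeriv ℝ i (L.τ (L.φ t z) z) u‖ ≤ cs L j := fun j i hi hij u hu =>
    (norm_iteratedFDeriv_tau_step_le L hi ht.1 z (h23 hu)).trans (cc_le_cs L hij)
  have hF : CkB (k + 1) 2 (K₁ * C₀) (fun u => f (L.e (L.φ t z) u)) := by
    have h1 := hc₁ E2 E2 ℝ (fun u => f (L.e z u)) (L.τ (L.φ t z) z) 2 1 C₀ hf hmap (hτs (k + 1))
      (hτb (k + 1))
    exact CkB_congr h1 fun u hu => fun_step L f ht.1 z (ball_subset_closedBall (h23 hu))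
  have hg : CkB k 1 C₀ (grd L f z) := CkB_gradient hf
  have hgτ : CkB k 2 (K₀ * C₀) (fun u => grd L f z (L.τ (L.φ t z) z u)) :=
    hc₀ E2 E2 E2 (grd L f z) (L.τ (L.φ t z) z) 2 1 C₀ hg hmap (hτs k) (hτb k)
  have hWτ : CkB k 2 (K₀ * C₀) (fun u => Wf T f z (L.τ (L.φ t z) z u)) :=
    hc₀ E2 E2 E2 (Wf T f z) (L.τ (L.φ t z) z) 2 1 C₀ hW hmap (hτs k) (hτb k)
  have h1 := CkB_bilin (ContinuousLinearMap.id ℝ (E2 →L[ℝ] E2)) (hS z t ht) hWτ hcS (by positivity)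
  have h2 := CkB_bilin (ContinuousLinearMap.id ℝ (E2 →L[ℝ] E2)) (hR z t ht) hgτ hcR (by positivity)
  have h3 := CkB_bilin (ContinuousLinearMap.id ℝ (E2 →L[ℝ] E2)) (hS z t ht) h2 hcS (by positivity)
  have h4 := CkB_add h1 (CkB_neg h3)
  refine ⟨hF.mono le_rfl le_rfl ?_, ?_⟩
  · nlinarith
  · have h5 : CkB k 2 (E₁ * C₀) (Wf T f (L.φ t z)) := by
      refine (CkB_congr h4 fun u hu => ?_).mono le_rfl le_rfl (le_of_eq ?_)
      · refine Wf_step T ht.1 z (h23 hu) ?_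
        exact (hf.contDiffAt (hmap hu)).differentiableAt (by exact_mod_cast Nat.succ_ne_zero k)
      · rw [hE₁]; ring
    refine h5.mono le_rfl le_rfl ?_
    nlinarith

/-- USER THEOREM: rescaled functions and `N ∇f` are `C^k`-bounded (real times `t ≥ t1`). -/
theorem dir_bdd {L : Leaf Γ X B} (T : Tens L) {Λ : ℝ} (hΛ : 0 ≤ Λ) : ∃ k₀ : ℕ, ∀ k ≥ k₀,
    ∃ C : ℝ, 1 ≤ C ∧ ∀ (f : B → ℝ) (c : ℝ) (z : X) (C₀ t M : ℝ), 0 ≤ C₀ → 0 ≤ M → L.t1 ≤ t →
      CkB (k + 1) 1 C₀ (fun u => f (L.e z u)) → CkB k 1 C₀ (Wf T f z) →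
      C₀ ≤ M * Real.exp (Λ * t) →
      (∀ s ∈ Icc L.t1 t, ∀ u ∈ ball (0 : E2) 2,
        ‖f (L.e (L.φ s z) u) - c‖ ≤ M * Real.exp (Λ * (t - s))) →
      CkB (k + 1) 2 (C * M) (fun u => f (L.e (L.φ t z) u) - c) ∧
        CkB k 2 (C * M) (Wf T f (L.φ t z)) := by
  obtain ⟨k₀, hk₀⟩ := W_R T (Λ * ts L)
  refine ⟨k₀, fun k hk => ?_⟩
  obtain ⟨C, hC1, hC⟩ := hk₀ k hk
  obtain ⟨K, hK1, hK⟩ := exists_first_step T k (L.t1 + ts L)
  have hts := ts_pos L
  have ht1 := L.t1_pos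
  set E : ℝ := Real.exp (Λ * (L.t1 + ts L)) with hE
  have hE1 : 1 ≤ E := Real.one_le_exp (by positivity)
  have hC0 : 0 ≤ C := zero_le_one.trans hC1
  have hK0 : 0 ≤ K := zero_le_one.trans hK1
  have hE0 : 0 ≤ E := zero_le_one.trans hE1
  refine ⟨C * (K * E), by nlinarith [mul_le_mul hK1 hE1 zero_le_one hK0], ?_⟩
  intro f c z C₀ t M hC₀ hM ht hf hW hCM h0
  set n : ℕ := ⌊(t - L.t1) / ts L⌋₊ with hn
  have hn1 : (n : ℝ) * ts L ≤ t - L.t1 := by
    have := Nat.floor_le (div_nonneg (sub_nonneg.mpr ht) hts.le)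
    rw [← hn] at this
    rwa [le_div_iff₀ hts] at this
  have hn2 : t - L.t1 < ((n : ℝ) + 1) * ts L := by
    have := Nat.lt_floor_add_one ((t - L.t1) / ts L)
    rw [← hn] at this
    rwa [div_lt_iff₀ hts] at this
  set y : X := L.φ (t - n * ts L) z with hy
  have hstp : ∀ s : ℕ, stp L y n s = L.φ (t - s * ts L) z := fun s => stp_real L z t n s
  have hmem : t - n * ts L ∈ Icc L.t1 (L.t1 + ts L) := ⟨by linarith, by nlinarith⟩
  obtain ⟨hf1, hW1⟩ := hK f z C₀ (t - n * ts L) hC₀ hmem hf hW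
  set M' : ℝ := K * E * M with hM'
  have hM'0 : 0 ≤ M' := by positivity
  have hsup : ∀ s ≤ n, ∀ u ∈ ball (0 : E2) 2,
      ‖f (L.e (stp L y n s) u) - c‖ ≤ M' * Real.exp (Λ * ts L * s) := by
    intro s hs u hu
    rw [hstp s]
    have hs' : (s : ℝ) * ts L ≤ n * ts L := by gcongr
    have hm : t - s * ts L ∈ Icc L.t1 t := ⟨by linarith, by
      have : 0 ≤ (s : ℝ) * ts L := by positivity
      linarith⟩
    refine (h0 _ hm u hu).trans ?_
    have e1 : Λ * (t - (t - s * ts L)) = Λ * ts L * s := by ring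
    rw [e1, hM']
    have hKE : 1 ≤ K * E := by nlinarith
    have hp := (Real.exp_pos (Λ * ts L * s)).le
    calc M * Real.exp (Λ * ts L * s) = 1 * (M * Real.exp (Λ * ts L * s)) := (one_mul _).symm
      _ ≤ (K * E) * (M * Real.exp (Λ * ts L * s)) :=
          mul_le_mul_of_nonneg_right hKE (mul_nonneg hM hp)
      _ = _ := by ring
  -- initial bounds
  have hKC : K * C₀ ≤ M' * Real.exp (Λ * ts L * n) := by
    have e1 : Real.exp (Λ * t) ≤ E * Real.exp (Λ * ts L * n) := by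
      rw [hE, ← Real.exp_add]
      apply Real.exp_le_exp.mpr
      have : Λ * t ≤ Λ * ((L.t1 + ts L) + ts L * n) := by
        refine mul_le_mul_of_nonneg_left ?_ hΛ
        nlinarith
      linarith
    calc K * C₀ ≤ K * (M * Real.exp (Λ * t)) := mul_le_mul_of_nonneg_left hCM hK0
      _ ≤ K * (M * (E * Real.exp (Λ * ts L * n))) := by gcongr
      _ = _ := by rw [hM']; ring
  have key := hC f c y n M' hM'0 hsup
    (by
      refine CkB_sub_const (hf1.mono le_rfl le_rfl hKC) fun u hu => ?_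
      have := hsup n le_rfl u hu
      rwa [stp_self] at this)
    (hW1.mono le_rfl le_rfl hKC) 0 (Nat.zero_le _)
  rw [hstp 0] at key
  simp only [Nat.cast_zero, zero_mul, sub_zero, mul_zero, Real.exp_zero, mul_one] at key
  refine ⟨key.1.mono le_rfl le_rfl (le_of_eq ?_), key.2.mono le_rfl le_rfl (le_of_eq ?_)⟩ <;>
  · rw [hM']; ring

end Vale.Agent.P207.N3.H545
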