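import Vale.Agent.P207.N3.H545.TensR
import Vale.Agent.P207.N3.H828.Lim

/-!
N3-P5 (helper545): limit objects and the LIMIT RULE (1.3 of #10320).
-/

set_option maxSynthPendingDepth 3

open Set Filter Topology Metric
open scoped ContDiff

noncomputable section

namespace Vale.Agent.P207.N3.H545

open Vale.Agent.P207.N3

variable {Γ X B : Type} [Group Γ] [MetricSpace X] [ProperSpace X] [MulAction Γ X]
  [IsIsometricSMul Γ X] [TopologicalSpace B] [CompactSpace B] [T2Space B] [MulAction Γ B]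
  [ContinuousConstSMul Γ B]

section CkLimit

variable {E W : Type*} [NormedAddCommGroup E] [NormedSpace ℝ E] [NormedAddCommGroup W]
  [NormedSpace ℝ W] [FiniteDimensional ℝ E] [FiniteDimensional ℝ W]

omit [FiniteDimensional ℝ E] [FiniteDimensional ℝ W] in
theorem CkB_iff {k : ℕ} {r C : ℝ} {f : E → W} :
    CkB k r C f ↔ H828.CkB k (fun _ => C) (ball (0 : E) r) f := Iff.rfl

/-- A `C^{k+1}`-bounded family which converges pointwise converges in `C^k` (any filter). -/
theorem ck_pointwise {ι : Type*} {l : Filter ι} [NeBot l] {k : ℕ} {r C : ℝ} {F : ι → E → W}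
    {G : E → W} (hF : ∀ n, CkB (k + 1) r C (F n))
    (hG : ∀ u ∈ ball (0 : E) r, Tendsto (fun n => F n u) l (𝓝 (G u))) :
    CkB k r C G ∧ ∀ j ≤ k, TendstoUniformlyOn (fun n => iteratedFDeriv ℝ j (F n))
      (iteratedFDeriv ℝ j G) l (ball (0 : E) r) := by
  have hpE : ProperSpace E := FiniteDimensional.proper ℝ E
  have hb : Bornology.IsBounded (ball (0 : E) r) := isBounded_ball
  have hc : Convex ℝ (ball (0 : E) r) := convex_ball _ _
  have hTB : TotallyBounded (ball (0 : E) r) :=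
    hb.isCompact_closure.totallyBounded.subset subset_closure
  -- limits along ultrafilters
  have hU : ∀ U : Ultrafilter ι, (U : Filter ι) ≤ l → CkB k r C G ∧
      ∀ j ≤ k, TendstoUniformlyOn (fun n => iteratedFDeriv ℝ j (F n)) (iteratedFDeriv ℝ j G) U
        (ball (0 : E) r) := by
    intro U hUl
    obtain ⟨G', h1, h2, h3⟩ := H828.ck_ulim U (k := k) (M := fun _ => C) isOpen_ball hc hb hF
    have hGG : ∀ u ∈ ball (0 : E) r, G u = G' u := fun u hu =>
      tendsto_nhds_unique ((hG u hu).mono_left hUl) (h3 u hu)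
    refine ⟨CkB_congr h1 hGG, fun j hj => ?_⟩
    refine (h2 j hj).congr_right fun u hu => ?_
    have hev : G' =ᶠ[𝓝 u] G := by
      filter_upwards [isOpen_ball.mem_nhds hu] with v hv using (hGG v hv).symm
    exact (Filter.EventuallyEq.iteratedFDeriv (𝕜 := ℝ) hev j).eq_of_nhds
  refine ⟨(hU (Ultrafilter.of l) (Ultrafilter.of_le l)).1, fun j hj => ?_⟩
  refine H828.tendstoUniformlyOn_of_lip' hTB (C := C)
    (fun n u hu v hv => (CkB_iff.mp (hF n)).lip isOpen_ball hc hj hu hv) fun u hu => ?_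
  rw [tendsto_iff_ultrafilter]
  intro U hUl
  exact ((hU U hUl).2 j hj).tendsto_at hu

/-- pointwise convergence of the derivatives of order `≤ k` -/
theorem ck_pointwise_fderiv {ι : Type*} {l : Filter ι} [NeBot l] {k : ℕ} (hk : 1 ≤ k) {r C : ℝ}
    {F : ι → E → W} {G : E → W} (hF : ∀ n, CkB (k + 1) r C (F n))
    (hG : ∀ u ∈ ball (0 : E) r, Tendsto (fun n => F n u) l (𝓝 (G u))) {u : E}
    (hu : u ∈ ball (0 : E) r) : Tendsto (fun n => fderiv ℝ (F n) u) l (𝓝 (fderiv ℝ G u)) := by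
  have h1 := ((ck_pointwise hF hG).2 1 hk).tendsto_at hu
  have h2 := ((continuousMultilinearCurryFin1 ℝ E W).continuous.tendsto _).comp h1
  have e : ∀ f : E → W, (continuousMultilinearCurryFin1 ℝ E W) (iteratedFDeriv ℝ 1 f u) =
      fderiv ℝ f u := by
    intro f; ext v; simp
  have h3 : Tendsto (fun n => (continuousMultilinearCurryFin1 ℝ E W)
      (iteratedFDeriv ℝ 1 (F n) u)) l (𝓝 ((continuousMultilinearCurryFin1 ℝ E W)
      (iteratedFDeriv ℝ 1 G u))) := h2
  simpa only [e] using h3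

end CkLimit

theorem tendsto_gradient {ι : Type*} {l : Filter ι} [NeBot l] {k : ℕ} (hk : 1 ≤ k) {r C : ℝ}
    {F : ι → E2 → ℝ} {G : E2 → ℝ} (hF : ∀ n, CkB (k + 1) r C (F n))
    (hG : ∀ u ∈ ball (0 : E2) r, Tendsto (fun n => F n u) l (𝓝 (G u))) {u : E2}
    (hu : u ∈ ball (0 : E2) r) : Tendsto (fun n => gradient (F n) u) l (𝓝 (gradient G u)) := by
  have h1 := ck_pointwise_fderiv hk hF hG hu
  exact (riesz.continuous.tendsto _).comp h1

variable {L : Leaf Γ X B} (T : Tens L)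

/-- `N` is jointly continuous modulo the group -/
theorem tendsto_N {ι : Type*} {l : Filter ι} {y : ι → X} {g : ι → Γ} {w : X}
    (hw : Tendsto (fun n => g n • y n) l (𝓝 w)) {v : ι → E2} {u : E2}
    (hv : Tendsto v l (𝓝 u)) (hu : u ∈ ball (0 : E2) 3) :
    Tendsto (fun n => T.N (y n) (v n)) l (𝓝 (T.N w u)) := by
  have h1 : ContinuousAt (fun p : X × E2 => T.N p.1 p.2) (w, u) := by
    refine T.N_cont.continuousAt ?_
    have hopen : IsOpen ((univ : Set X) ×ˢ ball (0 : E2) 3) := isOpen_univ.prod isOpen_ball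
    exact hopen.mem_nhds ⟨mem_univ _, hu⟩
  have h2 : Tendsto (fun n => T.N (g n • y n) (v n)) l (𝓝 (T.N w u)) :=
    h1.tendsto.comp (hw.prodMk_nhds hv)
  refine h2.congr' ?_
  filter_upwards [hv.eventually (isOpen_ball.mem_nhds hu)] with n hn
  exact T.N_smul (g n) (y n) (v n) hn

/-- **LIMIT RULE** (1.3): `C^{k+1}`-bounds of `F_n` and of `N ∇F_n` pass to the limit object
`(w, F)`. -/
theorem lim_rule {ι : Type*} {l : Filter ι} [NeBot l] {y : ι → X} {g : ι → Γ} {w : X}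
    (hw : Tendsto (fun n => g n • y n) l (𝓝 w)) {F : ι → E2 → ℝ} {G : E2 → ℝ} {k : ℕ}
    (hk : 1 ≤ k) {C C' : ℝ} (hF : ∀ n, CkB (k + 1) 2 C (F n))
    (hG : ∀ u ∈ ball (0 : E2) 2, Tendsto (fun n => F n u) l (𝓝 (G u)))
    (hW : ∀ n, CkB (k + 1) 2 C' (fun u => T.N (y n) u (gradient (F n) u))) :
    CkB k 2 C G ∧ CkB k 2 C' (fun u => T.N w u (gradient G u)) ∧
      ∀ j ≤ k, TendstoUniformlyOn (fun n => iteratedFDeriv ℝ j (F n)) (iteratedFDeriv ℝ j G) l
        (ball (0 : E2) 2) := by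
  obtain ⟨h1, h2⟩ := ck_pointwise hF hG
  refine ⟨h1, ?_, h2⟩
  have h3 : ∀ u ∈ ball (0 : E2) 2, Tendsto (fun n => T.N (y n) u (gradient (F n) u)) l
      (𝓝 (T.N w u (gradient G u))) := by
    intro u hu
    have hN := tendsto_N T hw (v := fun _ => u) tendsto_const_nhds
      (ball_subset_ball (by norm_num : (2 : ℝ) ≤ 3) hu)
    have hg := tendsto_gradient hk hF hG hu
    have hc : Continuous fun p : (E2 →L[ℝ] E2) × E2 => p.1 p.2 :=
      isBoundedBilinearMap_apply.continuous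
    exact (hc.tendsto (T.N w u, gradient G u)).comp (hN.prodMk_nhds hg)
  exact (ck_pointwise hW h3).1

/-- symmetric tensors: bounds and equations pass to the limit. If `N_{y_n} = V_n + Q_n` with `V_n`
`C^{k+1}`-bounded and `Q_n → Q` pointwise, then `N_w - Q` is `C^k`. -/
theorem lim_tens {ι : Type*} {l : Filter ι} [NeBot l] {y : ι → X} {g : ι → Γ} {w : X}
    (hw : Tendsto (fun n => g n • y n) l (𝓝 w)) {V Q : ι → E2 → (E2 →L[ℝ] E2)}
    {Q₀ : E2 → (E2 →L[ℝ] E2)} {k : ℕ} {C : ℝ} (hV : ∀ n, CkB (k + 1) 2 C (V n))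
    (heq : ∀ n, ∀ u ∈ ball (0 : E2) 2, T.N (y n) u = V n u + Q n u)
    (hQ : ∀ u ∈ ball (0 : E2) 2, Tendsto (fun n => Q n u) l (𝓝 (Q₀ u))) :
    CkB k 2 C (fun u => T.N w u - Q₀ u) := by
  have h3 : ∀ u ∈ ball (0 : E2) 2, Tendsto (fun n => V n u) l (𝓝 (T.N w u - Q₀ u)) := by
    intro u hu
    have hN := tendsto_N T hw (v := fun _ => u) tendsto_const_nhds
      (ball_subset_ball (by norm_num : (2 : ℝ) ≤ 3) hu)
    refine (hN.sub (hQ u hu)).congr fun n => ?_
    rw [heq n u hu]; abel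
  exact (ck_pointwise hV h3).1

/-- existence of limit objects: frames modulo the group and `C^{k+1}`-bounded functions. -/
theorem exists_limit {ι : Type*} (U : Ultrafilter ι) (y : ι → X) {W : Type*}
    [NormedAddCommGroup W] [NormedSpace ℝ W] [FiniteDimensional ℝ W] {F : ι → E2 → W} {k : ℕ}
    {C : ℝ} (hF : ∀ n, CkB (k + 1) 2 C (F n)) (L : Leaf Γ X B) :
    ∃ (g : ι → Γ) (w : X) (G : E2 → W), Tendsto (fun n => g n • y n) U (𝓝 w) ∧ CkB k 2 C G ∧
      (∀ u ∈ ball (0 : E2) 2, Tendsto (fun n => F n u) U (𝓝 (G u))) ∧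
      (∀ j ≤ k, TendstoUniformlyOn (fun n => iteratedFDeriv ℝ j (F n)) (iteratedFDeriv ℝ j G) U
        (ball (0 : E2) 2)) := by
  obtain ⟨K, hK, hKΓ⟩ := L.cocompact
  choose g hg using fun n => hKΓ (y n)
  obtain ⟨w, -, hw⟩ := hK.ultrafilter_le_nhds (U.map fun n => g n • y n) (by
    rw [Ultrafilter.coe_map, le_principal_iff, mem_map]
    exact Filter.univ_mem' fun n => hg n)
  obtain ⟨G, h1, h2, h3⟩ := H828.ck_ulim U (k := k) (M := fun _ => C) isOpen_ball (convex_ball _ _)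
    isBounded_ball hF
  exact ⟨g, w, G, by simpa [Tendsto] using hw, h1, h3, h2⟩

end Vale.Agent.P207.N3.H545
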