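import Vale.Agent.P207.N3.H503.In

/-!
N3-P13L (helper545), part 1: leading parts of a function in a forward coordinate
(`x = N^{-m} y`, `m → ∞`).
-/

set_option maxSynthPendingDepth 3

open Set Filter Topology Metric
open scoped ContDiff

noncomputable section

namespace Vale.Agent.P207.N3.H545

open Vale.Agent.P207.N3
open Vale.Agent.P207.N3.H790 (NF)

/-! ### Expansions -/

/-- Taylor expansion in one variable -/
theorem taylor_one {g : ℝ → ℝ} {K : ℕ} (hg : ContDiffAt ℝ K g 0) :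
    ∃ q : ℕ → ℝ, q 0 = g 0 ∧ q 1 = deriv g 0 ∧ ∃ ρ > 0, ∀ t, |t| ≤ ρ →
      |g t - ∑ j ∈ Finset.range (K + 1), q j * t ^ j| ≤ |t| ^ K := by
  obtain ⟨u, hu, hgu⟩ := hg.contDiffOn le_rfl (by simp)
  obtain ⟨r, hr, hru⟩ := Metric.mem_nhds_iff.1 hu
  have hgr : ContDiffOn ℝ K g (ball 0 r) := hgu.mono hru
  have h1 := taylor_isLittleO (convex_ball (0 : ℝ) r) (mem_ball_self hr) hgr
  rw [isOpen_ball.nhdsWithin_eq (mem_ball_self hr)] at h1
  have h2 := h1.bound one_pos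
  obtain ⟨ρ, hρ, h3⟩ := Metric.eventually_nhds_iff.1 h2
  refine ⟨fun j => (Nat.factorial j : ℝ)⁻¹ * iteratedDerivWithin j g (ball 0 r) 0, by simp, ?_, ρ / 2,
    by positivity, fun t ht => ?_⟩
  · simp only [Nat.factorial_one, Nat.cast_one, inv_one, one_mul]
    rw [iteratedDerivWithin_one, derivWithin_of_isOpen isOpen_ball (mem_ball_self hr)]
  · have h4 := h3 (y := t) (by rw [Real.dist_eq, sub_zero]; linarith)
    rw [taylor_within_apply] at h4
    simp only [sub_zero, smul_eq_mul, one_mul, norm_pow, Real.norm_eq_abs] at h4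
    refine le_trans (le_of_eq ?_) h4
    congr 2
    refine Finset.sum_congr rfl fun j _ => ?_
    ring

theorem abs_coord_le (x : E2) (i : Fin 2) : |x i| ≤ ‖x‖ := by
  have := PiLp.norm_apply_le x i
  simpa using this

theorem norm_le_coord (x : E2) : ‖x‖ ≤ |x 0| + |x 1| := by
  rw [EuclideanSpace.norm_eq, Fin.sum_univ_two, Real.norm_eq_abs, Real.norm_eq_abs]
  refine Real.sqrt_le_iff.2 ⟨by positivity, ?_⟩
  nlinarith [abs_nonneg (x 0), abs_nonneg (x 1), mul_nonneg (abs_nonneg (x 0)) (abs_nonneg (x 1))]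

theorem eq_bas (x : E2) : x = x 0 • bas 0 + x 1 • bas 1 := by
  ext i
  fin_cases i <;> simp [bas]

/-- The expansion `p(x) = c x₀ + q(x₁) + O(|x₀| |x| + |x₁|^K)`. -/
theorem expand {p : E2 → ℝ} {K : ℕ} (hK : 2 ≤ K) (hp : ContDiffAt ℝ K p 0) (h0 : p 0 = 0) :
    ∃ q : ℕ → ℝ, q 0 = 0 ∧ q 1 = fderiv ℝ p 0 (bas 1) ∧ ∃ C ρ : ℝ, 0 ≤ C ∧ 0 < ρ ∧ ∀ x : E2,
      ‖x‖ ≤ ρ → |p x - (fderiv ℝ p 0 (bas 0) * x 0 + ∑ j ∈ Finset.range (K + 1), q j * x 1 ^ j)| ≤
        C * (|x 0| * ‖x‖) + |x 1| ^ K := by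
  -- the restriction to the second axis
  set g : ℝ → ℝ := fun t => p (t • bas 1) with hg
  have hz : (0 : ℝ) • (bas 1 : E2) = 0 := zero_smul _ _
  have hgc : ContDiffAt ℝ K g 0 := by
    have h1 : ContDiffAt ℝ K (fun t : ℝ => t • (bas 1 : E2)) 0 :=
      (contDiff_id.smul contDiff_const).contDiffAt
    have h2 : ContDiffAt ℝ K p ((fun t : ℝ => t • (bas 1 : E2)) 0) := by
      simp only [hz]; exact hp
    exact h2.comp 0 h1
  obtain ⟨q, hq0, hq1, ρ₁, hρ₁, hq⟩ := taylor_one hgc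
  have hd : DifferentiableAt ℝ p 0 := hp.differentiableAt (by
    have : (K : WithTop ℕ∞) ≠ 0 := by exact_mod_cast (by omega : K ≠ 0)
    exact this)
  have hgd : deriv g 0 = fderiv ℝ p 0 (bas 1) := by
    have h1 : HasDerivAt (fun t : ℝ => t • (bas 1 : E2)) (bas 1) 0 := by
      simpa using (hasDerivAt_id (0 : ℝ)).smul_const (bas 1 : E2)
    have h2 : HasFDerivAt p (fderiv ℝ p 0) ((fun t : ℝ => t • (bas 1 : E2)) 0) := by
      simp only [hz]; exact hd.hasFDerivAt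
    exact (h2.comp_hasDerivAt 0 h1).deriv
  -- the derivative is Lipschitz
  have hf1 : ContDiffAt ℝ 1 (fderiv ℝ p) 0 := by
    refine hp.fderiv_right (m := 1) ?_
    have : (2 : WithTop ℕ∞) ≤ K := by exact_mod_cast hK
    exact this
  obtain ⟨C, t, ht, hLip⟩ := hf1.exists_lipschitzOnWith
  obtain ⟨ρ₂, hρ₂, ht2⟩ := Metric.mem_nhds_iff.1 ht
  -- differentiability near 0
  have hdn : ∀ᶠ x in 𝓝 (0 : E2), DifferentiableAt ℝ p x := by
    have h1 : ContDiffAt ℝ 1 p 0 := hp.of_le (by exact_mod_cast (by omega : 1 ≤ K))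
    filter_upwards [h1.eventually (by simp)] with x hx
    exact hx.differentiableAt (by simp)
  obtain ⟨ρ₃, hρ₃, hd3⟩ := Metric.eventually_nhds_iff.1 hdn
  refine ⟨q, by rw [hq0, hg]; simp [hz, h0], by rw [hq1, hgd], C, min ρ₁ (min (ρ₂ / 2) (ρ₃ / 2)),
    C.2, by positivity, fun x hx => ?_⟩
  have hx1 : ‖x‖ ≤ ρ₁ := hx.trans (min_le_left _ _)
  have hx2 : ‖x‖ ≤ ρ₂ / 2 := hx.trans ((min_le_right _ _).trans (min_le_left _ _))
  have hx3 : ‖x‖ ≤ ρ₃ / 2 := hx.trans ((min_le_right _ _).trans (min_le_right _ _))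
  have hs1 := hq (x 1) ((abs_coord_le x 1).trans hx1)
  have key := (convex_closedBall (0 : E2) ‖x‖).norm_image_sub_le_of_norm_fderiv_le' (𝕜 := ℝ)
    (f := p) (φ := fderiv ℝ p 0) (C := C * ‖x‖) (x := x 1 • bas 1) (y := x)
    (fun y hy => hd3 (by rw [dist_zero_right]; rw [mem_closedBall_zero_iff] at hy; linarith))
    (fun y hy => by
      rw [mem_closedBall_zero_iff] at hy
      have hym : y ∈ t := ht2 (by rw [mem_ball_zero_iff]; linarith)
      have h0m : (0 : E2) ∈ t := ht2 (mem_ball_self hρ₂)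
      have h1 := hLip.dist_le_mul y hym 0 h0m
      rw [dist_eq_norm, dist_zero_right] at h1
      exact h1.trans (mul_le_mul_of_nonneg_left hy C.2))
    (by
      rw [mem_closedBall_zero_iff, norm_smul, Real.norm_eq_abs]
      have : ‖(bas 1 : E2)‖ = 1 := by simp [bas]
      rw [this, mul_one]
      exact abs_coord_le x 1)
    (by rw [mem_closedBall_zero_iff])
  have e1 : x - x 1 • bas 1 = x 0 • bas 0 := by
    conv_lhs => rw [eq_bas x]
    simp [bas]
  have e2 : ‖x 0 • (bas 0 : E2)‖ = |x 0| := by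
    rw [norm_smul, Real.norm_eq_abs]
    have : ‖(bas 0 : E2)‖ = 1 := by simp [bas]
    rw [this, mul_one]
  rw [e1, e2, map_smul, smul_eq_mul, Real.norm_eq_abs] at key
  have e3 : g (x 1) = p (x 1 • bas 1) := rfl
  rw [e3] at hs1
  calc |p x - (fderiv ℝ p 0 (bas 0) * x 0 + ∑ j ∈ Finset.range (K + 1), q j * x 1 ^ j)|
      = |(p x - p (x 1 • bas 1) - x 0 * fderiv ℝ p 0 (bas 0)) +
          (p (x 1 • bas 1) - ∑ j ∈ Finset.range (K + 1), q j * x 1 ^ j)| := by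
        congr 1; ring
    _ ≤ _ := (abs_add_le _ _).trans (add_le_add (key.trans (le_of_eq (by ring))) hs1)

/-! ### Limits of `T m x` when `N^m x → y` -/

/-- `T m x → P y` when `m = ψ n → ∞`, `N^m x → y`, and `T m x` is bounded for `N^m x` bounded -/
def Lm (N : NF) (ψ : ℕ → ℕ) (T : ℕ → E2 → ℝ) (P : E2 → ℝ) : Prop :=
  (∀ (x : ℕ → E2) (y : E2), Tendsto (fun n => N.fn^[ψ n] (x n)) atTop (𝓝 y) →
    Tendsto (fun n => T (ψ n) (x n)) atTop (𝓝 (P y))) ∧
  ∀ R : ℝ, ∃ C : ℝ, ∀ᶠ m : ℕ in atTop, ∀ x : E2, ‖N.fn^[m] x‖ ≤ R → |T m x| ≤ C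

namespace Lm

variable {N : NF} {ψ : ℕ → ℕ} {T T' : ℕ → E2 → ℝ} {P P' : E2 → ℝ}

theorem add (h : Lm N ψ T P) (h' : Lm N ψ T' P') :
    Lm N ψ (fun m x => T m x + T' m x) (fun y => P y + P' y) := by
  refine ⟨fun x y hx => (h.1 x y hx).add (h'.1 x y hx), fun R => ?_⟩
  obtain ⟨C, hC⟩ := h.2 R
  obtain ⟨C', hC'⟩ := h'.2 R
  refine ⟨C + C', ?_⟩
  filter_upwards [hC, hC'] with m h1 h2 x hx
  exact (abs_add_le _ _).trans (add_le_add (h1 x hx) (h2 x hx))

theorem mul (h : Lm N ψ T P) (h' : Lm N ψ T' P') :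
    Lm N ψ (fun m x => T m x * T' m x) (fun y => P y * P' y) := by
  refine ⟨fun x y hx => (h.1 x y hx).mul (h'.1 x y hx), fun R => ?_⟩
  obtain ⟨C, hC⟩ := h.2 R
  obtain ⟨C', hC'⟩ := h'.2 R
  refine ⟨C * C', ?_⟩
  filter_upwards [hC, hC'] with m h1 h2 x hx
  rw [abs_mul]
  exact mul_le_mul (h1 x hx) (h2 x hx) (abs_nonneg _) ((abs_nonneg _).trans (h1 x hx))

theorem coef (hψ : Tendsto ψ atTop atTop) {α : ℕ → ℝ} {a : ℝ} (hα : Tendsto α atTop (𝓝 a)) :
    Lm N ψ (fun m _ => α m) (fun _ => a) := by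
  refine ⟨fun x y _ => hα.comp hψ, fun R => ⟨|a| + 1, ?_⟩⟩
  have h1 := hα.abs.eventually (gt_mem_nhds (lt_add_one |a|))
  filter_upwards [h1] with m hm x _ using hm.le

theorem const (c : ℝ) : Lm N ψ (fun _ _ => c) (fun _ => c) :=
  ⟨fun _ _ _ => tendsto_const_nhds, fun _ => ⟨|c|, Filter.Eventually.of_forall fun _ _ _ => le_rfl⟩⟩

theorem abs (h : Lm N ψ T P) : Lm N ψ (fun m x => |T m x|) (fun y => |P y|) := by
  refine ⟨fun x y hx => (h.1 x y hx).abs, fun R => ?_⟩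
  obtain ⟨C, hC⟩ := h.2 R
  refine ⟨C, ?_⟩
  filter_upwards [hC] with m h1 x hx
  rw [abs_abs]; exact h1 x hx

theorem pow (h : Lm N ψ T P) (k : ℕ) : Lm N ψ (fun m x => T m x ^ k) (fun y => P y ^ k) := by
  induction k with
  | zero => simpa using const (N := N) (ψ := ψ) 1
  | succ k ih => simpa only [pow_succ] using ih.mul h

theorem sum {ι : Type*} (s : Finset ι) {T : ι → ℕ → E2 → ℝ} {P : ι → E2 → ℝ}
    (h : ∀ i ∈ s, Lm N ψ (T i) (P i)) :
    Lm N ψ (fun m x => ∑ i ∈ s, T i m x) (fun y => ∑ i ∈ s, P i y) := by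
  classical
  induction s using Finset.induction_on with
  | empty => simpa using const (N := N) (ψ := ψ) 0
  | insert i s hi ih =>
    simp only [Finset.sum_insert hi]
    exact (h i (Finset.mem_insert_self _ _)).add
      (ih fun j hj => h j (Finset.mem_insert_of_mem hj))

theorem congr (h : Lm N ψ T P) (hT : ∀ m x, T' m x = T m x) (hP : ∀ y, P' y = P y) :
    Lm N ψ T' P' := by
  have e1 : T' = T := by funext m x; exact hT m x
  have e2 : P' = P := by funext y; exact hP y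
  rw [e1, e2]; exact h

/-- the terms need only agree for large `m` -/
theorem congr_ev (hψ : Tendsto ψ atTop atTop) (h : Lm N ψ T P)
    (hT : ∀ᶠ m in atTop, ∀ x, T' m x = T m x) (hP : ∀ y, P' y = P y) : Lm N ψ T' P' := by
  have e2 : P' = P := by funext y; exact hP y
  rw [e2]
  refine ⟨fun x y hx => (h.1 x y hx).congr' ?_, fun R => ?_⟩
  · filter_upwards [hψ.eventually hT] with n hn using (hn _).symm
  · obtain ⟨C, hC⟩ := h.2 R
    refine ⟨C, ?_⟩
    filter_upwards [hC, hT] with m h1 h2 x hx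
    rw [h2]; exact h1 x hx

/-- domination of the remainder near the origin -/
theorem dom (hψ : Tendsto ψ atTop atTop) (h : Lm N ψ T (fun _ => 0)) {ρ : ℝ}
    (hs : ∀ R : ℝ, ∀ᶠ m : ℕ in atTop, ∀ x : E2, ‖N.fn^[m] x‖ ≤ R → ‖x‖ ≤ ρ)
    (hT : ∀ m x, ‖x‖ ≤ ρ → |T' m x| ≤ T m x) : Lm N ψ T' (fun _ => 0) := by
  refine ⟨fun x y hx => ?_, fun R => ?_⟩
  · have h1 := h.1 x y hx
    refine squeeze_zero_norm' ?_ h1
    have h2 : ∀ᶠ n in atTop, ‖N.fn^[ψ n] (x n)‖ ≤ ‖y‖ + 1 := by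
      filter_upwards [hx.norm.eventually (gt_mem_nhds (lt_add_one ‖y‖))] with n hn using hn.le
    filter_upwards [h2, hψ.eventually (hs (‖y‖ + 1))] with n h3 h4
    exact hT _ _ (h4 _ h3)
  · obtain ⟨C, hC⟩ := h.2 R
    refine ⟨C, ?_⟩
    filter_upwards [hC, hs R] with m h1 h2 x hx
    exact (hT m x (h2 x hx)).trans ((le_abs_self _).trans (h1 x hx))

end Lm

/-! ### Sequences -/

theorem seq_pow {r : ℝ} (h0 : 0 ≤ r) (h1 : r < 1) :
    Tendsto (fun m : ℕ => r ^ m) atTop (𝓝 0) := tendsto_pow_atTop_nhds_zero_of_lt_one h0 h1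

theorem seq_lin {r : ℝ} (h0 : 0 ≤ r) (h1 : r < 1) :
    Tendsto (fun m : ℕ => ((m : ℝ) + 1) * r ^ m) atTop (𝓝 0) := by
  have e1 := tendsto_pow_const_mul_const_pow_of_abs_lt_one 1 (by rwa [abs_of_nonneg h0] : |r| < 1)
  have e2 := e1.add (seq_pow h0 h1)
  rw [add_zero] at e2
  refine e2.congr fun m => ?_
  ring

theorem seq_quad {r : ℝ} (h0 : 0 ≤ r) (h1 : r < 1) :
    Tendsto (fun m : ℕ => ((m : ℝ) + 1) ^ 2 * r ^ m) atTop (𝓝 0) := by
  have e1 := tendsto_pow_const_mul_const_pow_of_abs_lt_one 2 (by rwa [abs_of_nonneg h0] : |r| < 1)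
  have e3 := tendsto_pow_const_mul_const_pow_of_abs_lt_one 1 (by rwa [abs_of_nonneg h0] : |r| < 1)
  have e2 := (e1.add (e3.const_mul 2)).add (seq_pow h0 h1)
  rw [mul_zero, add_zero, add_zero] at e2
  refine e2.congr fun m => ?_
  ring

theorem seq_inv : Tendsto (fun m : ℕ => 1 / ((m : ℝ) + 1)) atTop (𝓝 0) :=
  tendsto_one_div_add_atTop_nhds_zero_nat

theorem seq_frac : Tendsto (fun m : ℕ => (m : ℝ) / ((m : ℝ) + 1)) atTop (𝓝 1) := by
  have h := (tendsto_const_nhds (x := (1 : ℝ))).sub seq_inv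
  rw [sub_zero] at h
  refine h.congr fun m => ?_
  have : (m : ℝ) + 1 ≠ 0 := by positivity
  field_simp
  ring

/-! ### Triangular normal forms -/

section Tri

variable {μ₁ μ₂ a : ℝ} {k : ℕ}

theorem iter_one (m : ℕ) (x : E2) : ((NF.tri μ₁ μ₂ a k).fn^[m] x) 1 = μ₂ ^ m * x 1 := by
  induction m with
  | zero => simp
  | succ m ih =>
    rw [Function.iterate_succ_apply', NF.fn_tri_one, ih]; ring

theorem iter_zero (h : (NF.tri μ₁ μ₂ a k).OK) (m : ℕ) (x : E2) :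
    ((NF.tri μ₁ μ₂ a k).fn^[m] x) 0 = μ₁ ^ m * (x 0 + a * m / μ₁ * x 1 ^ k) := by
  have hne := (NF.ne_of_OK h).1
  have ha : a * (μ₂ ^ k) = a * μ₁ := by
    rcases eq_or_ne a 0 with h0 | h0
    · rw [h0, zero_mul, zero_mul]
    · rw [(h.2.2 h0).2]
  have ha' : ∀ m : ℕ, a * (μ₂ ^ m) ^ k = a * μ₁ ^ m := by
    intro m
    induction m with
    | zero => simp
    | succ m ih =>
      calc a * (μ₂ ^ (m + 1)) ^ k = (a * (μ₂ ^ m) ^ k) * μ₂ ^ k := by ring
        _ = (a * μ₂ ^ k) * μ₁ ^ m := by rw [ih]; ring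
        _ = a * μ₁ ^ (m + 1) := by rw [ha]; ring
  induction m with
  | zero => simp
  | succ m ih =>
    rw [Function.iterate_succ_apply', NF.fn_tri_zero, ih, iter_one]
    have e1 : a * (μ₂ ^ m * x 1) ^ k = a * μ₁ ^ m * x 1 ^ k := by
      rw [mul_pow, ← mul_assoc, ha']
    rw [e1]
    push_cast
    field_simp
    ring

/-- even times -/
def dbl (n : ℕ) : ℕ := 2 * n

theorem tendsto_dbl : Tendsto dbl atTop atTop :=
  tendsto_atTop_mono (fun n => by show n ≤ 2 * n; omega) tendsto_id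

theorem abs_pow_dbl (μ : ℝ) (n : ℕ) : |μ| ^ dbl n = μ ^ dbl n := by
  unfold dbl
  rw [pow_mul, pow_mul, sq_abs]

theorem tendsto_coord {x : ℕ → E2} {y : E2} (h : Tendsto x atTop (𝓝 y)) (i : Fin 2) :
    Tendsto (fun n => x n i) atTop (𝓝 (y i)) :=
  ((EuclideanSpace.proj (𝕜 := ℝ) i).continuous.tendsto y).comp h

theorem Lm_T1 : Lm (NF.tri μ₁ μ₂ a k) dbl (fun m x => |μ₂| ^ m * x 1) (fun y => y 1) := by
  refine ⟨fun x y hx => ?_, fun R => ⟨R, Filter.Eventually.of_forall fun m x hx => ?_⟩⟩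
  · refine (tendsto_coord hx 1).congr fun n => ?_
    show _ = |μ₂| ^ dbl n * x n 1
    rw [iter_one, abs_pow_dbl]
  · have h1 := (abs_coord_le ((NF.tri μ₁ μ₂ a k).fn^[m] x) 1).trans hx
    rw [iter_one, abs_mul, abs_pow] at h1
    rw [abs_mul, abs_pow, abs_abs]; exact h1

theorem Lm_T0 (h : (NF.tri μ₁ μ₂ a k).OK) : Lm (NF.tri μ₁ μ₂ a k) dbl
    (fun m x => |μ₁| ^ m * (x 0 + a * m / μ₁ * x 1 ^ k)) (fun y => y 0) := by
  refine ⟨fun x y hx => ?_, fun R => ⟨R, Filter.Eventually.of_forall fun m x hx => ?_⟩⟩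
  · refine (tendsto_coord hx 0).congr fun n => ?_
    show _ = |μ₁| ^ dbl n * (x n 0 + a * dbl n / μ₁ * x n 1 ^ k)
    rw [iter_zero h, abs_pow_dbl]
  · have h1 := (abs_coord_le ((NF.tri μ₁ μ₂ a k).fn^[m] x) 0).trans hx
    rw [iter_zero h, abs_mul, abs_pow] at h1
    rw [abs_mul, abs_pow, abs_abs]; exact h1

theorem abs_res (h : (NF.tri μ₁ μ₂ a k).OK) (m : ℕ) : a * (|μ₂| ^ m) ^ k = a * |μ₁| ^ m := by
  rcases eq_or_ne a 0 with h0 | h0
  · rw [h0, zero_mul, zero_mul]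
  · rw [(h.2.2 h0).2, abs_pow]; ring

/-- `A^m x₀ / (m + 1)` -/
theorem Lm_U0 (h : (NF.tri μ₁ μ₂ a k).OK) : Lm (NF.tri μ₁ μ₂ a k) dbl
    (fun m x => |μ₁| ^ m / ((m : ℝ) + 1) * x 0) (fun y => -(a / μ₁) * y 1 ^ k) := by
  have h1 := (Lm.coef tendsto_dbl seq_inv).mul (Lm_T0 h)
  have h2 := (Lm.coef tendsto_dbl (seq_frac.const_mul (-(a / μ₁)))).mul
    ((Lm_T1 (μ₁ := μ₁) (μ₂ := μ₂) (a := a) (k := k)).pow k)
  refine (h1.add h2).congr (fun m x => ?_) (fun y => by ring)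
  have hne := (NF.ne_of_OK h).1
  have hm : (m : ℝ) + 1 ≠ 0 := by positivity
  have e1 := abs_res h m
  have e2 : a * (|μ₂| ^ m * x 1) ^ k = a * |μ₁| ^ m * x 1 ^ k := by
    rw [mul_pow, ← mul_assoc, e1]
  have e3 : -(a / μ₁) * ((m : ℝ) / (m + 1)) * (|μ₂| ^ m * x 1) ^ k =
      -(1 / μ₁) * ((m : ℝ) / (m + 1)) * (a * |μ₁| ^ m * x 1 ^ k) := by
    rw [← e2]; field_simp
  rw [e3]
  field_simp
  ring

theorem Lm_x0 (h : (NF.tri μ₁ μ₂ a k).OK) : Lm (NF.tri μ₁ μ₂ a k) dbl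
    (fun m x => ((m : ℝ) + 1) * x 0) (fun _ => 0) := by
  obtain ⟨h1, h2, -⟩ := id h
  have hA : 1 < |μ₁| := h1.trans_le h2
  have hr : |μ₁|⁻¹ < 1 := inv_lt_one_of_one_lt₀ hA
  have h3 := (Lm.coef tendsto_dbl (seq_quad (inv_nonneg.2 (abs_nonneg μ₁)) hr)).mul (Lm_U0 h)
  refine h3.congr (fun m x => ?_) (fun y => by ring)
  have hm : (m : ℝ) + 1 ≠ 0 := by positivity
  have hA0 : |μ₁| ≠ 0 := by positivity
  rw [inv_pow]
  field_simp

theorem Lm_x1 (h : (NF.tri μ₁ μ₂ a k).OK) : Lm (NF.tri μ₁ μ₂ a k) dbl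
    (fun m x => ((m : ℝ) + 1) * x 1) (fun _ => 0) := by
  obtain ⟨h1, -, -⟩ := id h
  have hr : |μ₂|⁻¹ < 1 := inv_lt_one_of_one_lt₀ h1
  have h3 := (Lm.coef tendsto_dbl (seq_lin (inv_nonneg.2 (abs_nonneg μ₂)) hr)).mul
    (Lm_T1 (μ₁ := μ₁) (μ₂ := μ₂) (a := a) (k := k))
  refine h3.congr (fun m x => ?_) (fun y => by ring)
  have hA0 : |μ₂| ≠ 0 := by positivity
  rw [inv_pow]
  field_simp

theorem small_tri (h : (NF.tri μ₁ μ₂ a k).OK) {ρ : ℝ} (hρ : 0 < ρ) (R : ℝ) :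
    ∀ᶠ m : ℕ in atTop, ∀ x : E2, ‖(NF.tri μ₁ μ₂ a k).fn^[m] x‖ ≤ R → ‖x‖ ≤ ρ := by
  obtain ⟨C0, hC0⟩ := (Lm_x0 h).2 R
  obtain ⟨C1, hC1⟩ := (Lm_x1 h).2 R
  have h1 : Tendsto (fun m : ℕ => (C0 + C1) * (1 / ((m : ℝ) + 1))) atTop (𝓝 0) := by
    simpa using seq_inv.const_mul (C0 + C1)
  filter_upwards [hC0, hC1, h1.eventually (gt_mem_nhds hρ)] with m h2 h3 h4 x hx
  have e0 := h2 x hx
  have e1 := h3 x hx
  have hm : 0 < (m : ℝ) + 1 := by positivity
  rw [abs_mul, abs_of_pos hm] at e0 e1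
  have e2 := norm_le_coord x
  have e3 : ((m : ℝ) + 1) * ‖x‖ ≤ C0 + C1 := by nlinarith
  have e4 : ‖x‖ ≤ (C0 + C1) * (1 / ((m : ℝ) + 1)) := by
    rw [mul_one_div, le_div_iff₀ hm]; linarith
  linarith

/-- the remainder -/
theorem Lm_rem (h : (NF.tri μ₁ μ₂ a k).OK) {K : ℕ} (hK : |μ₁| < |μ₂| ^ K) {ν : ℕ → ℝ}
    (hν : ∀ m, 0 < ν m ∧ ν m ≤ |μ₁| ^ m) {r : E2 → ℝ} {C ρ : ℝ} (hC : 0 ≤ C) (hρ : 0 < ρ)
    (hr : ∀ x : E2, ‖x‖ ≤ ρ → |r x| ≤ C * (|x 0| * ‖x‖) + |x 1| ^ K) :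
    Lm (NF.tri μ₁ μ₂ a k) dbl (fun m x => ν m * r x) (fun _ => 0) := by
  obtain ⟨h1, h2, -⟩ := id h
  have hA : 1 < |μ₁| := h1.trans_le h2
  have hb0 : 0 < |μ₂| := by positivity
  have hA0 : 0 < |μ₁| := by positivity
  have hq : |μ₁| / |μ₂| ^ K < 1 := by rwa [div_lt_one (by positivity)]
  have e1 := ((Lm.const (N := NF.tri μ₁ μ₂ a k) (ψ := dbl) C).mul
    ((Lm_U0 h).abs.mul ((Lm_x0 h).abs.add (Lm_x1 h).abs))).add
    ((Lm.coef tendsto_dbl (seq_pow (by positivity) hq)).mul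
    ((Lm_T1 (μ₁ := μ₁) (μ₂ := μ₂) (a := a) (k := k)).abs.pow K))
  have e2 : Lm (NF.tri μ₁ μ₂ a k) dbl (fun m x => C * (|(|μ₁| ^ m / ((m : ℝ) + 1) * x 0)| *
      (|((m : ℝ) + 1) * x 0| + |((m : ℝ) + 1) * x 1|)) +
      (|μ₁| / |μ₂| ^ K) ^ m * |(|μ₂| ^ m * x 1)| ^ K) (fun _ => 0) :=
    e1.congr (fun _ _ => rfl) (fun y => by simp)
  refine Lm.dom tendsto_dbl e2 (ρ := ρ) (fun R => small_tri h hρ R) fun m x hx => ?_
  have hm : 0 < (m : ℝ) + 1 := by positivity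
  obtain ⟨hν0, hν1⟩ := hν m
  have s1 : |ν m * r x| ≤ |μ₁| ^ m * (C * (|x 0| * (|x 0| + |x 1|)) + |x 1| ^ K) := by
    rw [abs_mul, abs_of_pos hν0]
    refine mul_le_mul hν1 ((hr x hx).trans ?_) (abs_nonneg _) (by positivity)
    gcongr
    exact norm_le_coord x
  refine s1.trans (le_of_eq ?_)
  rw [abs_mul, abs_mul, abs_mul, abs_mul, abs_of_pos hm, abs_div, abs_of_pos hm, abs_pow, abs_pow,
    abs_abs, abs_abs, div_pow, mul_pow, ← pow_mul, ← pow_mul, mul_comm m K]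
  field_simp

/-- the sum of the terms -/
theorem Lm_sum (h : (NF.tri μ₁ μ₂ a k).OK) {K : ℕ} (hK : |μ₁| < |μ₂| ^ K) {ν : ℕ → ℝ}
    (hν : ∀ m, 0 < ν m ∧ ν m ≤ |μ₁| ^ m) {p : E2 → ℝ} {c : ℝ} {q : ℕ → ℝ} {C ρ : ℝ} (hC : 0 ≤ C)
    (hρ : 0 < ρ) (hr : ∀ x : E2, ‖x‖ ≤ ρ →
      |p x - (c * x 0 + ∑ j ∈ Finset.range (K + 1), q j * x 1 ^ j)| ≤
        C * (|x 0| * ‖x‖) + |x 1| ^ K) {P0 : E2 → ℝ} {P : ℕ → E2 → ℝ}
    (h0 : Lm (NF.tri μ₁ μ₂ a k) dbl (fun m x => ν m * (c * x 0)) P0)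
    (hj : ∀ j ∈ Finset.range (K + 1),
      Lm (NF.tri μ₁ μ₂ a k) dbl (fun m x => ν m * (q j * x 1 ^ j)) (P j)) :
    Lm (NF.tri μ₁ μ₂ a k) dbl (fun m x => ν m * p x)
      (fun y => P0 y + ∑ j ∈ Finset.range (K + 1), P j y) := by
  have h1 := (Lm_rem h hK hν hC hρ hr).add (h0.add (Lm.sum _ hj))
  refine h1.congr (fun m x => ?_) (fun y => by ring)
  rw [← Finset.mul_sum]
  ring

/-- the terms `q x₁^j` -/
theorem Lm_x1_pow {ν : ℕ → ℝ} {j : ℕ} {r q : ℝ} (hb : μ₂ ≠ 0)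
    (hr : Tendsto (fun m => ν m / (|μ₂| ^ j) ^ m) atTop (𝓝 r)) :
    Lm (NF.tri μ₁ μ₂ a k) dbl (fun m x => ν m * (q * x 1 ^ j)) (fun y => q * r * y 1 ^ j) := by
  have h1 := (Lm.coef tendsto_dbl (hr.const_mul q)).mul
    ((Lm_T1 (μ₁ := μ₁) (μ₂ := μ₂) (a := a) (k := k)).pow j)
  refine h1.congr (fun m x => ?_) (fun y => rfl)
  have hb0 : |μ₂| ≠ 0 := abs_ne_zero.2 hb
  rw [mul_pow, ← pow_mul, ← pow_mul, mul_comm m j]
  field_simp

theorem Lm_x1_zero {ν : ℕ → ℝ} {j : ℕ} {q : ℝ} (hq : q = 0) :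
    Lm (NF.tri μ₁ μ₂ a k) dbl (fun m x => ν m * (q * x 1 ^ j)) (fun _ => 0) := by
  refine (Lm.const (N := NF.tri μ₁ μ₂ a k) (ψ := dbl) 0).congr (fun m x => ?_) (fun y => rfl)
  rw [hq]; ring

/-- the terms `c x₀` -/
theorem Lm_c0 (h : (NF.tri μ₁ μ₂ a k).OK) {ν : ℕ → ℝ} {r c : ℝ}
    (hr : Tendsto (fun m : ℕ => ((m : ℝ) + 1) * (ν m / |μ₁| ^ m)) atTop (𝓝 r)) :
    Lm (NF.tri μ₁ μ₂ a k) dbl (fun m x => ν m * (c * x 0))
      (fun y => c * r * (-(a / μ₁) * y 1 ^ k)) := by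
  have h1 := (Lm.coef tendsto_dbl (hr.const_mul c)).mul (Lm_U0 h)
  refine h1.congr (fun m x => ?_) (fun y => rfl)
  have hb0 : |μ₁| ≠ 0 := abs_ne_zero.2 (NF.ne_of_OK h).1
  have hm : (m : ℝ) + 1 ≠ 0 := by positivity
  field_simp

/-- **Leading parts**, triangular normal forms. -/
theorem lead_tri (h : (NF.tri μ₁ μ₂ a k).OK) : ∃ K₀ : ℕ, ∀ p : E2 → ℝ, ContDiffAt ℝ K₀ p 0 →
    p 0 = 0 → fderiv ℝ p 0 ≠ 0 → ∃ (ν : ℕ → ℝ) (P : E2 → ℝ) (ψ : ℕ → ℕ),
      (∀ m, 0 < ν m) ∧ (∀ m' m, m' ≤ m → ν m ≤ |μ₁| ^ (m - m') * ν m') ∧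
      LimFn (NF.tri μ₁ μ₂ a k) P ∧ Tendsto ψ atTop atTop ∧
      Lm (NF.tri μ₁ μ₂ a k) ψ (fun m x => ν m * p x) P := by
  obtain ⟨h1, h2, h3⟩ := id h
  have hA : 1 < |μ₁| := h1.trans_le h2
  have hb0 : 0 < |μ₂| := by positivity
  have hA0 : 0 < |μ₁| := by positivity
  have hμ₂ : μ₂ ≠ 0 := (NF.ne_of_OK h).2
  have hμ₁ : μ₁ ≠ 0 := (NF.ne_of_OK h).1
  obtain ⟨K₁, hK₁⟩ := pow_unbounded_of_one_lt |μ₁| h1
  set K : ℕ := max 2 K₁ with hKdef
  have hK2 : 2 ≤ K := le_max_left _ _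
  have hK : |μ₁| < |μ₂| ^ K := hK₁.trans_le (pow_le_pow_right₀ h1.le (le_max_right _ _))
  refine ⟨K, fun p hp hp0 hdp => ?_⟩
  obtain ⟨q, hq0, hq1, C, ρ, hC, hρ, hr⟩ := expand hK2 hp hp0
  set c : ℝ := fderiv ℝ p 0 (bas 0) with hc
  have hcq : c ≠ 0 ∨ q 1 ≠ 0 := by
    by_contra hcon
    push Not at hcon
    apply hdp
    ext x
    rw [eq_bas x, map_add, map_smul, map_smul, ← hc, ← hq1, hcon.1, hcon.2]
    simp
  -- ratios of powers
  have hpow : ∀ {θ : ℝ}, 0 < θ → θ < |μ₁| → (∀ m' m : ℕ, m' ≤ m →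
      θ ^ m ≤ |μ₁| ^ (m - m') * θ ^ m') := by
    intro θ hθ hθ1 m' m hm
    calc θ ^ m = θ ^ (m - m') * θ ^ m' := by rw [← pow_add, Nat.sub_add_cancel hm]
      _ ≤ |μ₁| ^ (m - m') * θ ^ m' := by gcongr
  by_cases hex : ∃ j, j ≤ K ∧ q j ≠ 0 ∧ |μ₂| ^ j < |μ₁|
  · -- case A
    classical
    set j := Nat.find hex with hjdef
    obtain ⟨hjK, hqj, hjA⟩ := Nat.find_spec hex
    rw [← hjdef] at hjK hqj hjA
    have hj1 : 1 ≤ j := by
      rcases Nat.eq_zero_or_pos j with h0 | h0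
      · rw [h0] at hqj; exact absurd hq0 hqj
      · exact h0
    have hθ : 0 < |μ₂| ^ j := by positivity
    have hν : ∀ m, 0 < (|μ₂| ^ j) ^ m ∧ (|μ₂| ^ j) ^ m ≤ |μ₁| ^ m :=
      fun m => ⟨by positivity, by gcongr⟩
    have hmain := Lm_sum h hK hν hC hρ hr (P0 := fun _ => 0)
      (P := fun i y => if i = j then q j * y 1 ^ j else 0)
      (by
        have hr' : |μ₂| ^ j / |μ₁| < 1 := by rwa [div_lt_one hA0]
        refine (Lm_c0 (c := c) h (r := 0) ?_).congr (fun _ _ => rfl) (fun y => by ring)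
        refine (seq_lin (by positivity) hr').congr fun m => ?_
        rw [div_pow])
      (by
        intro i hi
        rcases lt_trichotomy i j with hij | hij | hij
        · have hqi : q i = 0 := by
            by_contra hne
            refine Nat.find_min hex hij ⟨by omega, hne, lt_of_le_of_lt ?_ hjA⟩
            exact pow_le_pow_right₀ h1.le hij.le
          refine (Lm_x1_zero hqi).congr (fun _ _ => rfl) (fun y => ?_)
          rw [if_neg (by omega)]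
        · rw [hij]
          refine (Lm_x1_pow (r := 1) (q := q j) hμ₂ ?_).congr (fun _ _ => rfl) (fun y => ?_)
          · refine tendsto_const_nhds.congr fun m => ?_
            rw [div_self (by positivity)]
          · rw [if_pos rfl]; ring
        · refine (Lm_x1_pow (r := 0) (q := q i) hμ₂ ?_).congr (fun _ _ => rfl) (fun y => ?_)
          · have hr' : |μ₂| ^ j / |μ₂| ^ i < 1 := by
              rw [div_lt_one (by positivity)]
              exact pow_lt_pow_right₀ h1 hij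
            refine (seq_pow (by positivity) hr').congr fun m => ?_
            rw [div_pow]
          · rw [if_neg (by omega)]; ring)
    refine ⟨_, _, dbl, fun m => (hν m).1, hpow hθ hjA, ?_, tendsto_dbl, hmain⟩
    refine Or.inl ⟨lt_of_le_of_lt ?_ hjA, q j, hqj, j, hj1, hjA.le, ?_⟩
    · exact le_self_pow₀ h1.le (by omega)
    · funext y
      rw [zero_add, Finset.sum_ite_eq' (Finset.range (K + 1)) j, if_pos (Finset.mem_range.2 (by omega))]
  · push Not at hex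
    -- `q j = 0` if `|μ₂| ^ j < |μ₁|`
    have hq' : ∀ j ∈ Finset.range (K + 1), |μ₂| ^ j < |μ₁| → q j = 0 := by
      intro j hj hlt
      by_contra hne
      exact absurd hlt (not_lt.2 (hex j (Nat.lt_succ_iff.1 (Finset.mem_range.1 hj)) hne))
    have hb_of_q1 : q 1 ≠ 0 → |μ₂| = |μ₁| := by
      intro hne
      have := hex 1 (by omega) hne
      rw [pow_one] at this
      exact le_antisymm h2 this
    have hνA : ∀ m : ℕ, 0 < |μ₁| ^ m ∧ |μ₁| ^ m ≤ |μ₁| ^ m := fun m => ⟨by positivity, le_rfl⟩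
    have hgA : ∀ m' m : ℕ, m' ≤ m → |μ₁| ^ m ≤ |μ₁| ^ (m - m') * |μ₁| ^ m' := by
      intro m' m hm
      rw [← pow_add, Nat.sub_add_cancel hm]
    -- the terms in `x₁` for `ν = A^m`
    have hterm : ∀ j ∈ Finset.range (K + 1), Lm (NF.tri μ₁ μ₂ a k) dbl
        (fun m x => |μ₁| ^ m * (q j * x 1 ^ j))
        (fun y => if |μ₂| ^ j = |μ₁| then q j * y 1 ^ j else 0) := by
      intro j hj
      rcases lt_trichotomy (|μ₂| ^ j) |μ₁| with hlt | heq | hgt
      · refine (Lm_x1_zero (hq' j hj hlt)).congr (fun _ _ => rfl) (fun y => ?_)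
        rw [if_neg hlt.ne]
      · refine (Lm_x1_pow (r := 1) (q := q j) hμ₂ ?_).congr (fun _ _ => rfl) (fun y => ?_)
        · refine tendsto_const_nhds.congr fun m => ?_
          rw [heq, div_self (by positivity)]
        · rw [if_pos heq]; ring
      · refine (Lm_x1_pow (r := 0) (q := q j) hμ₂ ?_).congr (fun _ _ => rfl) (fun y => ?_)
        · have hr' : |μ₁| / |μ₂| ^ j < 1 := by rwa [div_lt_one (by positivity)]
          refine (seq_pow (by positivity) hr').congr fun m => ?_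
          rw [div_pow]
        · rw [if_neg hgt.ne']; ring
    rcases eq_or_ne a 0 with ha | ha
    · -- case D
      have hT0 : Lm (NF.tri μ₁ μ₂ a k) dbl (fun m x => |μ₁| ^ m * (c * x 0)) (fun y => c * y 0) := by
        refine ((Lm.const c).mul (Lm_T0 h)).congr (fun m x => ?_) (fun y => rfl)
        rw [ha]; ring
      have hmain := Lm_sum h hK hνA hC hρ hr hT0 hterm
      refine ⟨_, _, dbl, fun m => (hνA m).1, hgA, ?_, tendsto_dbl, hmain⟩
      rcases h2.lt_or_eq with hlt | heq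
      · have hq1' : q 1 = 0 := hq' 1 (Finset.mem_range.2 (by omega)) (by rwa [pow_one])
        have hc0 : c ≠ 0 := hcq.resolve_right (fun hne => hne hq1')
        refine Or.inr (Or.inl ⟨hlt, ha, c, hc0, ?_⟩)
        by_cases hj : ∃ j ∈ Finset.range (K + 1), |μ₂| ^ j = |μ₁|
        · obtain ⟨j, hjK, hjA⟩ := hj
          refine ⟨q j, j, fun _ => hjA, ?_⟩
          funext y
          congr 1
          rw [Finset.sum_eq_single j]
          · rw [if_pos hjA]
          · intro i _ hij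
            rw [if_neg]
            intro hi
            rw [← hjA] at hi
            exact hij (pow_right_injective₀ hb0 h1.ne' hi)
          · exact fun hj' => absurd hjK hj'
        · push Not at hj
          refine ⟨0, 0, fun hne => absurd rfl hne, ?_⟩
          funext y
          congr 1
          rw [Finset.sum_eq_zero fun i hi => if_neg (hj i hi)]
          ring
      · refine Or.inr (Or.inr (Or.inl ⟨heq, ha, !₂[c, q 1], ?_, ?_⟩))
        · intro h0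
          have e0 := congrArg (fun v : E2 => v 0) h0
          have e1 := congrArg (fun v : E2 => v 1) h0
          simp at e0 e1
          rcases hcq with h | h
          · exact h e0
          · exact h e1
        · funext y
          rw [Finset.sum_eq_single 1]
          · rw [if_pos (by rw [pow_one]; exact heq), pow_one]
            simp [PiLp.inner_apply, Fin.sum_univ_two, mul_comm]
          · intro i _ hij
            rw [if_neg]
            intro hi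
            rw [← heq] at hi
            have := pow_right_injective₀ hb0 h1.ne' (show |μ₂| ^ i = |μ₂| ^ 1 by rw [hi, pow_one])
            exact hij this
          · intro hj'
            exact absurd (Finset.mem_range.2 (by omega)) hj'
    · obtain ⟨hk1, hres⟩ := h3 ha
      have hbk : |μ₂| ^ k = |μ₁| := by rw [hres, abs_pow]
      rcases eq_or_ne c 0 with hc0 | hc0
      · -- case C
        have hq1' : q 1 ≠ 0 := hcq.resolve_left (fun hne => hne hc0)
        have heq := hb_of_q1 hq1'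
        have hT0 : Lm (NF.tri μ₁ μ₂ a k) dbl (fun m x => |μ₁| ^ m * (c * x 0)) (fun _ => 0) := by
          refine (Lm.const 0).congr (fun m x => ?_) (fun y => rfl)
          rw [hc0]; ring
        have hmain := Lm_sum h hK hνA hC hρ hr hT0 hterm
        refine ⟨_, _, dbl, fun m => (hνA m).1, hgA, ?_, tendsto_dbl, hmain⟩
        refine Or.inr (Or.inr (Or.inr ⟨heq, ha, q 1, hq1', ?_⟩))
        funext y
        rw [zero_add, Finset.sum_eq_single 1]
        · rw [if_pos (by rw [pow_one]; exact heq), pow_one]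
        · intro i _ hij
          rw [if_neg]
          intro hi
          rw [← heq] at hi
          have := pow_right_injective₀ hb0 h1.ne' (show |μ₂| ^ i = |μ₂| ^ 1 by rw [hi, pow_one])
          exact hij this
        · intro hj'
          exact absurd (Finset.mem_range.2 (by omega)) hj'
      · -- case B
        have hν : ∀ m : ℕ, 0 < |μ₁| ^ m / ((m : ℝ) + 1) ∧ |μ₁| ^ m / ((m : ℝ) + 1) ≤ |μ₁| ^ m := by
          intro m
          have hm : (1 : ℝ) ≤ (m : ℝ) + 1 := by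
            have : (0 : ℝ) ≤ m := Nat.cast_nonneg m
            linarith
          exact ⟨by positivity, div_le_self (by positivity) hm⟩
        have hmain := Lm_sum h hK hν hC hρ hr
          (Lm_c0 (c := c) h (r := 1) (by
            refine tendsto_const_nhds.congr fun m => ?_
            have hm : (m : ℝ) + 1 ≠ 0 := by positivity
            field_simp))
          (P := fun _ _ => 0) (by
            intro j hj
            rcases lt_or_ge (|μ₂| ^ j) |μ₁| with hlt | hge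
            · exact Lm_x1_zero (hq' j hj hlt)
            · refine (Lm_x1_pow (r := 0) (q := q j) hμ₂ ?_).congr (fun _ _ => rfl) (fun y => by ring)
              refine squeeze_zero (fun m => by have := (hν m).1; positivity) (fun m => ?_) seq_inv
              have hm : (0 : ℝ) < (m : ℝ) + 1 := by positivity
              rw [div_div, div_le_div_iff₀ (by positivity) hm, one_mul]
              rw [mul_comm ((m : ℝ) + 1)]
              refine mul_le_mul_of_nonneg_right ?_ hm.le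
              gcongr)
        refine ⟨_, _, dbl, fun m => (hν m).1, ?_, ?_, tendsto_dbl, hmain⟩
        · intro m' m hm
          have hm' : (0 : ℝ) < (m' : ℝ) + 1 := by positivity
          have hmm : (m' : ℝ) + 1 ≤ (m : ℝ) + 1 := by
            have : (m' : ℝ) ≤ m := by exact_mod_cast hm
            linarith
          have e1 := hgA m' m hm
          calc |μ₁| ^ m / ((m : ℝ) + 1) ≤ |μ₁| ^ m / ((m' : ℝ) + 1) := by gcongr
            _ ≤ (|μ₁| ^ (m - m') * |μ₁| ^ m') / ((m' : ℝ) + 1) := by gcongr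
            _ = _ := by ring
        · have hPeq : (fun y : E2 => c * 1 * (-(a / μ₁) * y 1 ^ k) +
              ∑ _j ∈ Finset.range (K + 1), (0 : ℝ)) = fun y => (-(c * a / μ₁)) * y 1 ^ k := by
            funext y
            rw [Finset.sum_const_zero]; ring
          have hne : -(c * a / μ₁) ≠ 0 := by
            rw [neg_ne_zero]
            exact div_ne_zero (mul_ne_zero hc0 ha) hμ₁
          rcases h2.lt_or_eq with hlt | heq
          · exact Or.inl ⟨hlt, _, hne, k, hk1, hbk.le, hPeq⟩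
          · refine Or.inr (Or.inr (Or.inr ⟨heq, ha, _, hne, ?_⟩))
            rw [hPeq]
            have : k = 1 := by
              have e1 : |μ₂| ^ k = |μ₂| ^ 1 := by rw [hbk, pow_one]; exact heq.symm
              exact pow_right_injective₀ hb0 h1.ne' e1
            funext y
            rw [this, pow_one]

end Tri

/-! ### Complex normal forms -/

section Cx

variable {c s : ℝ}

theorem norm_fn_cx (x : E2) : ‖(NF.cx c s).fn x‖ = Real.sqrt (c ^ 2 + s ^ 2) * ‖x‖ := by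
  rw [EuclideanSpace.norm_eq, EuclideanSpace.norm_eq, Fin.sum_univ_two, Fin.sum_univ_two,
    ← Real.sqrt_mul (by positivity)]
  congr 1
  simp only [Real.norm_eq_abs, sq_abs, NF.fn_cx_zero, NF.fn_cx_one]
  ring

theorem norm_iter_cx (m : ℕ) (x : E2) :
    ‖(NF.cx c s).fn^[m] x‖ = Real.sqrt (c ^ 2 + s ^ 2) ^ m * ‖x‖ := by
  induction m with
  | zero => simp
  | succ m ih => rw [Function.iterate_succ_apply', norm_fn_cx, ih]; ring

/-- the inverse, as a linear map -/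
def invL (c s : ℝ) : E2 →L[ℝ] E2 := LinearMap.toContinuousLinearMap
  { toFun := (NF.cx c s).inv
    map_add' := fun x y => by
      apply NF.ext2
      · simp only [NF.inv_cx_zero, PiLp.add_apply]; ring
      · simp only [NF.inv_cx_one, PiLp.add_apply]; ring
    map_smul' := fun r x => by
      apply NF.ext2
      · simp only [NF.inv_cx_zero, PiLp.smul_apply, smul_eq_mul, RingHom.id_apply]; ring
      · simp only [NF.inv_cx_one, PiLp.smul_apply, smul_eq_mul, RingHom.id_apply]; ring }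

theorem invL_pow (h : (NF.cx c s).OK) (m : ℕ) (x : E2) :
    (invL c s ^ m) ((NF.cx c s).fn^[m] x) = x := by
  induction m with
  | zero => simp
  | succ m ih =>
    rw [Function.iterate_succ_apply', pow_succ]
    have e1 : (invL c s ^ m * invL c s) ((NF.cx c s).fn ((NF.cx c s).fn^[m] x)) =
        (invL c s ^ m) ((NF.cx c s).inv ((NF.cx c s).fn ((NF.cx c s).fn^[m] x))) := rfl
    rw [e1, NF.inv_fn h, ih]

theorem invL_pow' (h : (NF.cx c s).OK) (m : ℕ) (y : E2) :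
    (NF.cx c s).fn^[m] ((invL c s ^ m) y) = y := by
  induction m generalizing y with
  | zero => simp
  | succ m ih =>
    rw [Function.iterate_succ_apply', pow_succ]
    have e1 : (invL c s ^ m * invL c s) y = (invL c s ^ m) ((NF.cx c s).inv y) := rfl
    rw [e1, ih, NF.fn_inv h]

/-- **Leading parts**, complex normal forms. -/
theorem lead_cx (h : (NF.cx c s).OK) : ∀ p : E2 → ℝ, ContDiffAt ℝ (2 : ℕ) p 0 →
    p 0 = 0 → fderiv ℝ p 0 ≠ 0 → ∃ (ν : ℕ → ℝ) (P : E2 → ℝ) (ψ : ℕ → ℕ),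
      (∀ m, 0 < ν m) ∧ (∀ m' m, m' ≤ m → ν m ≤ Real.sqrt (c ^ 2 + s ^ 2) ^ (m - m') * ν m') ∧
      LimFn (NF.cx c s) P ∧ Tendsto ψ atTop atTop ∧
      Lm (NF.cx c s) ψ (fun m x => ν m * p x) P := by
  intro p hp hp0 hdp
  set r : ℝ := Real.sqrt (c ^ 2 + s ^ 2) with hr
  have hr1 : 1 < r := by
    rw [hr]
    exact Real.lt_sqrt_of_sq_lt (by rw [one_pow]; exact h.2)
  have hr0 : 0 < r := by positivity
  have hri : r⁻¹ < 1 := inv_lt_one_of_one_lt₀ hr1
  obtain ⟨q, hq0, hq1, C, ρ, hC, hρ, hrem⟩ := expand le_rfl hp hp0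
  set D := fderiv ℝ p 0 with hD
  -- the remainder
  have hrem2 : ∀ x : E2, ‖x‖ ≤ ρ → |p x - D x| ≤ (C + 1 + |q 2|) * ‖x‖ ^ 2 := by
    intro x hx
    have h1 := hrem x hx
    have h2 : D x = D (bas 0) * x 0 + q 1 * x 1 := by
      conv_lhs => rw [eq_bas x]
      rw [map_add, map_smul, map_smul, hq1]
      simp only [smul_eq_mul]; ring
    have h3 : ∑ j ∈ Finset.range (2 + 1), q j * x 1 ^ j = q 1 * x 1 + q 2 * x 1 ^ 2 := by
      rw [Finset.sum_range_succ, Finset.sum_range_succ, Finset.sum_range_one, hq0]; ring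
    rw [h3] at h1
    have e0 := abs_coord_le x 0
    have e1 := abs_coord_le x 1
    have e2 : |x 1| ^ 2 ≤ ‖x‖ ^ 2 := by gcongr
    have e3 : |q 2 * x 1 ^ 2| ≤ |q 2| * ‖x‖ ^ 2 := by
      rw [abs_mul, abs_pow]; gcongr
    calc |p x - D x| = |(p x - (D (bas 0) * x 0 + (q 1 * x 1 + q 2 * x 1 ^ 2))) + q 2 * x 1 ^ 2| := by
          rw [h2]; congr 1; ring
      _ ≤ (C * (|x 0| * ‖x‖) + |x 1| ^ 2) + |q 2 * x 1 ^ 2| := (abs_add_le _ _).trans (by gcongr)
      _ ≤ (C * (‖x‖ * ‖x‖) + ‖x‖ ^ 2) + |q 2| * ‖x‖ ^ 2 := by gcongr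
      _ = _ := by ring
  -- the functionals
  set ℓ : ℕ → (E2 →L[ℝ] ℝ) := fun m => r ^ m • (D ∘L (invL c s ^ m)) with hℓ
  have hℓ1 : ∀ m x, ℓ m ((NF.cx c s).fn^[m] x) = r ^ m * D x := by
    intro m x
    have : ℓ m ((NF.cx c s).fn^[m] x) = r ^ m * D ((invL c s ^ m) ((NF.cx c s).fn^[m] x)) := rfl
    rw [this, invL_pow h]
  have hℓn : ∀ m, ‖ℓ m‖ = ‖D‖ := by
    intro m
    apply le_antisymm
    · refine ContinuousLinearMap.opNorm_le_bound _ (norm_nonneg _) fun y => ?_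
      have e1 : ℓ m y = r ^ m * D ((invL c s ^ m) y) := rfl
      have e2 := norm_iter_cx (c := c) (s := s) m ((invL c s ^ m) y)
      rw [invL_pow' h, ← hr] at e2
      rw [e1, norm_mul, Real.norm_eq_abs, abs_of_pos (by positivity : 0 < r ^ m), e2]
      have e3 := D.le_opNorm ((invL c s ^ m) y)
      calc r ^ m * ‖D ((invL c s ^ m) y)‖ ≤ r ^ m * (‖D‖ * ‖(invL c s ^ m) y‖) := by gcongr
        _ = _ := by ring
    · refine ContinuousLinearMap.opNorm_le_bound _ (norm_nonneg _) fun z => ?_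
      have e1 := (ℓ m).le_opNorm ((NF.cx c s).fn^[m] z)
      rw [hℓ1, norm_iter_cx, ← hr, norm_mul, Real.norm_eq_abs,
        abs_of_pos (by positivity : 0 < r ^ m)] at e1
      have e2 : r ^ m * ‖D z‖ ≤ r ^ m * (‖ℓ m‖ * ‖z‖) := by linarith
      exact le_of_mul_le_mul_left e2 (by positivity)
  have hprop : ProperSpace (E2 →L[ℝ] ℝ) := FiniteDimensional.proper ℝ _
  obtain ⟨ℓ', -, ψ, hψ, hlim⟩ := tendsto_subseq_of_bounded (s := closedBall (0 : E2 →L[ℝ] ℝ) ‖D‖)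
    isBounded_closedBall (x := ℓ) (fun m => by rw [mem_closedBall_zero_iff, hℓn])
  have hℓ0 : ℓ' ≠ 0 := by
    intro h0
    have h1 : Tendsto (fun n => ‖ℓ (ψ n)‖) atTop (𝓝 ‖ℓ'‖) := hlim.norm
    rw [h0, norm_zero] at h1
    have h2 : Tendsto (fun n => ‖ℓ (ψ n)‖) atTop (𝓝 ‖D‖) := by
      simp only [hℓn]; exact tendsto_const_nhds
    have := tendsto_nhds_unique h1 h2
    exact hdp (norm_eq_zero.1 this.symm)
  have hψt : Tendsto ψ atTop atTop := hψ.tendsto_atTop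
  refine ⟨fun m => r ^ m, fun y => ℓ' y, ψ, fun m => by positivity, ?_, ?_, hψt, ?_⟩
  · intro m' m hm
    rw [← pow_add, Nat.sub_add_cancel hm]
  · refine ⟨(InnerProductSpace.toDual ℝ E2).symm ℓ', ?_, ?_⟩
    · intro h0
      exact hℓ0 ((LinearIsometryEquiv.map_eq_zero_iff _).1 h0)
    · funext y
      rw [InnerProductSpace.toDual_symm_apply]
  · -- the linear part
    have hL : Lm (NF.cx c s) ψ (fun m x => r ^ m * D x) (fun y => ℓ' y) := by
      refine ⟨fun x y hx => ?_, fun R => ⟨‖D‖ * R, Filter.Eventually.of_forall fun m x hx => ?_⟩⟩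
      · have hc : Continuous fun p : (E2 →L[ℝ] ℝ) × E2 => p.1 p.2 :=
          isBoundedBilinearMap_apply.continuous
        have h1 := (hc.tendsto (ℓ', y)).comp ((show Tendsto (fun n => ℓ (ψ n)) atTop (𝓝 ℓ') from
          hlim).prodMk_nhds hx)
        refine h1.congr fun n => ?_
        exact hℓ1 (ψ n) (x n)
      · rw [norm_iter_cx, ← hr] at hx
        have e1 : |r ^ m * D x| ≤ r ^ m * (‖D‖ * ‖x‖) := by
          rw [abs_mul, abs_of_pos (by positivity : 0 < r ^ m)]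
          gcongr
          exact D.le_opNorm x
        calc |r ^ m * D x| ≤ ‖D‖ * (r ^ m * ‖x‖) := e1.trans (le_of_eq (by ring))
          _ ≤ ‖D‖ * R := by gcongr
    have hN : Lm (NF.cx c s) ψ (fun m x => r ^ m * ‖x‖) (fun y => ‖y‖) := by
      refine ⟨fun x y hx => ?_, fun R => ⟨R, Filter.Eventually.of_forall fun m x hx => ?_⟩⟩
      · refine hx.norm.congr fun n => ?_
        rw [norm_iter_cx]
      · rw [norm_iter_cx, ← hr] at hx
        rwa [abs_of_nonneg (by positivity)]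
    have hT : Lm (NF.cx c s) ψ (fun m x => (C + 1 + |q 2|) * (r⁻¹ ^ m * (r ^ m * ‖x‖) ^ 2))
        (fun _ => 0) := by
      refine ((Lm.const (C + 1 + |q 2|)).mul
        ((Lm.coef hψt (seq_pow (by positivity) hri)).mul (hN.pow 2))).congr (fun _ _ => rfl)
        (fun y => by ring)
    have hR : Lm (NF.cx c s) ψ (fun m x => r ^ m * (p x - D x)) (fun _ => 0) := by
      refine Lm.dom hψt hT (ρ := ρ) (fun R => ?_) fun m x hx => ?_
      · have h1 : Tendsto (fun m : ℕ => r⁻¹ ^ m * R) atTop (𝓝 0) := by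
          simpa using (seq_pow (by positivity) hri).mul_const R
        filter_upwards [h1.eventually (gt_mem_nhds hρ)] with m hm x hx
        rw [norm_iter_cx, ← hr] at hx
        have e1 : ‖x‖ = r⁻¹ ^ m * (r ^ m * ‖x‖) := by
          rw [inv_pow]; field_simp
        rw [e1]
        refine le_trans ?_ hm.le
        gcongr
      · rw [abs_mul, abs_of_pos (by positivity : 0 < r ^ m)]
        have h1 := hrem2 x hx
        calc r ^ m * |p x - D x| ≤ r ^ m * ((C + 1 + |q 2|) * ‖x‖ ^ 2) := by gcongr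
          _ = _ := by rw [inv_pow]; field_simp
    refine (hL.add hR).congr (fun m x => by ring) (fun y => by ring)

end Cx

/-- **Leading parts**: in all normal forms, a function `p` with `p 0 = 0`, `dp(0) ≠ 0`,
smooth enough, has a limit `ν_m p(N^{-m} y) → P(y)` along a subsequence, `P ∈ LimFn N`. -/
theorem lead0 {N : NF} (hN : N.OK) : ∃ K₀ : ℕ, ∀ p : E2 → ℝ, ContDiffAt ℝ K₀ p 0 →
    p 0 = 0 → fderiv ℝ p 0 ≠ 0 → ∃ (ν : ℕ → ℝ) (P : E2 → ℝ) (ψ : ℕ → ℕ),
      (∀ m, 0 < ν m) ∧ (∀ m' m, m' ≤ m → ν m ≤ N.m1 ^ (m - m') * ν m') ∧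
      LimFn N P ∧ Tendsto ψ atTop atTop ∧ Lm N ψ (fun m x => ν m * p x) P := by
  cases N with
  | tri μ₁ μ₂ a k => exact lead_tri hN
  | cx c s => exact ⟨2, lead_cx hN⟩

end Vale.Agent.P207.N3.H545
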