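import Vale.Agent.P207.N3.H545.DirPiece
import Vale.Agent.P207.N3.H545.Lead0
import Vale.Agent.P207.N3.H545.Lim
import Vale.Agent.P207.N3.H147.Fwd

/-!
N3-P13L (helper545), part 3: START + forward coordinates + limit rule ⟹ `LimDir`.
-/

set_option maxSynthPendingDepth 3

open Set Filter Topology Metric
open scoped ContDiff

noncomputable section

namespace Vale.Agent.P207.N3.H545

open Vale.Agent.P207.N3
open Vale.Agent.P207.N3.H790 (NF)

/-! ### The function in the forward coordinate -/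

theorem exists_p {G : E2 → E2} {Φ : E2 → ℝ} {K : ℕ} (hK : 1 ≤ K)
    (hG : ContDiffOn ℝ ∞ G (ball 0 1)) (hG0 : G 0 = 0) (hGd : (fderiv ℝ G 0).det ≠ 0)
    (hΦ : ContDiffAt ℝ K Φ 0) (hΦ0 : Φ 0 = 0) (hΦd : fderiv ℝ Φ 0 ≠ 0) :
    ∃ p : E2 → ℝ, ContDiffAt ℝ K p 0 ∧ p 0 = 0 ∧ fderiv ℝ p 0 ≠ 0 ∧
      ∀ᶠ v in 𝓝 (0 : E2), p (G v) = Φ v := by
  have hKne : (K : WithTop ℕ∞) ≠ 0 := by exact_mod_cast (by omega : K ≠ 0)
  have hGa : ContDiffAt ℝ K G 0 :=
    ((hG 0 (mem_ball_self one_pos)).contDiffAt (isOpen_ball.mem_nhds (mem_ball_self one_pos))).of_le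
      (by exact_mod_cast le_top)
  have hGdiff : DifferentiableAt ℝ G 0 := hGa.differentiableAt hKne
  set G' : E2 ≃L[ℝ] E2 := (fderiv ℝ G 0).toContinuousLinearEquivOfDetNeZero hGd with hG'
  have hGf : HasFDerivAt G (G' : E2 →L[ℝ] E2) 0 := by
    rw [hG', ContinuousLinearMap.coe_toContinuousLinearEquivOfDetNeZero]
    exact hGdiff.hasFDerivAt
  set H := hGa.localInverse hGf hKne with hH
  have hHs : ContDiffAt ℝ K H 0 := by
    have := hGa.to_localInverse hGf hKne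
    rwa [hG0] at this
  have hH0 : H 0 = 0 := by
    have := hGa.localInverse_apply_image hGf hKne
    rwa [hG0] at this
  have hleft : ∀ᶠ v in 𝓝 (0 : E2), H (G v) = v :=
    (hGa.hasStrictFDerivAt' hGf hKne).eventually_left_inverse
  have hps : ContDiffAt ℝ K (fun x => Φ (H x)) 0 := by
    have h1 : ContDiffAt ℝ K Φ (H 0) := by rw [hH0]; exact hΦ
    exact h1.comp 0 hHs
  have hrel : ∀ᶠ v in 𝓝 (0 : E2), (fun x => Φ (H x)) (G v) = Φ v := by
    filter_upwards [hleft] with v hv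
    simp only [hv]
  refine ⟨fun x => Φ (H x), hps, by simp only [hH0, hΦ0], fun h0 => hΦd ?_, hrel⟩
  have h1 : (fun v => (fun x => Φ (H x)) (G v)) =ᶠ[𝓝 0] Φ := hrel
  rw [← h1.fderiv_eq]
  have h2 : DifferentiableAt ℝ (fun x => Φ (H x)) (G 0) := by
    rw [hG0]; exact hps.differentiableAt hKne
  have h3 := (h2.hasFDerivAt.comp 0 hGdiff.hasFDerivAt).fderiv
  rw [hG0, h0, ContinuousLinearMap.zero_comp] at h3
  exact h3

variable {Γ X B : Type} [Group Γ] [MetricSpace X] [ProperSpace X] [MulAction Γ X]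
  [IsIsometricSMul Γ X] [TopologicalSpace B] [CompactSpace B] [T2Space B] [MulAction Γ B]
  [ContinuousConstSMul Γ B] {L : Leaf Γ X B}

/-! ### The frames -/

section Frames

variable (o : Orb L)

theorem inv_pow_ne {ζ : B} (hζ : ζ ≠ o.pos) (m : ℕ) : (o.β ^ m)⁻¹ • ζ ≠ L.ep o.x := by
  intro h
  rw [inv_smul_eq_iff, H147.Ax.pow_smul_ep o.ax] at h
  exact hζ h

/-- the frames of the leaf `k ζ` along the orbit -/
theorem zfr_eq (k : Γ) {ζ : B} (hζ : ζ ≠ o.pos) (m : ℕ) (r : ℝ) :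
    k • o.β ^ m • L.hol ((o.β ^ m)⁻¹ • ζ) (L.φ r o.x) =
      L.φ (m * o.l + r) (L.rot (o.a ^ m) (k • L.hol ζ o.x)) := by
  have h1 : (o.β ^ m)⁻¹ • ζ ≠ L.ep (L.φ r o.x) := by
    rw [H147.ep_φ]; exact inv_pow_ne o hζ m
  have h2 : ζ ≠ L.ep o.x := hζ
  have h3 : ζ ≠ L.ep (L.rot (o.a ^ m) o.x) := by rw [H147.ep_rot]; exact h2
  have h4 : ζ ≠ L.ep (L.φ (m * o.l) (L.rot (o.a ^ m) o.x)) := by rw [H147.ep_φ]; exact h3
  rw [← L.hol_smul _ _ _ h1, smul_inv_smul, ← L.φ_smul, H147.Ax.pow_smul o.ax, L.hol_φ _ _ _ h4,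
    L.hol_φ _ _ _ h3, L.hol_rot _ _ _ h2, ← L.φ_add, ← L.φ_smul, ← L.rot_smul]
  congr 1
  ring

theorem e_zfr (k : Γ) {ζ : B} (hζ : ζ ≠ o.pos) (m : ℕ) (r : ℝ) {u : E2}
    (hu : u ∈ closedBall (0 : E2) 3) :
    L.e (L.φ (m * o.l + r) (L.rot (o.a ^ m) (k • L.hol ζ o.x))) u =
      k • o.β ^ m • L.e (L.hol ((o.β ^ m)⁻¹ • ζ) (L.φ r o.x)) u := by
  rw [← zfr_eq o k hζ, L.e_smul _ _ _ hu, L.e_smul _ _ _ hu]

end Frames

/-- a point of the leaf of `ζ` near `β^+` -/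
def Ept (o : Orb L) (ζ : B) (m : ℕ) (r : ℝ) (u : E2) : B :=
  o.β ^ m • L.e (L.hol ((o.β ^ m)⁻¹ • ζ) (L.φ r o.x)) u

theorem norm_iter0_sub {V : Type*} [NormedAddCommGroup V] [NormedSpace ℝ V] (f g : E2 → V)
    (u : E2) : ‖iteratedFDeriv ℝ 0 f u - iteratedFDeriv ℝ 0 g u‖ = ‖f u - g u‖ := by
  rw [iteratedFDeriv_zero_eq_comp, iteratedFDeriv_zero_eq_comp, Function.comp_apply,
    Function.comp_apply, ← map_sub, LinearIsometryEquiv.norm_map]

section Fwd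

variable {o : Orb L} {x : B → E2} {N : E2 → E2} {c₁ : ℝ}

theorem key_rel (W : H147.Fwd o x N c₁) (k : Γ) {ζ : B} (hζ : ζ ≠ o.pos) {fb : B → ℝ}
    {p : E2 → ℝ} {δ c : ℝ} (hδ : 0 < δ)
    (hp : ∀ v ∈ ball (0 : E2) δ, p (W.F ζ (L.e (L.hol ζ o.x) v)) =
      fb (L.e (k • L.hol ζ o.x) v) - c) :
    ∃ S : ℝ, ∀ m : ℕ, ∀ r : ℝ, 0 ≤ r → S ≤ m * o.l → ∀ u ∈ ball (0 : E2) 3,
      fb (L.e (L.φ (m * o.l + r) (L.rot (o.a ^ m) (k • L.hol ζ o.x))) u) - c =
        p (W.F ζ (Ept o ζ m r u)) := by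
  obtain ⟨S, -, hS⟩ := exists_contr L hδ
  refine ⟨S, fun m r hr hm u hu => ?_⟩
  obtain ⟨v, hv, hv1, hve⟩ := hS (L.rot (o.a ^ m) (k • L.hol ζ o.x)) (m * o.l + r) (by linarith)
    u hu
  have hv3 : v ∈ closedBall (0 : E2) 3 :=
    ball_subset_closedBall (ball_subset_ball (by norm_num) hv1)
  rw [L.e_rot _ _ _ hv3] at hve
  have hv' : (o.a ^ m) v ∈ ball (0 : E2) δ := by
    rw [mem_ball_zero_iff] at hv ⊢
    rwa [LinearIsometryEquiv.norm_map]
  have hv3' : (o.a ^ m) v ∈ closedBall (0 : E2) 3 := by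
    rw [mem_closedBall_zero_iff] at hv3 ⊢
    rwa [LinearIsometryEquiv.norm_map]
  have h1 : Ept o ζ m r u = L.e (L.hol ζ o.x) ((o.a ^ m) v) := by
    have h2 := e_zfr o k hζ m r (ball_subset_closedBall hu)
    rw [hve, L.e_smul _ _ _ hv3'] at h2
    exact (MulAction.injective k h2).symm
  rw [h1, hp _ hv', hve]

theorem tends_X (W : H147.Fwd o x N c₁) {ζ : B} (hζ : ζ ≠ o.pos) {u : E2}
    (hu : u ∈ ball (0 : E2) 3) :
    Tendsto (fun m : ℕ => N^[m] (W.F ζ (Ept o ζ m 0 u))) atTop (𝓝 (x (L.e o.x u))) := by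
  rw [Metric.tendsto_nhds]
  intro ε hε
  have h1 := W.conv3 {ζ} isCompact_singleton (fun h => hζ (mem_singleton_iff.1 h).symm)
    {L.φ 0 o.x} isCompact_singleton (by
      intro y hy
      rw [mem_singleton_iff.1 hy, L.em_φ]; rfl) 0 (ε / 2) (by positivity)
  filter_upwards [h1] with m hm
  have h2 := hm ζ (mem_singleton _) (L.φ 0 o.x) (mem_singleton _) u hu
  rw [norm_iter0_sub, L.φ_zero] at h2
  rw [dist_eq_norm]
  have e1 : Ept o ζ m 0 u = o.β ^ m • L.e (L.hol ((o.β ^ m)⁻¹ • ζ) o.x) u := by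
    unfold Ept; rw [L.φ_zero]
  rw [e1]
  linarith

theorem bd_X (W : H147.Fwd o x N c₁) (hx : L.SmoothOn o.neg x) {ζ : B} (hζ : ζ ≠ o.pos) :
    ∃ R : ℝ, ∀ᶠ m : ℕ in atTop, ∀ r ∈ Icc 0 o.l, ∀ u ∈ ball (0 : E2) 3,
      ‖N^[m] (W.F ζ (Ept o ζ m r u))‖ ≤ R := by
  -- the bound of `x`
  have hq : L.em (L.φ (-L.t1) o.x) = o.neg := by rw [L.em_φ]; rfl
  have hc : ContinuousOn (fun u => x (L.e (L.φ (-L.t1) o.x) u)) (closedBall (0 : E2) 1) :=
    (hx _ hq).continuousOn.mono (closedBall_subset_ball (by norm_num))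
  obtain ⟨R₁, hR₁⟩ := (isCompact_closedBall (0 : E2) 1).exists_bound_of_continuousOn hc
  have hb : ∀ r ∈ Icc 0 o.l, ∀ u ∈ ball (0 : E2) 3, ‖x (L.e (L.φ r o.x) u)‖ ≤ R₁ := by
    intro r hr u hu
    obtain ⟨v, hv, hve⟩ := L.engulf (L.φ (-L.t1) o.x) (r + L.t1) (by linarith [hr.1])
      ⟨u, ball_subset_closedBall hu, rfl⟩
    rw [← L.φ_add] at hve
    have e1 : r + L.t1 + -L.t1 = r := by ring
    rw [e1] at hve
    rw [← hve]
    exact hR₁ v (ball_subset_closedBall hv)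
  have hQ : IsCompact ((fun r => L.φ r o.x) '' Icc 0 o.l) := by
    refine isCompact_Icc.image ?_
    exact L.φ_cont.comp (continuous_id.prodMk continuous_const)
  have h1 := W.conv3 {ζ} isCompact_singleton (fun h => hζ (mem_singleton_iff.1 h).symm) _ hQ (by
      rintro y ⟨r, -, rfl⟩
      show L.em (L.φ r o.x) = _
      rw [L.em_φ]; rfl) 0 1 one_pos
  refine ⟨R₁ + 1, ?_⟩
  filter_upwards [h1] with m hm r hr u hu
  have h2 := hm ζ (mem_singleton _) (L.φ r o.x) ⟨r, hr, rfl⟩ u hu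
  rw [norm_iter0_sub] at h2
  have h3 := hb r hr u hu
  calc ‖N^[m] (W.F ζ (Ept o ζ m r u))‖
      = ‖(N^[m] (W.F ζ (Ept o ζ m r u)) - x (L.e (L.φ r o.x) u)) + x (L.e (L.φ r o.x) u)‖ := by
        rw [sub_add_cancel]
    _ ≤ 1 + R₁ := (norm_add_le _ _).trans (add_le_add h2 h3)
    _ = R₁ + 1 := by ring

end Fwd

theorem tends_fr (o : Orb L) {ζ : B} (hζ : ζ ≠ o.pos) :
    Tendsto (fun m : ℕ => L.hol ((o.β ^ m)⁻¹ • ζ) o.x) atTop (𝓝 o.x) := by
  have h1 : Tendsto (fun m : ℕ => (o.β ^ m)⁻¹ • ζ) atTop (𝓝 (L.em o.x)) := by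
    intro V hV
    have := H147.Ax.south o.ax (K := {ζ}) isCompact_singleton
      (fun h => hζ (mem_singleton_iff.1 h).symm) hV
    exact this.mono fun m hm => hm ζ (mem_singleton _)
  have h2 : ContinuousWithinAt (fun p : B × X => L.hol p.1 p.2) {p | p.1 ≠ L.ep p.2}
      (L.em o.x, o.x) := L.hol_cont _ (L.em_ne_ep o.x)
  have h3 : Tendsto (fun m : ℕ => ((o.β ^ m)⁻¹ • ζ, o.x)) atTop
      (𝓝[{p : B × X | p.1 ≠ L.ep p.2}] (L.em o.x, o.x)) := by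
    refine tendsto_nhdsWithin_iff.2 ⟨h1.prodMk_nhds tendsto_const_nhds, ?_⟩
    exact Filter.Eventually.of_forall fun m => inv_pow_ne o hζ m
  have h4 := h2.tendsto.comp h3
  simp only [L.hol_self] at h4
  exact h4

theorem CkB_const_smul {E V : Type*} [NormedAddCommGroup E] [NormedSpace ℝ E]
    [NormedAddCommGroup V] [NormedSpace ℝ V] {F : E → V} {k : ℕ} {r C a : ℝ}
    (h : CkB k r C F) (ha : 0 ≤ a) : CkB k r (a * C) (fun u => a • F u) := by
  refine ⟨h.1.const_smul a, fun i hi u hu => ?_⟩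
  have h1 : iteratedFDeriv ℝ i (fun u => a • F u) u = a • iteratedFDeriv ℝ i F u :=
    iteratedFDeriv_const_smul_apply ((h.contDiffAt hu).of_le (by exact_mod_cast hi))
  rw [h1, norm_smul, Real.norm_eq_abs, abs_of_nonneg ha]
  exact mul_le_mul_of_nonneg_left (h.2 i hi u hu) ha

theorem gradient_const_mul (F : E2 → ℝ) (a : ℝ) (u : E2) :
    gradient (fun v => a * F v) u = a • gradient F u := by
  rw [gradient_eq_riesz, gradient_eq_riesz, Function.comp_apply, Function.comp_apply, ← map_smul]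
  congr 1
  have h1 : (fun v => a * F v) = a • F := rfl
  rw [h1, fderiv_const_smul_field]
  rfl

/-- bounds at the times `m l` from bounds at all real times -/
theorem orbit_bdd {T : Tens L} {l m1 C : ℝ} (hl : 0 < l) (hm1 : 1 ≤ m1) {k : ℕ}
    (hC : ∀ (f : B → ℝ) (c : ℝ) (z : X) (C₀ t M : ℝ), 0 ≤ C₀ → 0 ≤ M → L.t1 ≤ t →
      CkB (k + 1) 1 C₀ (fun u => f (L.e z u)) → CkB k 1 C₀ (Wf T f z) →
      C₀ ≤ M * Real.exp (Real.log m1 / l * t) →
      (∀ s ∈ Icc L.t1 t, ∀ u ∈ ball (0 : E2) 2,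
        ‖f (L.e (L.φ s z) u) - c‖ ≤ M * Real.exp (Real.log m1 / l * (t - s))) →
      CkB (k + 1) 2 (C * M) (fun u => f (L.e (L.φ t z) u) - c) ∧
        CkB k 2 (C * M) (Wf T f (L.φ t z)))
    {a : O2} {z₀ : X} {fb : B → ℝ} {c : ℝ} {ν : ℕ → ℝ} (hν : ∀ m, 0 < ν m)
    (hνg : ∀ m' m, m' ≤ m → ν m ≤ m1 ^ (m - m') * ν m') {m₀ : ℕ} {C₀ : ℝ} (hC₀ : 0 ≤ C₀)
    (h0 : ∀ b : O2, CkB (k + 1) 1 C₀ (fun u => fb (L.e (L.φ (m₀ * l) (L.rot b z₀)) u)) ∧
      CkB k 1 C₀ (Wf T fb (L.φ (m₀ * l) (L.rot b z₀)))) {C₂ : ℝ} (hC₂ : 0 ≤ C₂)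
    (hsup : ∀ m ≥ m₀, ∀ r ∈ Icc 0 l, ∀ u ∈ ball (0 : E2) 3,
      ν m * |fb (L.e (L.φ (m * l + r) (L.rot (a ^ m) z₀)) u) - c| ≤ C₂) :
    ∃ M₁ : ℝ, ∀ m : ℕ, m₀ ≤ m → L.t1 ≤ ((m : ℝ) - m₀) * l →
      CkB (k + 1) 2 (C * (M₁ / ν m)) (fun u => fb (L.e (L.φ (m * l) (L.rot (a ^ m) z₀)) u) - c) ∧
      CkB k 2 (C * (M₁ / ν m)) (Wf T fb (L.φ (m * l) (L.rot (a ^ m) z₀))) := by
  have hm10 : 0 < m1 := by positivity
  set Λ : ℝ := Real.log m1 / l with hΛ
  have hΛ0 : 0 ≤ Λ := div_nonneg (Real.log_nonneg hm1) hl.le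
  have hexp : ∀ j : ℕ, Real.exp (Λ * (j * l)) = m1 ^ j := by
    intro j
    rw [hΛ, show Real.log m1 / l * (j * l) = j * Real.log m1 by field_simp, Real.exp_nat_mul,
      Real.exp_log hm10]
  refine ⟨C₂ * m1 + C₀ * ν m₀, fun m hm ht => ?_⟩
  set M₁ : ℝ := C₂ * m1 + C₀ * ν m₀ with hM₁
  have hν0 := hν m₀
  have hνm := hν m
  have hM₁0 : 0 ≤ M₁ := by positivity
  set t : ℝ := ((m : ℝ) - m₀) * l with htdef
  set z : X := L.φ (m₀ * l) (L.rot (a ^ m) z₀) with hz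
  have hzt : L.φ t z = L.φ (m * l) (L.rot (a ^ m) z₀) := by
    rw [hz, ← L.φ_add]; congr 1; rw [htdef]; ring
  have hcast : ((m - m₀ : ℕ) : ℝ) = (m : ℝ) - m₀ := by push_cast [Nat.cast_sub hm]; ring
  have hexpt : Real.exp (Λ * t) = m1 ^ (m - m₀) := by rw [htdef, ← hcast, hexp]
  have key := hC fb c z C₀ t (M₁ / ν m) hC₀ (by positivity) ht (h0 (a ^ m)).1 (h0 (a ^ m)).2 (by
      rw [hexpt]
      have h1 := hνg m₀ m hm
      have h2 : C₀ * ν m ≤ M₁ * m1 ^ (m - m₀) := by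
        have h3 : C₀ * ν m ≤ C₀ * (m1 ^ (m - m₀) * ν m₀) := mul_le_mul_of_nonneg_left h1 hC₀
        have h4 : 0 ≤ C₂ * m1 * m1 ^ (m - m₀) := by positivity
        calc C₀ * ν m ≤ C₀ * (m1 ^ (m - m₀) * ν m₀) := h3
          _ ≤ C₂ * m1 * m1 ^ (m - m₀) + C₀ * (m1 ^ (m - m₀) * ν m₀) := by linarith
          _ = _ := by rw [hM₁]; ring
      rw [div_mul_eq_mul_div, le_div_iff₀ hνm]
      exact h2) (by
      intro s hs u hu
      have hs0 : 0 ≤ s := L.t1_pos.le.trans hs.1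
      set j : ℕ := ⌊s / l⌋₊ with hj
      have hj1 : (j : ℝ) * l ≤ s := by
        have := Nat.floor_le (div_nonneg hs0 hl.le)
        rw [← hj] at this
        rwa [le_div_iff₀ hl] at this
      have hj2 : s < ((j : ℝ) + 1) * l := by
        have := Nat.lt_floor_add_one (s / l)
        rw [← hj] at this
        rwa [div_lt_iff₀ hl] at this
      have hjm : m₀ + j ≤ m := by
        have h1 : (j : ℝ) * l ≤ ((m : ℝ) - m₀) * l := hj1.trans hs.2
        have h2 : (j : ℝ) ≤ (m : ℝ) - m₀ := le_of_mul_le_mul_right h1 hl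
        have h3 : ((m₀ + j : ℕ) : ℝ) ≤ m := by push_cast; linarith
        exact_mod_cast h3
      have hpow : a ^ m = a ^ (m₀ + j) * a ^ (m - (m₀ + j)) := by
        rw [← pow_add, Nat.add_sub_cancel' hjm]
      have hfr : L.φ s z = L.rot (a ^ (m - (m₀ + j)))
          (L.φ (((m₀ + j : ℕ) : ℝ) * l + (s - j * l)) (L.rot (a ^ (m₀ + j)) z₀)) := by
        rw [hz, ← L.φ_add, hpow, L.rot_mul, ← L.rot_φ]
        congr 2
        push_cast; ring
      have hu3 : u ∈ ball (0 : E2) 3 := ball_subset_ball (by norm_num) hu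
      have hau : (a ^ (m - (m₀ + j))) u ∈ ball (0 : E2) 3 := by
        rw [mem_ball_zero_iff] at hu3 ⊢
        rwa [LinearIsometryEquiv.norm_map]
      have hb := hsup (m₀ + j) (Nat.le_add_right _ _) (s - j * l) ⟨by linarith, by linarith⟩ _ hau
      rw [hfr, L.e_rot _ _ _ (ball_subset_closedBall hu3), Real.norm_eq_abs]
      set V : ℝ := |fb (L.e (L.φ (((m₀ + j : ℕ) : ℝ) * l + (s - j * l))
        (L.rot (a ^ (m₀ + j)) z₀)) ((a ^ (m - (m₀ + j))) u)) - c| with hV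
      have hV0 : 0 ≤ V := abs_nonneg _
      have hg := hνg (m₀ + j) m hjm
      -- the exponential
      have he : m1 ^ (m - (m₀ + j)) ≤ m1 * Real.exp (Λ * (t - s)) := by
        have h1 : Real.exp (Λ * ((1 : ℕ) * l)) = m1 ^ 1 := hexp 1
        rw [pow_one] at h1
        nth_rewrite 2 [← h1]
        rw [← hexp, ← Real.exp_add]
        apply Real.exp_le_exp.2
        have h2 : ((m - (m₀ + j) : ℕ) : ℝ) = (m : ℝ) - (m₀ + j) := by
          rw [Nat.cast_sub hjm]; push_cast; ring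
        rw [h2, ← mul_add]
        refine mul_le_mul_of_nonneg_left ?_ hΛ0
        rw [htdef]; push_cast
        nlinarith
      rw [div_mul_eq_mul_div, le_div_iff₀ hνm]
      calc V * ν m ≤ V * (m1 ^ (m - (m₀ + j)) * ν (m₀ + j)) := mul_le_mul_of_nonneg_left hg hV0
        _ = (ν (m₀ + j) * V) * m1 ^ (m - (m₀ + j)) := by ring
        _ ≤ C₂ * (m1 * Real.exp (Λ * (t - s))) := by gcongr
        _ = (C₂ * m1) * Real.exp (Λ * (t - s)) := by ring
        _ ≤ M₁ * Real.exp (Λ * (t - s)) := by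
          refine mul_le_mul_of_nonneg_right ?_ (Real.exp_pos _).le
          rw [hM₁]
          have : 0 ≤ C₀ * ν m₀ := by positivity
          linarith)
  rw [hzt] at key
  exact key

theorem one_le_m1 {N : NF} (h : N.OK) : 1 ≤ N.m1 := by
  cases N with
  | tri μ₁ μ₂ a k => exact (h.1.le.trans h.2.1)
  | cx c s =>
    show 1 ≤ Real.sqrt (c ^ 2 + s ^ 2)
    exact Real.one_le_sqrt.2 h.2.le

/-- the inner limit -/
theorem limDir_one {T : Tens L} (hS : ∀ K, Start T K) {o : Orb L} (n : Nor L o) {c₁ : ℝ}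
    (W : H147.Fwd o n.x n.N.fn c₁) (k : ℕ) : ∃ P, LimFn n.N P ∧
      ContDiffAt ℝ k (fun u => T.N o.x u (gradient (fun u => P (n.g u)) u)) 0 := by
  have hl : 0 < o.l := o.ax.pos
  have hm1 : 1 ≤ n.N.m1 := one_le_m1 n.ok
  have hΛ0 : 0 ≤ Real.log n.N.m1 / o.l := div_nonneg (Real.log_nonneg hm1) hl.le
  obtain ⟨k₀, hk₀⟩ := dir_bdd T hΛ0
  set k' : ℕ := max k₀ (k + 2) with hk'
  obtain ⟨C, hC1, hC⟩ := hk₀ k' (le_max_left _ _)
  obtain ⟨K₀, hlead⟩ := lead0 n.ok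
  set K : ℕ := max (k' + 1) K₀ with hK
  have hKk : k' + 1 ≤ K := le_max_left _ _
  obtain ⟨y, O, f, hO, hO3, hOne, hgr, hfO, hWO⟩ := hS K
  have hfO' : ContDiffOn ℝ K f O := hfO
  have hWO' : ContDiffOn ℝ K (fun u => T.N y u (gradient f u)) O := hWO
  -- the element of the group
  obtain ⟨η, ⟨γ, rfl⟩, hγ⟩ : ∃ η, η ∈ range (fun g : Γ => g • o.pos) ∧ η ∈ L.e y '' O := by
    obtain ⟨η, hη1, hη2⟩ := (L.dense_orbit o.pos).inter_open_nonempty _
      (isOpen_image_sub L y hO hO3) (hOne.image _)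
    exact ⟨η, hη2, hη1⟩
  simp only at hγ
  set ζ : B := γ⁻¹ • L.em y with hζdef
  have hγne : γ • o.pos ≠ L.em y := by
    obtain ⟨u, hu, hue⟩ := hγ
    rw [← hue]
    exact L.e_ne y u (ball_subset_closedBall (hO3 hu))
  have hζ : ζ ≠ o.pos := by
    intro h
    apply hγne
    rw [← h, hζdef, smul_inv_smul]
  set z₀ : X := γ • L.hol ζ o.x with hz₀
  have hζx : ζ ≠ L.ep o.x := hζ
  have hem : L.em z₀ = L.em y := by
    rw [hz₀, L.em_smul, L.hol_em _ _ hζx, hζdef, smul_inv_smul]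
  have hep : L.ep z₀ = γ • o.pos := by
    rw [hz₀, H147.ep_smul, L.hol_ep _ _ hζx]; rfl
  have hepO : L.ep z₀ ∈ L.e y '' O := by rw [hep]; exact hγ
  set fb : B → ℝ := fB L y f with hfb
  set c : ℝ := fb (L.ep z₀) with hc
  -- the function in the disc `z₀`
  set Φ : E2 → ℝ := fun v => fb (L.e z₀ v) - c with hΦ
  have h03 : (0 : E2) ∈ ball (0 : E2) 3 := mem_ball_self (by norm_num)
  have he0 : L.e z₀ 0 ∈ L.e y '' O := by rw [L.e_zero]; exact hepO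
  have hΦs : ContDiffAt ℝ K Φ 0 :=
    (piece_fun hO hO3 hfO' hem h03 he0).sub contDiffAt_const
  have hΦ0 : Φ 0 = 0 := by
    simp only [hΦ, hc, L.e_zero, sub_self]
  obtain ⟨hdm, hτO⟩ := piece_dm h03 hO3 he0
  have hKne : (K : WithTop ℕ∞) ≠ 0 := by
    have : K ≠ 0 := by omega
    exact_mod_cast this
  have hΦd : fderiv ℝ Φ 0 ≠ 0 := by
    intro h0
    apply hgr _ hτO
    have hfd : DifferentiableAt ℝ f (L.τ z₀ y 0) :=
      ((hfO' _ hτO).contDiffAt (hO.mem_nhds hτO)).differentiableAt hKne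
    have hg := gradient_comp (F := f) (τ := L.τ z₀ y) hfd
      ((tau_contDiffAt L hem hdm).differentiableAt (by simp))
    have hg0 : gradient (fun v => f (L.τ z₀ y v)) 0 = 0 := by
      have h1 : gradient Φ 0 = gradient (fun v => f (L.τ z₀ y v)) 0 := by
        have := congrFun (gradient_sub_const (fun v => f (L.τ z₀ y v)) c) 0
        exact this
      rw [← h1, gradient_eq_riesz, Function.comp_apply, h0, map_zero]
    rw [hg0] at hg
    have hunit := isUnit_fderiv_tau L hem hdm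
    set D := fderiv ℝ (L.τ z₀ y) 0 with hD
    have h2 : star (Ring.inverse D) * star D = 1 := by
      rw [← star_mul, Ring.mul_inverse_cancel D hunit, star_one]
    have h3 : (star (Ring.inverse D) * star D) (gradient f (L.τ z₀ y 0)) = 0 := by
      have h4 : (star (Ring.inverse D) * star D) (gradient f (L.τ z₀ y 0)) =
          star (Ring.inverse D) (star D (gradient f (L.τ z₀ y 0))) := rfl
      rw [h4, ContinuousLinearMap.star_eq_adjoint D, ← hg, map_zero]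
    rw [h2] at h3
    exact h3
  -- the function in the forward coordinate
  have hG0 : W.F ζ (L.e (L.hol ζ o.x) 0) = 0 := by
    rw [L.e_zero, L.hol_ep _ _ hζx]
    exact W.base ζ hζ
  obtain ⟨p, hp, hp0, hpd, hprel⟩ := exists_p (G := fun u => W.F ζ (L.e (L.hol ζ o.x) u))
    (by omega : 1 ≤ K) (W.smooth ζ hζ) hG0 (W.deriv ζ hζ) hΦs hΦ0 hΦd
  obtain ⟨δ, hδ, hδp⟩ := Metric.mem_nhds_iff.1 hprel
  obtain ⟨ν, P, ψ, hν, hνg, hPL, hψ, hLm⟩ := hlead p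
    (hp.of_le (by exact_mod_cast le_max_right _ _)) hp0 hpd
  obtain ⟨S₁, hS₁⟩ := key_rel W γ hζ (fb := fb) (p := p) (c := c) hδ (fun v hv => hδp hv)
  obtain ⟨R, hR⟩ := bd_X W n.smooth hζ
  obtain ⟨C₂, hC₂⟩ := hLm.2 R
  obtain ⟨S₂, -, hS₂⟩ := exists_piece T (k := k') hO hO3
    (hfO'.of_le (by exact_mod_cast hKk)) (hWO'.of_le (by exact_mod_cast (by omega : k' ≤ K)))
    hem hepO
  have hS₃ : ∀ᶠ m : ℕ in atTop, max S₁ S₂ ≤ m * o.l :=
    (tendsto_natCast_atTop_atTop.atTop_mul_const hl).eventually_ge_atTop _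
  obtain ⟨m₀, hm₀⟩ := Filter.eventually_atTop.1 (hS₃.and (hR.and hC₂))
  have hSm : ∀ m ≥ m₀, S₁ ≤ m * o.l := fun m hm => (le_max_left _ _).trans (hm₀ m hm).1
  obtain ⟨C₀, hC₀, hb⟩ := hS₂ (m₀ * o.l) ((le_max_right _ _).trans (hm₀ m₀ le_rfl).1)
  obtain ⟨M₁, hM₁⟩ := orbit_bdd (T := T) hl hm1 hC (a := o.a) (z₀ := z₀) (fb := fb) (c := c) hν hνg
    (m₀ := m₀) hC₀ hb (le_max_right C₂ 0) (by
      intro m hm r hr u hu
      have h1 := hS₁ m r hr.1 (hSm m hm) u hu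
      rw [← hz₀] at h1
      rw [h1]
      have h2 := (hm₀ m hm).2.2 _ ((hm₀ m hm).2.1 r hr u hu)
      rw [abs_mul, abs_of_pos (hν m)] at h2
      exact h2.trans (le_max_left _ _))
  -- the sequence
  have htimes : ∀ᶠ m : ℕ in atTop, m₀ ≤ m ∧ L.t1 ≤ ((m : ℝ) - m₀) * o.l := by
    have h1 : Tendsto (fun m : ℕ => ((m : ℝ) - m₀) * o.l) atTop atTop :=
      (tendsto_atTop_add_const_right _ _ tendsto_natCast_atTop_atTop).atTop_mul_const hl
    exact (eventually_ge_atTop m₀).and (h1.eventually_ge_atTop _)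
  obtain ⟨n₀, hn₀⟩ := Filter.eventually_atTop.1 (hψ.eventually htimes)
  set ψ' : ℕ → ℕ := fun i => ψ (i + n₀) with hψ'
  have hψ't : Tendsto ψ' atTop atTop := hψ.comp (tendsto_add_atTop_nat n₀)
  set z : ℕ → X := fun i => L.φ (ψ' i * o.l) (L.rot (o.a ^ ψ' i) z₀) with hzdef
  have hbd : ∀ i, CkB (k' + 1) 2 (C * (M₁ / ν (ψ' i))) (fun u => fb (L.e (z i) u) - c) ∧
      CkB k' 2 (C * (M₁ / ν (ψ' i))) (Wf T fb (z i)) := by
    intro i
    have h1 := hn₀ (i + n₀) (Nat.le_add_left _ _)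
    exact hM₁ (ψ' i) h1.1 h1.2
  have hνe : ∀ i, ν (ψ' i) * (C * (M₁ / ν (ψ' i))) = C * M₁ := by
    intro i
    have := (hν (ψ' i)).ne'
    field_simp
  have hk'2 : k + 1 + 1 ≤ k' := le_max_right _ _
  -- the frames converge
  have hzlim : Tendsto (fun i => (γ * o.β ^ ψ' i)⁻¹ • z i) atTop (𝓝 o.x) := by
    have h1 := (tends_fr o hζ).comp hψ't
    refine h1.congr fun i => ?_
    have h2 := zfr_eq o γ hζ (ψ' i) 0
    rw [add_zero, L.φ_zero, ← hz₀] at h2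
    simp only [Function.comp_apply, hzdef]
    have h6 : ∀ A : X, A = (γ * o.β ^ ψ' i)⁻¹ • γ • o.β ^ ψ' i • A := fun A => by
      rw [← mul_smul γ, inv_smul_smul]
    rw [← h2]
    exact h6 _
  -- the functions converge
  have hFlim : ∀ u ∈ ball (0 : E2) 2, Tendsto (fun i => ν (ψ' i) * (fb (L.e (z i) u) - c)) atTop
      (𝓝 (P (n.g u))) := by
    intro u hu
    have hu3 : u ∈ ball (0 : E2) 3 := ball_subset_ball (by norm_num) hu
    have h1 := (tends_X W hζ hu3).comp hψ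
    have h2 := hLm.1 (fun i => W.F ζ (Ept o ζ (ψ i) 0 u)) (n.g u) h1
    have h3 := h2.comp (tendsto_add_atTop_nat n₀)
    refine h3.congr fun i => ?_
    have h4 := hn₀ (i + n₀) (Nat.le_add_left _ _)
    have h5 := hS₁ (ψ' i) 0 le_rfl (hSm _ h4.1) u hu3
    rw [← hz₀, add_zero] at h5
    simp only [Function.comp_apply, hzdef]
    rw [h5]
  have hlim := lim_rule T (l := (atTop : Filter ℕ)) hzlim
    (F := fun i u => ν (ψ' i) * (fb (L.e (z i) u) - c)) (G := fun u => P (n.g u)) (k := k + 1)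
    (by omega) (C := C * M₁) (C' := C * M₁)
    (fun i => by
      have h1 := CkB_const_smul (hbd i).1 (hν (ψ' i)).le
      rw [hνe] at h1
      exact h1.mono (by omega) le_rfl le_rfl)
    hFlim
    (fun i => by
      have h1 := CkB_const_smul (hbd i).2 (hν (ψ' i)).le
      rw [hνe] at h1
      refine CkB_congr (h1.mono hk'2 le_rfl le_rfl) fun u hu => ?_
      rw [gradient_const_mul, gradient_sub_const, map_smul]
      rfl)
  refine ⟨P, hPL, ?_⟩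
  exact (hlim.2.1.contDiffAt (mem_ball_self (by norm_num))).of_le
    (by exact_mod_cast Nat.le_succ k)

/-- **N3-P13L.** -/
theorem limDir (T : Tens L) (hS : ∀ K, Start T K)
    (hF : ∀ (o : Orb L) (n : Nor L o), ∃ c, Nonempty (H147.Fwd o n.x n.N.fn c)) :
    ∀ k, LimDir T k := by
  intro k o n
  obtain ⟨c, ⟨W⟩⟩ := hF o n
  exact limDir_one hS n W k

end Vale.Agent.P207.N3.H545
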