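import Mathlib

/-!
N3-P5 (helper545): exact top order chain rule estimate
`‖D^k (A · (Z ∘ τ))(x)‖ ≤ ‖A x‖ ‖Dτ x‖^k ‖D^k Z (τ x)‖ + K ∑_{j<k} ‖D^j Z (τ x)‖`.
-/

set_option maxSynthPendingDepth 3

open Set Filter Topology Metric

namespace Vale.Agent.P207.N3.H545

universe u

section Bilin

variable {D : Type*} {E : Type*} {F : Type*} {G : Type*}
  [NormedAddCommGroup D] [NormedSpace ℝ D] [NormedAddCommGroup E] [NormedSpace ℝ E]
  [NormedAddCommGroup F] [NormedSpace ℝ F] [NormedAddCommGroup G] [NormedSpace ℝ G]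

theorem exists_open_contDiffOn {f : D → E} {n : ℕ} {x : D} (hf : ContDiffAt ℝ n f x) :
    ∃ u, IsOpen u ∧ x ∈ u ∧ ContDiffOn ℝ n f u := by
  obtain ⟨u, hu, hxu, h⟩ := (hf.contDiffWithinAt (s := univ)).contDiffOn' le_rfl (by simp)
  exact ⟨u, hu, hxu, by simpa using h⟩

/-- pointwise version of the bilinear Leibniz bound. -/
theorem norm_iteratedFDeriv_bilin_at (B : E →L[ℝ] F →L[ℝ] G) {f : D → E} {g : D → F} {n : ℕ}
    {x : D} (hf : ContDiffAt ℝ n f x) (hg : ContDiffAt ℝ n g x) :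
    ‖iteratedFDeriv ℝ n (fun y => B (f y) (g y)) x‖ ≤
      ‖B‖ * ∑ i ∈ Finset.range (n + 1), (n.choose i : ℝ) * ‖iteratedFDeriv ℝ i f x‖ *
        ‖iteratedFDeriv ℝ (n - i) g x‖ := by
  obtain ⟨u, hu, hxu, hfu⟩ := exists_open_contDiffOn hf
  obtain ⟨v, hv, hxv, hgv⟩ := exists_open_contDiffOn hg
  have hw : IsOpen (u ∩ v) := hu.inter hv
  have hx : x ∈ u ∩ v := ⟨hxu, hxv⟩
  have hf' : ContDiffOn ℝ n f (u ∩ v) := hfu.mono inter_subset_left
  have hg' : ContDiffOn ℝ n g (u ∩ v) := hgv.mono inter_subset_right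
  have key := B.norm_iteratedFDerivWithin_le_of_bilinear hf' hg' hw.uniqueDiffOn hx
    (n := n) le_rfl
  have hB : ContDiffAt ℝ n (fun y => B (f y) (g y)) x :=
    (B.isBoundedBilinearMap.contDiff.contDiffAt).comp x (hf.prodMk hg)
  rw [iteratedFDerivWithin_eq_iteratedFDeriv hw.uniqueDiffOn hB hx] at key
  refine key.trans (le_of_eq ?_)
  congr 1
  refine Finset.sum_congr rfl fun i hi => ?_
  have hi' : i ≤ n := Nat.lt_succ_iff.mp (Finset.mem_range.mp hi)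
  rw [iteratedFDerivWithin_eq_iteratedFDeriv hw.uniqueDiffOn
      (hf.of_le (by exact_mod_cast hi')) hx,
    iteratedFDerivWithin_eq_iteratedFDeriv hw.uniqueDiffOn
      (hg.of_le (by exact_mod_cast Nat.sub_le n i)) hx]

/-- crude form: all derivatives of `f`, `g` of order `≤ n` bounded by `a`, `b`. -/
theorem norm_iteratedFDeriv_bilin_le (B : E →L[ℝ] F →L[ℝ] G) {f : D → E} {g : D → F} {n : ℕ}
    {x : D} (hf : ContDiffAt ℝ n f x) (hg : ContDiffAt ℝ n g x) {a b : ℝ}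
    (ha : ∀ i ≤ n, ‖iteratedFDeriv ℝ i f x‖ ≤ a) (hb : ∀ i ≤ n, ‖iteratedFDeriv ℝ i g x‖ ≤ b) :
    ‖iteratedFDeriv ℝ n (fun y => B (f y) (g y)) x‖ ≤ ‖B‖ * (2 ^ n * (a * b)) := by
  refine (norm_iteratedFDeriv_bilin_at B hf hg).trans ?_
  have ha0 : 0 ≤ a := (norm_nonneg _).trans (ha 0 (Nat.zero_le _))
  refine mul_le_mul_of_nonneg_left ?_ (norm_nonneg _)
  calc ∑ i ∈ Finset.range (n + 1), (n.choose i : ℝ) * ‖iteratedFDeriv ℝ i f x‖ *
        ‖iteratedFDeriv ℝ (n - i) g x‖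
      ≤ ∑ i ∈ Finset.range (n + 1), (n.choose i : ℝ) * (a * b) := by
        refine Finset.sum_le_sum fun i hi => ?_
        have hi' : i ≤ n := Nat.lt_succ_iff.mp (Finset.mem_range.mp hi)
        rw [mul_assoc]
        refine mul_le_mul_of_nonneg_left ?_ (by positivity)
        exact mul_le_mul (ha i hi') (hb _ (Nat.sub_le _ _)) (norm_nonneg _) ha0
    _ = 2 ^ n * (a * b) := by
        rw [← Finset.sum_mul]
        congr 1
        exact_mod_cast Nat.sum_range_choose n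

end Bilin

section Top

variable {E E' : Type u} [NormedAddCommGroup E] [NormedSpace ℝ E]
  [NormedAddCommGroup E'] [NormedSpace ℝ E']

/-- the bilinear map `(A, T) ↦ (L ↦ A ∘ L ∘ T)` has norm `≤ 1`. -/
noncomputable def sandwich (E E' F F' : Type u) [NormedAddCommGroup E] [NormedSpace ℝ E]
    [NormedAddCommGroup E'] [NormedSpace ℝ E'] [NormedAddCommGroup F] [NormedSpace ℝ F]
    [NormedAddCommGroup F'] [NormedSpace ℝ F'] :
    (F →L[ℝ] F') →L[ℝ] (E →L[ℝ] E') →L[ℝ] ((E' →L[ℝ] F) →L[ℝ] (E →L[ℝ] F')) :=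
  LinearMap.mkContinuous₂
    (LinearMap.mk₂ ℝ (fun (A : F →L[ℝ] F') (T : E →L[ℝ] E') =>
      ((ContinuousLinearMap.compL ℝ E E' F').flip T).comp (ContinuousLinearMap.compL ℝ E' F F' A))
      (by intro A A' T; ext L v; simp)
      (by intro c A T; ext L v; simp)
      (by intro A T T'; ext L v; simp)
      (by intro c A T; ext L v; simp)) 1
    (by
      intro A T
      refine ContinuousLinearMap.opNorm_le_bound _ (by positivity) fun L => ?_
      simp only [LinearMap.mk₂_apply, ContinuousLinearMap.comp_apply,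
        ContinuousLinearMap.compL_apply, ContinuousLinearMap.flip_apply]
      calc ‖(A.comp L).comp T‖ ≤ ‖A.comp L‖ * ‖T‖ := ContinuousLinearMap.opNorm_comp_le _ _
        _ ≤ (‖A‖ * ‖L‖) * ‖T‖ := by gcongr; exact ContinuousLinearMap.opNorm_comp_le _ _
        _ = 1 * ‖A‖ * ‖T‖ * ‖L‖ := by ring)

theorem sandwich_apply {F F' : Type u} [NormedAddCommGroup F] [NormedSpace ℝ F]
    [NormedAddCommGroup F'] [NormedSpace ℝ F'] (A : F →L[ℝ] F') (T : E →L[ℝ] E')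
    (L : E' →L[ℝ] F) (v : E) : sandwich E E' F F' A T L v = A (L (T v)) := rfl

theorem norm_sandwich_le {F F' : Type u} [NormedAddCommGroup F] [NormedSpace ℝ F]
    [NormedAddCommGroup F'] [NormedSpace ℝ F'] : ‖sandwich E E' F F'‖ ≤ 1 :=
  LinearMap.mkContinuous₂_norm_le _ zero_le_one _

theorem norm_sandwich_apply_le {F F' : Type u} [NormedAddCommGroup F] [NormedSpace ℝ F]
    [NormedAddCommGroup F'] [NormedSpace ℝ F'] (A : F →L[ℝ] F') (T : E →L[ℝ] E') :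
    ‖sandwich E E' F F' A T‖ ≤ ‖A‖ * ‖T‖ := by
  refine ((sandwich E E' F F').le_opNorm₂ A T).trans ?_
  calc ‖sandwich E E' F F'‖ * ‖A‖ * ‖T‖ ≤ 1 * ‖A‖ * ‖T‖ := by
        gcongr; exact norm_sandwich_le
    _ = _ := by ring

/-- EXACT TOP ORDER CHAIN RULE ESTIMATE. -/
theorem exists_top_order (E E' : Type u) [NormedAddCommGroup E] [NormedSpace ℝ E]
    [NormedAddCommGroup E'] [NormedSpace ℝ E'] (k : ℕ) : ∀ a : ℝ, 0 ≤ a → ∃ K : ℝ, 0 ≤ K ∧
    ∀ (F F' : Type u) [NormedAddCommGroup F] [NormedSpace ℝ F] [NormedAddCommGroup F']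
      [NormedSpace ℝ F'] (A : E → (F →L[ℝ] F')) (Z : E' → F) (τ : E → E') (x : E),
      ContDiffAt ℝ k A x → ContDiffAt ℝ k τ x → ContDiffAt ℝ k Z (τ x) →
      (∀ i ≤ k, ‖iteratedFDeriv ℝ i A x‖ ≤ a) →
      (∀ i, 1 ≤ i → i ≤ k → ‖iteratedFDeriv ℝ i τ x‖ ≤ a) →
      ‖iteratedFDeriv ℝ k (fun y => A y (Z (τ y))) x‖ ≤
        ‖A x‖ * ‖fderiv ℝ τ x‖ ^ k * ‖iteratedFDeriv ℝ k Z (τ x)‖ +
          K * ∑ j ∈ Finset.range k, ‖iteratedFDeriv ℝ j Z (τ x)‖ := by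
  induction k with
  | zero =>
    intro a _
    refine ⟨0, le_rfl, ?_⟩
    intro F F' _ _ _ _ A Z τ x _ _ _ _ _
    simp only [norm_iteratedFDeriv_zero, pow_zero, mul_one, zero_mul, add_zero]
    exact (A x).le_opNorm _
  | succ k ih =>
    intro a ha
    obtain ⟨K₁, hK₁0, hK₁⟩ := ih a ha
    obtain ⟨K₂, hK₂0, hK₂⟩ := ih (2 ^ k * (a * a) + a) (by positivity)
    refine ⟨a * a ^ k + K₁ + K₂, by positivity, ?_⟩
    intro F F' _ _ _ _ A Z τ x hA hτ hZ hAa hτa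
    have hk : ((k + 1 : ℕ) : WithTop ℕ∞) = (k : WithTop ℕ∞) + 1 := by push_cast; rfl
    have hk1 : ((k + 1 : ℕ) : WithTop ℕ∞) ≠ 0 := by
      rw [hk]; exact_mod_cast Nat.succ_ne_zero k
    -- the two factors of the derivative
    set B : E → (F →L[ℝ] (E →L[ℝ] F')) := fun y => (fderiv ℝ A y).flip with hBdef
    set A₁ : E → ((E' →L[ℝ] F) →L[ℝ] (E →L[ℝ] F')) :=
      fun y => sandwich E E' F F' (A y) (fderiv ℝ τ y) with hA₁def
    have hdA : ContDiffAt ℝ k (fderiv ℝ A) x := (hA.fderiv_right (m := k) (by rw [hk]))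
    have hdτ : ContDiffAt ℝ k (fderiv ℝ τ) x := (hτ.fderiv_right (m := k) (by rw [hk]))
    have hdZ : ContDiffAt ℝ k (fderiv ℝ Z) (τ x) := (hZ.fderiv_right (m := k) (by rw [hk]))
    have hAk : ContDiffAt ℝ k A x := hA.of_le (by exact_mod_cast Nat.le_succ k)
    have hτk : ContDiffAt ℝ k τ x := hτ.of_le (by exact_mod_cast Nat.le_succ k)
    have hZk : ContDiffAt ℝ k Z (τ x) := hZ.of_le (by exact_mod_cast Nat.le_succ k)
    have hB : ContDiffAt ℝ k B x :=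
      ((ContinuousLinearMap.flipₗᵢ ℝ E F F').toContinuousLinearEquiv.contDiff.contDiffAt).comp x hdA
    have hA₁ : ContDiffAt ℝ k A₁ x := by
      have h1 : ContDiffAt ℝ k (fun y => sandwich E E' F F' (A y)) x :=
        ((sandwich E E' F F').contDiff.contDiffAt).comp x hAk
      exact h1.clm_apply hdτ
    -- formula for the derivative near `x`
    have hev : ∀ᶠ y in 𝓝 x, fderiv ℝ (fun y => A y (Z (τ y))) y =
        B y (Z (τ y)) + A₁ y (fderiv ℝ Z (τ y)) := by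
      have e1 : ∀ᶠ y in 𝓝 x, ContDiffAt ℝ ((k + 1 : ℕ) : WithTop ℕ∞) A y :=
        hA.eventually (by simp)
      have e2 : ∀ᶠ y in 𝓝 x, ContDiffAt ℝ ((k + 1 : ℕ) : WithTop ℕ∞) τ y :=
        hτ.eventually (by simp)
      have e3 : ∀ᶠ y in 𝓝 x, ContDiffAt ℝ ((k + 1 : ℕ) : WithTop ℕ∞) Z (τ y) :=
        hτ.continuousAt.eventually (hZ.eventually (by simp))
      filter_upwards [e1, e2, e3] with y h1 h2 h3
      have d1 : HasFDerivAt A (fderiv ℝ A y) y := (h1.differentiableAt hk1).hasFDerivAt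
      have d2 : HasFDerivAt τ (fderiv ℝ τ y) y := (h2.differentiableAt hk1).hasFDerivAt
      have d3 : HasFDerivAt Z (fderiv ℝ Z (τ y)) (τ y) := (h3.differentiableAt hk1).hasFDerivAt
      have d4 : HasFDerivAt (fun y => Z (τ y)) ((fderiv ℝ Z (τ y)).comp (fderiv ℝ τ y)) y :=
        d3.comp y d2
      have d5 := (d1.clm_apply d4).fderiv
      rw [d5]
      ext v
      simp [hBdef, hA₁def, sandwich_apply, add_comm]
    have hB' : ContDiffAt ℝ k (fun y => B y (Z (τ y))) x := hB.clm_apply (hZk.comp x hτk)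
    have hA₁' : ContDiffAt ℝ k (fun y => A₁ y (fderiv ℝ Z (τ y))) x :=
      hA₁.clm_apply (hdZ.comp x hτk)
    have hnorm : ‖iteratedFDeriv ℝ (k + 1) (fun y => A y (Z (τ y))) x‖ ≤
        ‖iteratedFDeriv ℝ k (fun y => B y (Z (τ y))) x‖ +
          ‖iteratedFDeriv ℝ k (fun y => A₁ y (fderiv ℝ Z (τ y))) x‖ := by
      rw [← norm_iteratedFDeriv_fderiv]
      rw [(Filter.EventuallyEq.iteratedFDeriv (𝕜 := ℝ) hev k).eq_of_nhds]
      have := fun_iteratedFDeriv_add_apply (𝕜 := ℝ) (i := k) hB' hA₁'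
      rw [this]
      exact norm_add_le _ _
    have b1 := hK₁ F (E →L[ℝ] F') B Z τ x hB hτk hZk
      (by
        intro i hi
        have := LinearIsometryEquiv.norm_iteratedFDeriv_comp_left
          (ContinuousLinearMap.flipₗᵢ ℝ E F F') (fderiv ℝ A) x i
        have h2 : ‖iteratedFDeriv ℝ i B x‖ = ‖iteratedFDeriv ℝ i (fderiv ℝ A) x‖ := this
        rw [h2, norm_iteratedFDeriv_fderiv]
        exact hAa (i + 1) (by omega))
      (fun i h1 h2 => hτa i h1 (by omega))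
    have b2 := hK₂ (E' →L[ℝ] F) (E →L[ℝ] F') A₁ (fderiv ℝ Z) τ x hA₁ hτk hdZ
      (by
        intro i hi
        have h0 := norm_iteratedFDeriv_bilin_le (n := i) (sandwich E E' F F')
          (hAk.of_le (by exact_mod_cast hi)) (hdτ.of_le (by exact_mod_cast hi)) (a := a) (b := a)
          (fun j hj => hAa j (by omega))
          (fun j hj => by
            rw [norm_iteratedFDeriv_fderiv]; exact hτa (j + 1) (by omega) (by omega))
        refine h0.trans ?_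
        have h3 : ‖sandwich E E' F F'‖ * (2 ^ i * (a * a)) ≤ 1 * (2 ^ k * (a * a)) := by
          refine mul_le_mul norm_sandwich_le ?_ (by positivity) zero_le_one
          exact mul_le_mul_of_nonneg_right
            (pow_le_pow_right₀ (by norm_num) hi) (by positivity)
        linarith)
      (fun i h1 h2 => (hτa i h1 (by omega)).trans (by nlinarith [pow_pos (show (0:ℝ) < 2 by norm_num) k, mul_nonneg ha ha, mul_nonneg (pow_pos (show (0:ℝ) < 2 by norm_num) k).le (mul_nonneg ha ha)]))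
    have hdτ1 : ‖fderiv ℝ τ x‖ ≤ a := by
      have := hτa 1 le_rfl (by omega)
      rwa [norm_iteratedFDeriv_one] at this
    have hBx : ‖B x‖ ≤ a := by
      have := hAa 1 (by omega)
      rw [norm_iteratedFDeriv_one] at this
      have h2 : ‖B x‖ = ‖fderiv ℝ A x‖ := ContinuousLinearMap.opNorm_flip _
      rw [h2]; exact this
    have hA₁x : ‖A₁ x‖ ≤ ‖A x‖ * ‖fderiv ℝ τ x‖ := norm_sandwich_apply_le _ _
    refine hnorm.trans ?_
    set S : ℝ := ∑ j ∈ Finset.range (k + 1), ‖iteratedFDeriv ℝ j Z (τ x)‖ with hS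
    have hS0 : ∑ j ∈ Finset.range k, ‖iteratedFDeriv ℝ j Z (τ x)‖ ≤ S := by
      rw [hS, Finset.sum_range_succ]; linarith [norm_nonneg (iteratedFDeriv ℝ k Z (τ x))]
    have hSk : ‖iteratedFDeriv ℝ k Z (τ x)‖ ≤ S := by
      rw [hS, Finset.sum_range_succ]
      have : 0 ≤ ∑ j ∈ Finset.range k, ‖iteratedFDeriv ℝ j Z (τ x)‖ :=
        Finset.sum_nonneg fun _ _ => norm_nonneg _
      linarith
    have hS1 : ∑ j ∈ Finset.range k, ‖iteratedFDeriv ℝ j (fderiv ℝ Z) (τ x)‖ ≤ S := by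
      rw [hS, Finset.sum_range_succ']
      have : ∑ j ∈ Finset.range k, ‖iteratedFDeriv ℝ j (fderiv ℝ Z) (τ x)‖ =
          ∑ j ∈ Finset.range k, ‖iteratedFDeriv ℝ (j + 1) Z (τ x)‖ :=
        Finset.sum_congr rfl fun j _ => norm_iteratedFDeriv_fderiv
      rw [this]
      linarith [norm_nonneg (iteratedFDeriv ℝ 0 Z (τ x))]
    have hSnn : 0 ≤ S := Finset.sum_nonneg fun _ _ => norm_nonneg _
    have t1 : ‖B x‖ * ‖fderiv ℝ τ x‖ ^ k * ‖iteratedFDeriv ℝ k Z (τ x)‖ ≤ a * a ^ k * S := by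
      refine mul_le_mul ?_ hSk (norm_nonneg _) (by positivity)
      exact mul_le_mul hBx (pow_le_pow_left₀ (norm_nonneg _) hdτ1 k) (by positivity) ha
    have t2 : ‖A₁ x‖ * ‖fderiv ℝ τ x‖ ^ k * ‖iteratedFDeriv ℝ k (fderiv ℝ Z) (τ x)‖ ≤
        ‖A x‖ * ‖fderiv ℝ τ x‖ ^ (k + 1) * ‖iteratedFDeriv ℝ (k + 1) Z (τ x)‖ := by
      rw [norm_iteratedFDeriv_fderiv]
      refine mul_le_mul_of_nonneg_right ?_ (norm_nonneg _)
      calc ‖A₁ x‖ * ‖fderiv ℝ τ x‖ ^ k ≤ (‖A x‖ * ‖fderiv ℝ τ x‖) * ‖fderiv ℝ τ x‖ ^ k :=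
            mul_le_mul_of_nonneg_right hA₁x (by positivity)
        _ = ‖A x‖ * ‖fderiv ℝ τ x‖ ^ (k + 1) := by ring
    calc _ ≤ (‖B x‖ * ‖fderiv ℝ τ x‖ ^ k * ‖iteratedFDeriv ℝ k Z (τ x)‖ +
            K₁ * ∑ j ∈ Finset.range k, ‖iteratedFDeriv ℝ j Z (τ x)‖) +
          (‖A₁ x‖ * ‖fderiv ℝ τ x‖ ^ k * ‖iteratedFDeriv ℝ k (fderiv ℝ Z) (τ x)‖ +
            K₂ * ∑ j ∈ Finset.range k, ‖iteratedFDeriv ℝ j (fderiv ℝ Z) (τ x)‖) :=
          add_le_add b1 b2
      _ ≤ (a * a ^ k * S + K₁ * S) +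
          (‖A x‖ * ‖fderiv ℝ τ x‖ ^ (k + 1) * ‖iteratedFDeriv ℝ (k + 1) Z (τ x)‖ + K₂ * S) := by
          gcongr
      _ = _ := by ring

end Top

end Vale.Agent.P207.N3.H545
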