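import Vale.Agent.P207.N3.H545.Dir
import Vale.Agent.P207.N3.Top.Defs

/-!
N3-P13L (helper545), part 2: a function with `E^s(df, ·)` of class `C^K` on an open piece of a leaf,
seen from the other charts of the leaf; rotations; contraction of the discs.
-/

set_option maxSynthPendingDepth 3

open Set Filter Topology Metric
open scoped ContDiff

noncomputable section

namespace Vale.Agent.P207.N3.H545

open Vale.Agent.P207.N3

variable {Γ X B : Type} [Group Γ] [MetricSpace X] [ProperSpace X] [MulAction Γ X]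
  [IsIsometricSMul Γ X] [TopologicalSpace B] [CompactSpace B] [T2Space B] [MulAction Γ B]
  [ContinuousConstSMul Γ B]

variable (L : Leaf Γ X B)

/-! ### Geometry -/

theorem isOpen_image_sub (y : X) {O : Set E2} (hO : IsOpen O) (hO3 : O ⊆ ball 0 3) :
    IsOpen (L.e y '' O) := by
  have h1 : L.e y '' O = (L.e y '' ball (0 : E2) 3) \ (L.e y '' (closedBall (0 : E2) 3 \ O)) := by
    ext η
    constructor
    · rintro ⟨u, hu, rfl⟩
      refine ⟨⟨u, hO3 hu, rfl⟩, ?_⟩
      rintro ⟨v, hv, he⟩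
      have := L.e_inj y hv.1 (ball_subset_closedBall (hO3 hu)) he
      exact hv.2 (this ▸ hu)
    · rintro ⟨⟨u, hu, rfl⟩, hn⟩
      by_contra hcon
      exact hn ⟨u, ⟨ball_subset_closedBall hu, fun h => hcon ⟨u, h, rfl⟩⟩, rfl⟩
  rw [h1]
  exact (isOpen_image L y).sdiff ((((isCompact_closedBall _ _).diff hO).image_of_continuousOn
    ((e_contOn L y).mono sdiff_subset)).isClosed)

/-- the discs `e (φ_s x)` shrink to `ep x` in the chart `e x`, uniformly -/
theorem exists_contr {δ : ℝ} (hδ : 0 < δ) : ∃ S, L.t1 ≤ S ∧ ∀ x, ∀ s ≥ S,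
    ∀ u ∈ ball (0 : E2) 3, ∃ v ∈ ball (0 : E2) δ, v ∈ ball (0 : E2) 1 ∧
      L.e (L.φ s x) u = L.e x v := by
  obtain ⟨C, hC⟩ := L.contract 1 le_rfl
  have h1 : Tendsto (fun s : ℝ => 3 * (max C 1 * Real.exp (-L.χ * s))) atTop (𝓝 0) := by
    have e1 : Tendsto (fun s : ℝ => L.χ * s) atTop atTop := tendsto_id.const_mul_atTop L.χ_pos
    have e2 := ((Real.tendsto_exp_neg_atTop_nhds_zero.comp e1).const_mul (max C 1)).const_mul 3
    rw [mul_zero, mul_zero] at e2
    refine e2.congr fun s => ?_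
    simp only [Function.comp_apply, neg_mul]
  obtain ⟨S, hS⟩ := Filter.eventually_atTop.1 (h1.eventually (gt_mem_nhds hδ))
  refine ⟨max S L.t1, le_max_right _ _, fun x s hs u hu => ?_⟩
  have hs1 : L.t1 ≤ s := (le_max_right _ _).trans hs
  have hs2 : S ≤ s := (le_max_left _ _).trans hs
  refine ⟨L.τ (L.φ s x) x u, ?_, tau_step_mem L hs1 x (ball_subset_closedBall hu),
    (e_tau_step L hs1 x (ball_subset_closedBall hu)).symm⟩
  have h0 : L.τ (L.φ s x) x 0 = 0 := by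
    refine tau_eq_of L (mem_closedBall_self (by norm_num)) ?_
    rw [L.e_zero, L.e_zero, L.ep_flip, L.ep_flip, L.flip_φ, L.em_φ]
  have h2 := (convex_ball (0 : E2) 3).norm_image_sub_le_of_norm_fderiv_le (𝕜 := ℝ)
    (f := L.τ (L.φ s x) x) (C := max C 1 * Real.exp (-L.χ * s)) (x := 0) (y := u)
    (fun v hv => by
      have hdm : v ∈ L.dm (L.φ s x) x := by rw [dm_step L hs1 x]; exact hv
      exact (tau_contDiffAt L (L.em_φ s x) hdm).differentiableAt (by simp))
    (fun v hv => by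
      have h3 := hC x s hs1 v hv
      rw [norm_iteratedFDeriv_one] at h3
      exact h3.trans (mul_le_mul_of_nonneg_right (le_max_left _ _) (Real.exp_pos _).le))
    (mem_ball_self (by norm_num)) hu
  rw [h0, sub_zero, sub_zero] at h2
  rw [mem_ball_zero_iff] at hu ⊢
  refine lt_of_le_of_lt ?_ (hS s hs2)
  refine h2.trans ?_
  rw [mul_comm]
  exact mul_le_mul_of_nonneg_right hu.le (by positivity)

theorem e_rot_inv (b : O2) (x : X) {v : E2} (hv : v ∈ closedBall (0 : E2) 3) :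
    L.e x v = L.e (L.rot b x) (b.symm v) := by
  rw [L.e_rot b x (b.symm v) (by
    rw [mem_closedBall_zero_iff] at hv ⊢
    rwa [LinearIsometryEquiv.norm_map]), b.apply_symm_apply]

/-! ### Functions on a piece of a leaf -/

/-- a function on the disc `e y` as a function on `B` -/
def fB (y : X) (f : E2 → ℝ) (η : B) : ℝ := f (Function.invFunOn (L.e y) (closedBall (0 : E2) 3) η)

theorem fB_e (y : X) (f : E2 → ℝ) (z : X) (u : E2) : fB L y f (L.e z u) = f (L.τ z y u) := rfl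

variable {L}

section Piece

variable {y : X} {O : Set E2} {f : E2 → ℝ}

theorem piece_dm {z : X} {u : E2} (hu : u ∈ ball (0 : E2) 3)
    (hO3 : O ⊆ ball 0 3) (he : L.e z u ∈ L.e y '' O) : u ∈ L.dm z y ∧ L.τ z y u ∈ O := by
  obtain ⟨w, hw, hwe⟩ := he
  refine ⟨⟨hu, w, hO3 hw, hwe⟩, ?_⟩
  rw [tau_eq_of L (ball_subset_closedBall (hO3 hw)) hwe]; exact hw

theorem piece_fun {k : ℕ} (hO : IsOpen O) (hO3 : O ⊆ ball 0 3) (hf : ContDiffOn ℝ k f O) {z : X}
    (hz : L.em z = L.em y) {u : E2} (hu : u ∈ ball (0 : E2) 3) (he : L.e z u ∈ L.e y '' O) :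
    ContDiffAt ℝ k (fun v => fB L y f (L.e z v)) u := by
  obtain ⟨h1, h2⟩ := piece_dm hu hO3 he
  have h3 : ContDiffAt ℝ k (L.τ z y) u := (tau_contDiffAt L hz h1).of_le (by exact_mod_cast le_top)
  exact ((hf _ h2).contDiffAt (hO.mem_nhds h2)).comp u h3

theorem piece_W {T : Tens L} {k : ℕ} (hO : IsOpen O) (hO3 : O ⊆ ball 0 3)
    (hf : ContDiffOn ℝ (k + 1 : ℕ) f O)
    (hW : ContDiffOn ℝ k (fun u => T.N y u (gradient f u)) O) {z : X}
    (hz : L.em z = L.em y) {u : E2} (hu : u ∈ ball (0 : E2) 3) (he : L.e z u ∈ L.e y '' O) :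
    ContDiffAt ℝ k (Wf T (fB L y f) z) u := by
  obtain ⟨h1, h2⟩ := piece_dm hu hO3 he
  -- the formula near `u`
  have hnear : ∀ᶠ v in 𝓝 u, v ∈ L.dm z y ∧ L.τ z y v ∈ O := by
    have e1 : ∀ᶠ v in 𝓝 u, v ∈ L.dm z y := (isOpen_dm L z y).mem_nhds h1
    have e2 : ∀ᶠ v in 𝓝 u, L.τ z y v ∈ O :=
      (tau_contDiffAt L hz h1).continuousAt (hO.mem_nhds h2)
    exact e1.and e2
  have hform : ∀ v, v ∈ L.dm z y → L.τ z y v ∈ O → Wf T (fB L y f) z v =
      Ring.inverse (fderiv ℝ (L.τ z y) v) ((fun w => T.N y w (gradient f w)) (L.τ z y v) -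
        T.R z y v (gradient f (L.τ z y v))) := by
    intro v hv hvO
    set D := fderiv ℝ (L.τ z y) v with hD
    have hunit : IsUnit D := isUnit_fderiv_tau L hz hv
    have hg : grd L (fB L y f) z v = star D (gradient f (L.τ z y v)) := by
      unfold grd
      have hfd : DifferentiableAt ℝ f (L.τ z y v) :=
        ((hf _ hvO).contDiffAt (hO.mem_nhds hvO)).differentiableAt (by
          have : ((k + 1 : ℕ) : WithTop ℕ∞) ≠ 0 := by exact_mod_cast Nat.succ_ne_zero k
          exact this)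
      have := gradient_comp (F := f) (τ := L.τ z y) hfd
        ((tau_contDiffAt L hz hv).differentiableAt (by simp))
      rw [ContinuousLinearMap.star_eq_adjoint]
      exact this
    have hR := T.R_eq z y hz v hv
    have e1 : T.N y (L.τ z y v) (gradient f (L.τ z y v)) =
        D (T.N z v (star D (gradient f (L.τ z y v)))) + T.R z y v (gradient f (L.τ z y v)) := by
      rw [hR]; rfl
    simp only
    rw [e1, add_sub_cancel_right, ← hg]
    have e2 : Ring.inverse D (D (T.N z v (grd L (fB L y f) z v))) =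
        (Ring.inverse D * D) (T.N z v (grd L (fB L y f) z v)) := rfl
    rw [e2, Ring.inverse_mul_cancel D hunit]
    rfl
  have hcongr : Wf T (fB L y f) z =ᶠ[𝓝 u] fun v => Ring.inverse (fderiv ℝ (L.τ z y) v)
      ((fun w => T.N y w (gradient f w)) (L.τ z y v) - T.R z y v (gradient f (L.τ z y v))) := by
    filter_upwards [hnear] with v hv using hform v hv.1 hv.2
  refine ContDiffAt.congr_of_eventuallyEq ?_ hcongr
  have hτ : ContDiffAt ℝ ∞ (L.τ z y) u := tau_contDiffAt L hz h1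
  have hτk : ContDiffAt ℝ k (L.τ z y) u := hτ.of_le (by exact_mod_cast le_top)
  have hDτ : ContDiffAt ℝ k (fderiv ℝ (L.τ z y)) u :=
    hτ.fderiv_right (m := (k : WithTop ℕ∞)) (by exact_mod_cast le_top)
  have hinv : ContDiffAt ℝ k (fun v => Ring.inverse (fderiv ℝ (L.τ z y) v)) u := by
    obtain ⟨U, hU⟩ := isUnit_fderiv_tau L hz h1
    have h3 : ContDiffAt ℝ k (Ring.inverse : (E2 →L[ℝ] E2) → (E2 →L[ℝ] E2))
        (fderiv ℝ (L.τ z y) u) := by
      rw [← hU]; exact contDiffAt_ringInverse ℝ U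
    exact h3.comp u hDτ
  have hgf : ContDiffAt ℝ k (gradient f) (L.τ z y u) :=
    contDiffAt_gradient ((hf _ h2).contDiffAt (hO.mem_nhds h2))
  have hgτ : ContDiffAt ℝ k (fun v => gradient f (L.τ z y v)) u := hgf.comp u hτk
  have hWτ : ContDiffAt ℝ k (fun v => (fun w => T.N y w (gradient f w)) (L.τ z y v)) u :=
    ((hW _ h2).contDiffAt (hO.mem_nhds h2)).comp u hτk
  have hRs : ContDiffAt ℝ k (T.R z y) u :=
    ((T.R_smooth z y hz u h1).contDiffAt ((isOpen_dm L z y).mem_nhds h1)).of_le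
      (by exact_mod_cast le_top)
  exact hinv.clm_apply (hWτ.sub (hRs.clm_apply hgτ))

end Piece

/-! ### Rotations -/

theorem CkB_rot {V : Type*} [NormedAddCommGroup V] [NormedSpace ℝ V] {F : E2 → V} {k : ℕ}
    {r C : ℝ} (b : O2) (h : CkB k r C F) : CkB k r C (fun u => F (b u)) := by
  have hm : ∀ u : E2, u ∈ ball (0 : E2) r → b u ∈ ball (0 : E2) r := fun u hu => by
    rw [mem_ball_zero_iff] at hu ⊢
    rwa [LinearIsometryEquiv.norm_map]
  refine ⟨h.1.comp b.contDiff.contDiffOn hm, fun i hi u hu => ?_⟩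
  have h1 := b.norm_iteratedFDeriv_comp_right (𝕜 := ℝ) F u i
  have h2 : (F ∘ b) = fun u => F (b u) := rfl
  rw [h2] at h1
  rw [h1]
  exact h.2 i hi _ (hm u hu)

theorem CkB_rot_left {V W : Type*} [NormedAddCommGroup V] [NormedSpace ℝ V]
    [NormedAddCommGroup W] [NormedSpace ℝ W] {F : E2 → V} {k : ℕ}
    {r C : ℝ} (b : V ≃ₗᵢ[ℝ] W) (h : CkB k r C F) : CkB k r C (fun u => b (F u)) := by
  refine ⟨b.contDiff.comp_contDiffOn h.1, fun i hi u hu => ?_⟩
  have h1 := b.norm_iteratedFDeriv_comp_left (𝕜 := ℝ) F u i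
  have h2 : (b ∘ F) = fun u => b (F u) := rfl
  rw [h2] at h1
  rw [h1]
  exact h.2 i hi _ hu

theorem gradient_rot (F : E2 → ℝ) (b : O2) (u : E2) :
    gradient (fun v => F (b v)) u = b.symm (gradient F (b u)) := by
  refine ext_inner_right ℝ fun v => ?_
  rw [inner_gradient]
  have h1 : fderiv ℝ (F ∘ b) u = (fderiv ℝ F (b u)).comp (b.toContinuousLinearEquiv : E2 →L[ℝ] E2) :=
    b.toContinuousLinearEquiv.comp_right_fderiv
  have h2 : fderiv ℝ (fun v => F (b v)) u v = fderiv ℝ F (b u) (b v) := by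
    have : fderiv ℝ (fun v => F (b v)) u = fderiv ℝ (F ∘ b) u := rfl
    rw [this, h1]; rfl
  rw [h2, ← inner_gradient]
  conv_rhs => rw [← b.inner_map_map]
  rw [b.apply_symm_apply]

theorem grd_rot (f : B → ℝ) (b : O2) (z : X) {u : E2} (hu : u ∈ ball (0 : E2) 3) :
    grd L f (L.rot b z) u = b.symm (grd L f z (b u)) := by
  unfold grd
  rw [← gradient_rot (fun v => f (L.e z v)) b u]
  apply gradient_congr
  filter_upwards [isOpen_ball.mem_nhds hu] with v hv
  rw [L.e_rot b z v (ball_subset_closedBall hv)]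

theorem Wf_rot (T : Tens L) (f : B → ℝ) (b : O2) (z : X) {u : E2} (hu : u ∈ ball (0 : E2) 3) :
    Wf T f (L.rot b z) u = b.symm (Wf T f z (b u)) := by
  unfold Wf
  rw [grd_rot f b z hu, T.N_rot b z u hu, b.apply_symm_apply]

theorem CkB_fun_rot {f : B → ℝ} {c : ℝ} {z : X} {k : ℕ} {r C : ℝ} (hr : r ≤ 3) (b : O2)
    (h : CkB k r C (fun u => f (L.e z u) - c)) : CkB k r C (fun u => f (L.e (L.rot b z) u) - c) :=
  CkB_congr (CkB_rot b h) fun u hu => by
    rw [L.e_rot b z u (ball_subset_closedBall (ball_subset_ball hr hu))]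

theorem CkB_Wf_rot {T : Tens L} {f : B → ℝ} {z : X} {k : ℕ} {r C : ℝ} (hr : r ≤ 3) (b : O2)
    (h : CkB k r C (Wf T f z)) : CkB k r C (Wf T f (L.rot b z)) :=
  CkB_congr (CkB_rot_left b.symm (CkB_rot b h)) fun u hu => Wf_rot T f b z (ball_subset_ball hr hu)

/-! ### Initial bounds -/

/-- bounds on the first disc inside the piece, uniform in the rotation -/
theorem exists_piece (T : Tens L) {k : ℕ} {y : X} {O : Set E2} {f : E2 → ℝ} (hO : IsOpen O)
    (hO3 : O ⊆ ball 0 3) (hf : ContDiffOn ℝ (k + 1 : ℕ) f O)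
    (hW : ContDiffOn ℝ k (fun u => T.N y u (gradient f u)) O) {z₀ : X} (hz : L.em z₀ = L.em y)
    (he : L.ep z₀ ∈ L.e y '' O) : ∃ S, L.t1 ≤ S ∧ ∀ s ≥ S, ∃ C₀, 0 ≤ C₀ ∧ ∀ b : O2,
      CkB (k + 1) 1 C₀ (fun u => fB L y f (L.e (L.φ s (L.rot b z₀)) u)) ∧
      CkB k 1 C₀ (Wf T (fB L y f) (L.φ s (L.rot b z₀))) := by
  have hopen := isOpen_image_sub L y hO hO3
  -- a small disc around `ep z₀`
  have h1 : ∀ᶠ v in 𝓝 (0 : E2), L.e z₀ v ∈ L.e y '' O := by
    have hc : ContinuousAt (L.e z₀) 0 :=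
      (e_contOn L z₀).continuousAt (closedBall_mem_nhds _ (by norm_num))
    refine hc (hopen.mem_nhds ?_)
    rw [L.e_zero]; exact he
  obtain ⟨δ, hδ, hδe⟩ := Metric.mem_nhds_iff.1 h1
  obtain ⟨S, hS, hSx⟩ := exists_contr L hδ
  refine ⟨S, hS, fun s hs => ?_⟩
  have hin : ∀ u ∈ ball (0 : E2) 3, L.e (L.φ s z₀) u ∈ L.e y '' O := by
    intro u hu
    obtain ⟨v, hv, -, hve⟩ := hSx z₀ s hs u hu
    rw [hve]; exact hδe hv
  have hem : L.em (L.φ s z₀) = L.em y := by rw [L.em_φ, hz]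
  have hF : ContDiffOn ℝ (k + 1 : ℕ) (fun u => fB L y f (L.e (L.φ s z₀) u)) (ball 0 3) :=
    fun u hu => (piece_fun hO hO3 hf hem hu (hin u hu)).contDiffWithinAt
  have hWs : ContDiffOn ℝ k (Wf T (fB L y f) (L.φ s z₀)) (ball 0 3) :=
    fun u hu => (piece_W hO hO3 hf hW hem hu (hin u hu)).contDiffWithinAt
  obtain ⟨C₁, hC₁, hb₁⟩ := exists_CkB_of_contDiffOn (r := 1) (by norm_num) hF
  obtain ⟨C₂, hC₂, hb₂⟩ := exists_CkB_of_contDiffOn (r := 1) (by norm_num) hWs
  refine ⟨max C₁ C₂, hC₁.trans (le_max_left _ _), fun b => ?_⟩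
  rw [← L.rot_φ]
  constructor
  · have h2 : CkB (k + 1) 1 C₁ (fun u => fB L y f (L.e (L.φ s z₀) u) - 0) := by
      simpa using hb₁
    have h3 := CkB_fun_rot (L := L) (by norm_num) b h2
    have h4 : CkB (k + 1) 1 C₁ (fun u => fB L y f (L.e (L.rot b (L.φ s z₀)) u)) := by
      simpa using h3
    exact h4.mono le_rfl le_rfl (le_max_left _ _)
  · exact (CkB_Wf_rot (by norm_num) b hb₂).mono le_rfl le_rfl (le_max_right _ _)

end Vale.Agent.P207.N3.H545
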