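import Vale.Agent.P207.N3.H545.Step2

/-!
N3-P5 (helper545): LEMMA R for functions on a leaf, real times; symmetric tensors; `N ∇f`.
-/

set_option maxSynthPendingDepth 3

open Set Filter Topology Metric
open scoped ContDiff

noncomputable section

namespace Vale.Agent.P207.N3.H545

open Vale.Agent.P207.N3

variable {Γ X B : Type} [Group Γ] [MetricSpace X] [ProperSpace X] [MulAction Γ X]
  [IsIsometricSMul Γ X] [TopologicalSpace B] [CompactSpace B] [T2Space B] [MulAction Γ B]
  [ContinuousConstSMul Γ B]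

variable (L : Leaf Γ X B)

/-- the frames of the unit steps below `φ_T x`. -/
theorem stp_real (x : X) (T : ℝ) (n s : ℕ) :
    stp L (L.φ (T - n * ts L) x) n s = L.φ (T - s * ts L) x := by
  unfold stp
  rw [← L.φ_add]; congr 1; ring

/-- a function on the leaf, seen in the chart of a frame further down -/
theorem fun_step {V : Type} (f : B → V) {t : ℝ} (ht : L.t1 ≤ t) (y : X) {u : E2}
    (hu : u ∈ closedBall (0 : E2) 3) :
    f (L.e (L.φ t y) u) = f (L.e y (L.τ (L.φ t y) y u)) := by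
  rw [e_tau_step L ht y hu]

/-- smoothness passes from the lower to the higher charts (in ball of radius `3`). -/
theorem fun_step_contDiffOn {V : Type} [NormedAddCommGroup V] [NormedSpace ℝ V] {f : B → V}
    {k : ℕ} {t : ℝ} (ht : L.t1 ≤ t) {y : X}
    (hf : ContDiffOn ℝ k (fun u => f (L.e y u)) (ball (0 : E2) 1)) :
    ContDiffOn ℝ k (fun u => f (L.e (L.φ t y) u)) (ball (0 : E2) 3) := by
  have h1 : ContDiffOn ℝ k (L.τ (L.φ t y) y) (ball (0 : E2) 3) :=
    (tau_step_smooth L ht y).of_le (by exact_mod_cast le_top)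
  have h2 := hf.comp h1 (fun u hu => tau_step_mem L ht y (ball_subset_closedBall hu))
  refine h2.congr fun u hu => ?_
  exact fun_step L f ht y (ball_subset_closedBall hu)

/-- LEMMA R for functions, unit steps. -/
theorem fun_R (Λ : ℝ) : ∃ k₀ : ℕ, ∀ k ≥ k₀, ∃ C : ℝ, 1 ≤ C ∧
    ∀ (V : Type) [NormedAddCommGroup V] [NormedSpace ℝ V] (f : B → V) (c : V) (y : X) (n : ℕ)
      (M : ℝ), 0 ≤ M →
      (∀ s ≤ n, ∀ u ∈ ball (0 : E2) 2, ‖f (L.e (stp L y n s) u) - c‖ ≤ M * Real.exp (Λ * s)) →
      CkB k 2 (M * Real.exp (Λ * n)) (fun u => f (L.e y u) - c) →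
      ∀ s ≤ n, CkB k 2 (C * (M * Real.exp (Λ * s))) (fun u => f (L.e (stp L y n s) u) - c) := by
  obtain ⟨k₀, hk₀⟩ := lemma_R_leaf L 1 Λ
  refine ⟨k₀, fun k hk => ?_⟩
  obtain ⟨C, hC1, hC⟩ := hk₀ k hk 1
  refine ⟨C, hC1, ?_⟩
  intro V _ _ f c y n M hM hZ0 hZn
  have hstep : ∀ s, stp L y n s = L.φ (ts L) (stp L y n (s + 1)) := stp_step L y n
  have h23 : ball (0 : E2) 2 ⊆ ball 0 3 := ball_subset_ball (by norm_num)
  have h23' : ball (0 : E2) 2 ⊆ closedBall 0 3 := h23.trans ball_subset_closedBall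
  -- smoothness
  have hsm : ∀ m ≤ n, ∀ s, s + m = n →
      ContDiffOn ℝ k (fun u => f (L.e (stp L y n s) u) - c) (ball 0 2) := by
    intro m
    induction m with
    | zero =>
      intro _ s hs
      have : s = n := by omega
      subst this
      rw [stp_self]
      exact hZn.1
    | succ m ihm =>
      intro hm s hs
      have h1 := ihm (by omega) (s + 1) (by omega)
      have h2 : ContDiffOn ℝ k (fun u => (fun b => f b - c) (L.e (stp L y n (s + 1)) u))
          (ball (0 : E2) 1) := h1.mono (ball_subset_ball (by norm_num))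
      have h3 := fun_step_contDiffOn L (f := fun b => f b - c) (t1_le_ts L) h2
      rw [hstep s]
      exact h3.mono h23
  refine hC V y n M (fun s u => f (L.e (stp L y n s) u) - c) (fun _ _ => 0)
    (fun _ _ => ContinuousLinearMap.id ℝ V) hM (fun s hs => hsm (n - s) (by omega) s (by omega))
    ?_ ?_ ?_ hZ0 ?_ ?_
  · intro s _ u _
    exact ContinuousLinearMap.norm_id_le
  · intro s _
    refine ⟨contDiffOn_const, fun i _ u _ => ?_⟩
    rcases Nat.eq_zero_or_pos i with h | h
    · subst h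
      rw [norm_iteratedFDeriv_zero]
      exact ContinuousLinearMap.norm_id_le
    · rw [iteratedFDeriv_const_of_ne (by omega)]
      simp
  · intro s _ u hu
    simp only [ContinuousLinearMap.coe_id', id_eq, add_zero]
    congr 1
    have h1 := fun_step L f (t1_le_ts L) (stp L y n (s + 1)) (h23' hu)
    rw [← hstep s] at h1
    exact h1
  · intro s _
    refine ⟨contDiffOn_const, fun i _ u _ => ?_⟩
    have h0 : iteratedFDeriv ℝ i (fun _ : E2 => (0 : V)) u = 0 := by simp
    rw [h0, norm_zero]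
    have := Real.exp_pos (Λ * s)
    positivity
  · have := hZn
    simp only [stp_self]
    exact this

/-- LEMMA R for functions, real times: `‖f_t - c‖ ≤ M e^{Λ(T-t)}` on the discs below `φ_T x`
and initial `C^k` bounds imply uniform `C^k` bounds. -/
theorem fun_R_real (Λ : ℝ) (hΛ : 0 ≤ Λ) : ∃ k₀ : ℕ, ∀ k ≥ k₀, ∃ C : ℝ, 1 ≤ C ∧
    ∀ (V : Type) [NormedAddCommGroup V] [NormedSpace ℝ V] (f : B → V) (c : V) (x : X)
      (T M : ℝ), 0 ≤ M →
      (∀ t ∈ Icc 0 T, ∀ u ∈ ball (0 : E2) 2,
        ‖f (L.e (L.φ t x) u) - c‖ ≤ M * Real.exp (Λ * (T - t))) →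
      (∀ t ∈ Icc 0 T, t ≤ ts L →
        CkB k 2 (M * Real.exp (Λ * T)) (fun u => f (L.e (L.φ t x) u) - c)) →
      ∀ t ∈ Icc 0 T, CkB k 2 (C * (M * Real.exp (Λ * (T - t))))
        (fun u => f (L.e (L.φ t x) u) - c) := by
  obtain ⟨k₀, hk₀⟩ := fun_R L (Λ * ts L)
  refine ⟨k₀, fun k hk => ?_⟩
  obtain ⟨C, hC1, hC⟩ := hk₀ k hk
  have hts := ts_pos L
  have hC' : 1 ≤ C * Real.exp (Λ * ts L) := by
    have : 1 ≤ Real.exp (Λ * ts L) := Real.one_le_exp (by positivity)
    nlinarith
  refine ⟨C * Real.exp (Λ * ts L), hC', ?_⟩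
  intro V _ _ f c x T M hM h0 hin t ht
  set n : ℕ := ⌊t / ts L⌋₊ with hn
  have hn1 : (n : ℝ) * ts L ≤ t := by
    have := Nat.floor_le (div_nonneg ht.1 hts.le)
    rw [← hn] at this
    rwa [le_div_iff₀ hts] at this
  have hn2 : t < ((n : ℝ) + 1) * ts L := by
    have := Nat.lt_floor_add_one (t / ts L)
    rw [← hn] at this
    rwa [div_lt_iff₀ hts] at this
  set y : X := L.φ (t - n * ts L) x with hy
  set M' : ℝ := M * Real.exp (Λ * (T - t)) * Real.exp (Λ * ts L) with hM'
  have hM'0 : 0 ≤ M' := by positivity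
  have hexp1 : 1 ≤ Real.exp (Λ * ts L) := Real.one_le_exp (by positivity)
  have hstp : ∀ s : ℕ, stp L y n s = L.φ (t - s * ts L) x := fun s => stp_real L x t n s
  have key := hC V f c y n M' hM'0
    (by
      intro s hs u hu
      rw [hstp s]
      have hs' : (s : ℝ) * ts L ≤ n * ts L := by gcongr
      have hmem : t - s * ts L ∈ Icc 0 T := ⟨by linarith, by
        have : 0 ≤ (s : ℝ) * ts L := by positivity
        linarith [ht.2]⟩
      refine (h0 _ hmem u hu).trans ?_
      have e1 : Real.exp (Λ * (T - (t - s * ts L))) =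
          Real.exp (Λ * (T - t)) * Real.exp (Λ * ts L * s) := by
        rw [← Real.exp_add]; congr 1; ring
      rw [e1, hM']
      calc M * (Real.exp (Λ * (T - t)) * Real.exp (Λ * ts L * s))
          = M * Real.exp (Λ * (T - t)) * 1 * Real.exp (Λ * ts L * s) := by ring
        _ ≤ M * Real.exp (Λ * (T - t)) * Real.exp (Λ * ts L) * Real.exp (Λ * ts L * s) := by
            gcongr)
    (by
      have hmem : t - n * ts L ∈ Icc 0 T := ⟨by linarith, by
        have : 0 ≤ (n : ℝ) * ts L := by positivity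
        linarith [ht.2]⟩
      refine (hin _ hmem (by linarith)).mono le_rfl le_rfl ?_
      rw [hM', mul_assoc, mul_assoc, ← Real.exp_add, ← Real.exp_add]
      refine mul_le_mul_of_nonneg_left ?_ hM
      apply Real.exp_le_exp.mpr
      nlinarith) 0 (Nat.zero_le _)
  rw [hstp 0] at key
  simp only [Nat.cast_zero, zero_mul, sub_zero, mul_zero, Real.exp_zero, mul_one] at key
  refine key.mono le_rfl le_rfl (le_of_eq ?_)
  rw [hM']; ring

end Vale.Agent.P207.N3.H545
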