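import Vale.Agent.P207.N3.Spec
import Vale.Agent.P207.N3.H545.LemR

/-!
N3-P5 (helper545): unit steps `φ_{ts}` of the leaf charts, LEMMA R over `Leaf` for scalar
functions and for tensors with a given transformation matrix.
-/

set_option maxSynthPendingDepth 3

open Set Filter Topology Metric
open scoped ContDiff

noncomputable section

namespace Vale.Agent.P207.N3.H545

open Vale.Agent.P207.N3

variable {Γ X B : Type} [Group Γ] [MetricSpace X] [ProperSpace X] [MulAction Γ X]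
  [IsIsometricSMul Γ X] [TopologicalSpace B] [CompactSpace B] [T2Space B] [MulAction Γ B]
  [ContinuousConstSMul Γ B]

variable (L : Leaf Γ X B)

section Basic

/-- the transition map solves `e y (τ u) = e x u`. -/
theorem e_tau {x y : X} {u : E2} (h : L.e x u ∈ L.e y '' closedBall (0 : E2) 3) :
    L.τ x y u ∈ closedBall (0 : E2) 3 ∧ L.e y (L.τ x y u) = L.e x u := by
  have h' : ∃ a ∈ closedBall (0 : E2) 3, L.e y a = L.e x u := h
  exact ⟨Function.invFunOn_mem h', Function.invFunOn_eq h'⟩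

theorem tau_eq_of {x y : X} {u v : E2} (hv : v ∈ closedBall (0 : E2) 3)
    (h : L.e y v = L.e x u) : L.τ x y u = v := by
  have h1 := e_tau L (x := x) (y := y) (u := u) ⟨v, hv, h⟩
  exact L.e_inj y h1.1 hv (h1.2.trans h.symm)

theorem tau_mem_ball {x y : X} {u : E2} {r : ℝ} (hr : r ≤ 3)
    (h : L.e x u ∈ L.e y '' ball (0 : E2) r) : L.τ x y u ∈ ball (0 : E2) r := by
  obtain ⟨v, hv, he⟩ := h
  have hv3 : v ∈ closedBall (0 : E2) 3 :=
    ball_subset_closedBall (ball_subset_ball hr hv)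
  rw [tau_eq_of L hv3 he]; exact hv

theorem em_φ_eq (t : ℝ) (x : X) : L.em (L.φ t x) = L.em x := L.em_φ t x

theorem φ_sub (s t : ℝ) (x : X) : L.φ s (L.φ (t - s) x) = L.φ t x := by
  rw [← L.φ_add]; congr 1; ring

/-- backwards in time by `t ≥ t1`: the disc of radius `3` goes into the disc of radius `1`. -/
theorem tau_step_mem {t : ℝ} (ht : L.t1 ≤ t) (y : X) {u : E2} (hu : u ∈ closedBall (0 : E2) 3) :
    L.τ (L.φ t y) y u ∈ ball (0 : E2) 1 :=
  tau_mem_ball L (by norm_num) (L.engulf y t ht ⟨u, hu, rfl⟩)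

theorem e_tau_step {t : ℝ} (ht : L.t1 ≤ t) (y : X) {u : E2} (hu : u ∈ closedBall (0 : E2) 3) :
    L.e y (L.τ (L.φ t y) y u) = L.e (L.φ t y) u := by
  have h := L.engulf y t ht ⟨u, hu, rfl⟩
  have h2 : L.e (L.φ t y) u ∈ L.e y '' closedBall (0 : E2) 3 := by
    obtain ⟨v, hv, he⟩ := h
    exact ⟨v, ball_subset_closedBall (ball_subset_ball (by norm_num) hv), he⟩
  exact (e_tau L h2).2

theorem dm_step {t : ℝ} (ht : L.t1 ≤ t) (y : X) : L.dm (L.φ t y) y = ball (0 : E2) 3 := by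
  ext u
  constructor
  · exact fun h => h.1
  · intro hu
    refine ⟨hu, ?_⟩
    obtain ⟨v, hv, he⟩ := L.engulf y t ht ⟨u, ball_subset_closedBall hu, rfl⟩
    exact ⟨v, ball_subset_ball (by norm_num) hv, he⟩

theorem tau_step_smooth {t : ℝ} (ht : L.t1 ≤ t) (y : X) :
    ContDiffOn ℝ ∞ (L.τ (L.φ t y) y) (ball (0 : E2) 3) := by
  have := L.tau_smooth (L.φ t y) y (L.em_φ t y)
  rw [show dom L.e (L.φ t y) y = ball (0 : E2) 3 from dm_step L ht y] at this
  exact this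

end Basic

/-- contraction constants -/
def cc (k : ℕ) : ℝ := if h : 1 ≤ k then max (Classical.choose (L.contract k h)) 1 else 1

theorem one_le_cc (k : ℕ) : 1 ≤ cc L k := by
  unfold cc; split_ifs with h
  · exact le_max_right _ _
  · exact le_rfl

theorem contract_cc {k : ℕ} (hk : 1 ≤ k) {t : ℝ} (ht : L.t1 ≤ t) (x : X) {u : E2}
    (hu : u ∈ ball (0 : E2) 3) :
    ‖iteratedFDeriv ℝ k (L.τ (L.φ t x) x) u‖ ≤ cc L k * Real.exp (-L.χ * t) := by
  have h1 := Classical.choose_spec (L.contract k hk) x t ht u hu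
  have h2 : Classical.choose (L.contract k hk) ≤ cc L k := by
    unfold cc; rw [dif_pos hk]; exact le_max_left _ _
  exact h1.trans (mul_le_mul_of_nonneg_right h2 (Real.exp_pos _).le)

/-- the length of a unit step: `‖Dτ‖ ≤ 1/2`. -/
def ts : ℝ := max L.t1 (Real.log (2 * cc L 1) / L.χ)

theorem t1_le_ts : L.t1 ≤ ts L := le_max_left _ _

theorem ts_pos : 0 < ts L := L.t1_pos.trans_le (t1_le_ts L)

theorem norm_fderiv_tau_step_le {t : ℝ} (ht : ts L ≤ t) (y : X) {u : E2}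
    (hu : u ∈ ball (0 : E2) 3) : ‖fderiv ℝ (L.τ (L.φ t y) y) u‖ ≤ 1 / 2 := by
  have h1 := contract_cc L le_rfl ((t1_le_ts L).trans ht) y hu
  rw [norm_iteratedFDeriv_one] at h1
  refine h1.trans ?_
  have hc := one_le_cc L 1
  have hχ := L.χ_pos
  have h2 : Real.log (2 * cc L 1) ≤ L.χ * t := by
    have h3 : Real.log (2 * cc L 1) / L.χ ≤ t := (le_max_right _ _).trans ht
    rw [div_le_iff₀ hχ] at h3; linarith
  have h4 : Real.exp (-L.χ * t) ≤ Real.exp (-Real.log (2 * cc L 1)) := by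
    apply Real.exp_le_exp.mpr; linarith
  have h5 : Real.exp (-Real.log (2 * cc L 1)) = (2 * cc L 1)⁻¹ := by
    rw [Real.exp_neg, Real.exp_log (by positivity)]
  calc cc L 1 * Real.exp (-L.χ * t) ≤ cc L 1 * (2 * cc L 1)⁻¹ := by
        rw [← h5]; gcongr
    _ = 1 / 2 := by field_simp

theorem norm_iteratedFDeriv_tau_step_le {k : ℕ} (hk : 1 ≤ k) {t : ℝ} (ht : L.t1 ≤ t) (y : X)
    {u : E2} (hu : u ∈ ball (0 : E2) 3) :
    ‖iteratedFDeriv ℝ k (L.τ (L.φ t y) y) u‖ ≤ cc L k := by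
  refine (contract_cc L hk ht y hu).trans ?_
  have h1 : Real.exp (-L.χ * t) ≤ 1 := by
    rw [Real.exp_le_one_iff]
    have := mul_pos L.χ_pos (L.t1_pos.trans_le ht)
    linarith
  calc cc L k * Real.exp (-L.χ * t) ≤ cc L k * 1 :=
        mul_le_mul_of_nonneg_left h1 (zero_le_one.trans (one_le_cc L k))
    _ = _ := mul_one _

/-- a common bound of all derivatives of order `≤ k` of the unit steps -/
def cs (k : ℕ) : ℝ := ∑ i ∈ Finset.range (k + 1), cc L i

theorem cc_le_cs {i k : ℕ} (h : i ≤ k) : cc L i ≤ cs L k :=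
  Finset.single_le_sum (f := cc L) (fun j _ => zero_le_one.trans (one_le_cc L j))
    (Finset.mem_range.mpr (Nat.lt_succ_of_le h))

/-- the frames of the unit steps: `stp y n s` is `s` steps below `φ_{n ts} y`. -/
def stp (y : X) (n s : ℕ) : X := L.φ (((n : ℝ) - s) * ts L) y

theorem stp_self (y : X) (n : ℕ) : stp L y n n = y := by
  unfold stp; rw [sub_self, zero_mul, L.φ_zero]

theorem stp_step (y : X) (n s : ℕ) : stp L y n s = L.φ (ts L) (stp L y n (s + 1)) := by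
  unfold stp; rw [← L.φ_add]; congr 1; push_cast; ring

/-- LEMMA R over `Leaf`, general linear action. For every bound `a` of the matrices and every
growth `Λ` (per unit step) there is `k₀` such that for `k ≥ k₀` everything is `C^k`-bounded. -/
theorem lemma_R_leaf (a Λ : ℝ) : ∃ k₀ : ℕ, ∀ k ≥ k₀, ∀ c : ℝ, ∃ C : ℝ, 1 ≤ C ∧
    ∀ (F : Type) [NormedAddCommGroup F] [NormedSpace ℝ F] (y : X) (n : ℕ) (M : ℝ)
      (Z Err : ℕ → E2 → F) (A : ℕ → E2 → (F →L[ℝ] F)), 0 ≤ M →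
      (∀ s ≤ n, ContDiffOn ℝ k (Z s) (ball 0 2)) →
      (∀ s < n, ∀ u ∈ ball (0 : E2) 2, ‖A s u‖ ≤ a) →
      (∀ s < n, CkB k 2 c (A s)) →
      (∀ s < n, ∀ u ∈ ball (0 : E2) 2,
        Z s u = A s u (Z (s + 1) (L.τ (stp L y n s) (stp L y n (s + 1)) u)) + Err s u) →
      (∀ s ≤ n, ∀ u ∈ ball (0 : E2) 2, ‖Z s u‖ ≤ M * Real.exp (Λ * s)) →
      (∀ s < n, CkB k 2 (M * Real.exp (Λ * s)) (Err s)) →
      CkB k 2 (M * Real.exp (Λ * n)) (Z n) →
      ∀ s ≤ n, CkB k 2 (C * (M * Real.exp (Λ * s))) (Z s) := by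
  -- choice of `k₀`
  obtain ⟨k₀, hk₀⟩ : ∃ k₀ : ℕ, ∀ k ≥ k₀, max a 0 * (1 / 2 : ℝ) ^ k * Real.exp Λ ≤ 1 / 4 := by
    have h1 : Tendsto (fun k : ℕ => max a 0 * (1 / 2 : ℝ) ^ k * Real.exp Λ) atTop
        (𝓝 (max a 0 * 0 * Real.exp Λ)) :=
      ((tendsto_pow_atTop_nhds_zero_of_lt_one (by norm_num) (by norm_num)).const_mul _).mul_const _
    rw [mul_zero, zero_mul] at h1
    have h2 := h1.eventually (ge_mem_nhds (show (0 : ℝ) < 1 / 4 by norm_num))
    exact eventually_atTop.mp h2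
  refine ⟨k₀, fun k hk c => ?_⟩
  obtain ⟨C, hC1, hC⟩ := exists_lemma_R k E2 (show (1 : ℝ) < 2 by norm_num) (max c (cs L k)) Λ
  refine ⟨C, hC1, ?_⟩
  intro F _ _ y n M Z Err A hM hZ hAa hA hrec hZ0 hErr hZn
  have h23 : ball (0 : E2) 2 ⊆ ball 0 3 := ball_subset_ball (by norm_num)
  set τ : ℕ → E2 → E2 := fun s => L.τ (stp L y n s) (stp L y n (s + 1)) with hτ
  have hτeq : ∀ s, τ s = L.τ (L.φ (ts L) (stp L y n (s + 1))) (stp L y n (s + 1)) := by
    intro s; rw [hτ]; simp only; rw [← stp_step]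
  refine hC F n M (max a 0) (1 / 2) Z Err A τ hM (le_max_right _ _) (by norm_num) (hk₀ k hk) hZ
    ?_ ?_ ?_ ?_ ?_ hrec hZ0 hErr hZn
  · intro s _
    rw [hτeq]
    exact ((tau_step_smooth L (t1_le_ts L) _).mono h23).of_le (by exact_mod_cast le_top)
  · intro s _ u hu
    rw [hτeq]
    exact tau_step_mem L (t1_le_ts L) _ (ball_subset_closedBall (h23 hu))
  · intro s hs u hu
    refine ⟨(hAa s hs u hu).trans (le_max_left _ _), ?_⟩
    rw [hτeq]
    exact norm_fderiv_tau_step_le L le_rfl _ (h23 hu)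
  · exact fun s hs => (hA s hs).mono le_rfl le_rfl (le_max_left _ _)
  · intro s _ i hi hik u hu
    rw [hτeq]
    exact (norm_iteratedFDeriv_tau_step_le L hi (t1_le_ts L) _ (h23 hu)).trans
      ((cc_le_cs L hik).trans (le_max_right _ _))

end Vale.Agent.P207.N3.H545
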